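import Mathlib
import Vale.Agent.Lib.P154.Pointwise

/-!
Definitions for P154 on Galton-Watson trees: the three-state Potts channel, offspring law `pi`.
-/

namespace Vale.Agent.Lib.P154E

open Finset BigOperators
open Vale.Agent.Lib.P154

/-- What is seen below a vertex when the spins at distance `n` below it are observed:
at distance `0` its own spin; at distance `n + 1` the number of children and, for each child
(children are listed in an arbitrary order), what is seen below that child at distance `n`. -/
def Obs : ℕ → Type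
  | 0 => Fin 3
  | n + 1 => Σ k : ℕ, (Fin k → Obs n)

/-- At distance `0` the observation is the spin of the vertex. -/
def obsSpin (η : Obs 0) : Fin 3 := η

/-- The number of children in an observation at distance `n + 1`. -/
def obsNum {n : ℕ} (η : Obs (n + 1)) : ℕ := Sigma.fst (β := fun k => Fin k → Obs n) η

/-- The observation below a child. -/
def obsChild {n : ℕ} (η : Obs (n + 1)) (c : Fin (obsNum η)) : Obs n :=
  Sigma.snd (β := fun k => Fin k → Obs n) η c

/-- `lik pi lam n i η` is the probability of the observation `η` given that the vertex has spin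
`i`, when the numbers of children are independent with law `pi`. -/
noncomputable def lik (pi : ℕ → ℝ) (lam : ℝ) : (n : ℕ) → Fin 3 → Obs n → ℝ
  | 0, i, η => if i = obsSpin η then 1 else 0
  | n + 1, i, η => pi (obsNum η) * ∏ c, ∑ j : Fin 3, potts lam i j * lik pi lam n j (obsChild η c)

/-- The reconstruction quantity `a_n` for the Galton-Watson tree with offspring law `pi`:
`a_n = ∑_η (1/2) ∑_i | P(σ_ρ = i, obs = η) - (1/3) P(obs = η) |`. -/
noncomputable def recon (pi : ℕ → ℝ) (lam : ℝ) (n : ℕ) : ℝ :=
  ∑' η : Obs n, (1 / 2) * ∑ i : Fin 3,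
    |(1 / 3) * lik pi lam n i η - (1 / 3) * ((1 / 3) * ∑ j : Fin 3, lik pi lam n j η)|

/-- The Poisson law with mean `d`. -/
noncomputable def pois (d : ℝ) (k : ℕ) : ℝ := Real.exp (-d) * d ^ k / (k.factorial : ℝ)

/-- The functional `X = c - A s^2 (1 - K s)`, `A = 11/128`, `K = 3/64`. -/
noncomputable def xE (v : Fin 3 → ℝ) : ℝ :=
  cC v - (11 / 128) * sS v ^ 2 * (1 - (3 / 64) * sS v)

/-- The coefficient function `Λ(u) = (7/32) s - (9/32) c + (3/256) s^2`. -/
noncomputable def lE (u : Fin 3 → ℝ) : ℝ :=
  (7 / 32) * sS u - (9 / 32) * cC u + (3 / 256) * sS u ^ 2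

/-- Inequality (I) at full strength of the channel. -/
def IneqIE : Prop := ∀ u v : Fin 3 → ℝ, inT u → inT v →
  (1 - (25 / 128) * sS v + (11 / 1024) * sS v ^ 2) * xE u + gG u * (1 - (21 / 128) * sS u) * xE v ≤
    (1 / 6) * ∑ g : Equiv.Perm (Fin 3),
      mM u (fun i => v (g i)) * xE (vV u (fun i => v (g i)))

/-- Inequality (II) at full strength of the channel. -/
def IneqIIE : Prop := ∀ u v : Fin 3 → ℝ, inT u → inT v →
  (1 / 6) * ∑ g : Equiv.Perm (Fin 3),
      mM u (fun i => v (g i)) * sS (vV u (fun i => v (g i))) ≤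
    sS u + sS v - (57 / 256) * sS v * xE u - lE u * xE v - (1 / 1024) * sS v * sS u

end Vale.Agent.Lib.P154E
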