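import Mathlib
import Vale.Agent.Lib.P154.Framework
import Vale.Agent.Lib.P154E.Defs
import Vale.Agent.Lib.P154E.ETBox
import Vale.Agent.Lib.P154E.EChartCore
import Vale.Agent.Lib.P154E.EChartMirror

/-!
The inequalities (I) and (II) at full strength of the channel, in the sorted chart.
-/

namespace Vale.Agent.Lib.P154E

open Finset BigOperators
open Vale.Agent.Lib.P154

/-- The message in chart coordinates. -/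
noncomputable def chartV (ρ x : ℝ) : Fin 3 → ℝ := ![-ρ, ρ * (1 / 2 - x), ρ * (1 / 2 + x)]

lemma sS_chart (ρ x : ℝ) : sS (chartV ρ x) = ssC ρ x := by
  simp only [sS, chartV, ssC, sigC, Fin.sum_univ_three]
  simp
  ring

lemma cC_chart (ρ x : ℝ) : cC (chartV ρ x) = 3 * c3C ρ x := by
  simp only [cC, chartV, c3C, rg3C, Fin.sum_univ_three]
  simp
  ring

lemma gG_chart (ρ x : ℝ) : gG (chartV ρ x) = 1 - ssC ρ x / 2 + c3C ρ x := by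
  simp only [gG, chartV, ssC, c3C, sigC, rg3C, Fin.prod_univ_three]
  simp
  ring

lemma sum_chart (ρ x : ℝ) : ∑ i, chartV ρ x i = 0 := by
  simp only [chartV, Fin.sum_univ_three]
  simp
  ring

lemma inT_chart {ρ x : ℝ} (h0 : 0 ≤ ρ) (h1 : ρ ≤ 1) (h2 : 0 ≤ x) (h3 : x ≤ 3 / 2) :
    inT (chartV ρ x) := by
  refine ⟨sum_chart ρ x, ?_⟩
  intro i
  fin_cases i
  · simp [chartV]; linarith
  · simp [chartV]; nlinarith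
  · simp [chartV]; nlinarith

lemma inT_perm {v : Fin 3 → ℝ} (hv : inT v) (g : Equiv.Perm (Fin 3)) : inT (fun i => v (g i)) := by
  refine ⟨?_, fun i => hv.2 _⟩
  rw [Equiv.sum_comp g v]
  exact hv.1

lemma mM_nonneg {u w : Fin 3 → ℝ} (hu : inT u) (hw : inT w) : 0 ≤ mM u w := by
  have e : mM u w = (1 / 3) * ∑ i, (1 + u i) * (1 + w i) := by
    have hu0 := hu.1
    have hw0 := hw.1
    simp only [Fin.sum_univ_three] at hu0 hw0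
    simp only [mM, Fin.sum_univ_three]
    linear_combination (-(1 / 3)) * hu0 + (-(1 / 3)) * hw0
  rw [e]
  apply mul_nonneg (by norm_num)
  apply Finset.sum_nonneg
  intro i _
  exact mul_nonneg (by linarith [hu.2 i]) (by linarith [hw.2 i])

lemma vV_inT {u w : Fin 3 → ℝ} (hu : inT u) (hw : inT w) (hm : 0 < mM u w) : inT (vV u w) := by
  refine ⟨?_, fun i => ?_⟩
  · have hu0 := hu.1
    have hw0 := hw.1
    simp only [Fin.sum_univ_three] at hu0 hw0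
    have e : (1 + u 0) * (1 + w 0) + (1 + u 1) * (1 + w 1) + (1 + u 2) * (1 + w 2) = 3 * mM u w := by
      simp only [mM, Fin.sum_univ_three]
      linear_combination hu0 + hw0
    simp only [vV, Fin.sum_univ_three]
    have hne := hm.ne'
    field_simp
    linear_combination e
  · have h1 : 0 ≤ 1 + u i := by linarith [hu.2 i]
    have h2 : 0 ≤ 1 + w i := by linarith [hw.2 i]
    have : 0 ≤ (1 + u i) * (1 + w i) / mM u w := by positivity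
    simp only [vV]
    linarith

lemma xE_ge {v : Fin 3 → ℝ} (hv : inT v) : -3 ≤ xE v := by
  have hs0 := sS_nonneg v
  have hs6 := sS_le_six hv
  have hG := gG_nonneg hv
  have h0 := inT_sum hv
  have e : cC v = 3 * gG v - 3 + (3 / 2) * sS v := by
    have e2 : v 2 = - v 0 - v 1 := by linarith
    simp only [cC_eq, sS_eq, gG, Fin.prod_univ_three]
    rw [e2]
    ring
  unfold xE
  rw [e]
  set s := sS v with hs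
  have h1 : s ^ (2 : ℕ) ≤ 6 * s := by nlinarith
  have h2 : 0 ≤ s ^ (3 : ℕ) := by positivity
  nlinarith

lemma term_low {u w : Fin 3 → ℝ} (hu : inT u) (hw : inT w) :
    -3 * mM u w ≤ mM u w * xE (vV u w) := by
  rcases (mM_nonneg hu hw).lt_or_eq with hm | hm
  · have := xE_ge (vV_inT hu hw hm)
    nlinarith
  · rw [← hm]
    simp

lemma term_up {u w : Fin 3 → ℝ} (hu : inT u) (hw : inT w) :
    mM u w * sS (vV u w) ≤ 6 * mM u w := by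
  rcases (mM_nonneg hu hw).lt_or_eq with hm | hm
  · have := sS_le_six (vV_inT hu hw hm)
    nlinarith
  · rw [← hm]
    simp

lemma six_le {L T : ℝ} (h : 6 * L ≤ T) : L ≤ (1 / 6) * T := by linarith

lemma le_six {L T : ℝ} (h : T ≤ 6 * L) : (1 / 6) * T ≤ L := by linarith

/-- The value of `m X(V)` at a merge is bounded below by an expression free of the merged message. -/
lemma merge_lowerE {c' s' s ζ m ib M GG : ℝ} (hm : 0 < m) (hib : m * ib = 1) (hs' : 0 ≤ s')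
    (h1 : s' = s + ib * M) (h2 : c' = 3 * GG * ib ^ (3 : ℕ) - 3 + (3 / 2) * s') :
    TvalE GG m ib M s ζ ≤ m * (c' - (11 / 128) * s' ^ (2 : ℕ) * (1 - (3 / 64) * s')) := by
  have e0 : m * s + M = m * s' := by
    rw [h1]
    linear_combination (-M) * hib
  have e1 : m * s ^ (2 : ℕ) + 2 * s * M + ib * M ^ (2 : ℕ) = m * s' ^ (2 : ℕ) := by
    rw [h1]
    linear_combination (-(2 * s * M + ib * M ^ (2 : ℕ))) * hib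
  have e2 : m * c' = 3 * GG * ib ^ (2 : ℕ) - 3 * m + (3 / 2) * (m * s') := by
    rw [h2]
    linear_combination (3 * GG * ib ^ (2 : ℕ)) * hib
  have key : ζ ^ (3 : ℕ) + 3 * ζ ^ (2 : ℕ) * (s' - ζ) + 2 * ζ * (s' - ζ) ^ (2 : ℕ) ≤ s' ^ (3 : ℕ) := by
    nlinarith [mul_nonneg hs' (sq_nonneg (s' - ζ))]
  have key2 := mul_le_mul_of_nonneg_left key hm.le
  unfold TvalE
  rw [e1, e0]
  have e4 : m * (c' - (11 / 128) * s' ^ (2 : ℕ) * (1 - (3 / 64) * s')) =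
      m * c' - (11 / 128) * (m * s' ^ (2 : ℕ)) + (11 / 128) * (3 / 64) * (m * s' ^ (3 : ℕ)) := by ring
  rw [e4, e2]
  nlinarith [key2]

/-- The value of one merge term in the chart. -/
lemma term_boundsE (ρ x r v0 v1 v2 GG ζ : ℝ) (w : Fin 3 → ℝ) (h0 : w 0 = r * v0) (h1 : w 1 = r * v1)
    (h2 : w 2 = r * v2) (hv : v0 + v1 + v2 = 0)
    (hG : ((1 - ρ) * (1 + ρ * (1 / 2 - x)) * (1 + ρ * (1 / 2 + x))) *
      ((1 + r * v0) * (1 + r * v1) * (1 + r * v2)) = GG) :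
    mM (chartV ρ x) w = 1 + (r * ρ) * alC x v0 v1 v2 ∧
    (0 < 1 + (r * ρ) * alC x v0 v1 v2 →
    sS (vV (chartV ρ x) w) = ssC ρ x + (1 + (r * ρ) * alC x v0 v1 v2)⁻¹ *
      (2 * (r * ρ * LC ρ x v0 v1 v2) + (1 + (r * ρ) * alC x v0 v1 v2)⁻¹ * (r ^ (2 : ℕ) * QC ρ x v0 v1 v2)) ∧
    TvalE GG (1 + (r * ρ) * alC x v0 v1 v2) (1 + (r * ρ) * alC x v0 v1 v2)⁻¹
      (2 * (r * ρ * LC ρ x v0 v1 v2) + (1 + (r * ρ) * alC x v0 v1 v2)⁻¹ * (r ^ (2 : ℕ) * QC ρ x v0 v1 v2))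
      (ssC ρ x) ζ ≤
    (1 + (r * ρ) * alC x v0 v1 v2) * xE (vV (chartV ρ x) w) ∧
    (1 + (r * ρ) * alC x v0 v1 v2) * xE (vV (chartV ρ x) w) =
      rawFcl GG (1 + (r * ρ) * alC x v0 v1 v2) (ssC ρ x)
      (2 * (r * ρ * LC ρ x v0 v1 v2) + (1 + (r * ρ) * alC x v0 v1 v2)⁻¹ * (r ^ (2 : ℕ) * QC ρ x v0 v1 v2))) := by
  set Al := alC x v0 v1 v2 with hA
  set m := 1 + (r * ρ) * Al with hmdef
  have hmM : mM (chartV ρ x) w = m := by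
    simp only [mM, chartV, Fin.sum_univ_three, h0, h1, h2]
    simp
    rw [hmdef, hA, alC]
    ring
  refine ⟨hmM, fun hm => ?_⟩
  have hib : m * m⁻¹ = 1 := mul_inv_cancel₀ hm.ne'
  set ib := m⁻¹ with hibdef
  have hV : ∀ i, vV (chartV ρ x) w i = (1 + chartV ρ x i) * (1 + w i) * ib - 1 := by
    intro i
    simp only [vV, hmM, div_eq_mul_inv, hibdef]
  have hU0 : chartV ρ x 0 = -ρ := by simp [chartV]
  have hU1 : chartV ρ x 1 = ρ * (1 / 2 - x) := by simp [chartV]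
  have hU2 : chartV ρ x 2 = ρ * (1 / 2 + x) := by simp [chartV]
  obtain ⟨ev1, ev2⟩ := merge_vals (-ρ) (ρ * (1 / 2 - x)) (ρ * (1 / 2 + x)) (r * v0) (r * v1) (r * v2) m ib
    (by ring) (by linear_combination r * hv) (by rw [hmdef, hA, alC]; ring) hib
  have hm1 : m - 1 = (r * ρ) * Al := by rw [hmdef]; ring
  rw [hm1] at ev1
  have hss : sS (vV (chartV ρ x) w) = ssC ρ x + ib *
      (2 * (r * ρ * LC ρ x v0 v1 v2) + ib * (r ^ (2 : ℕ) * QC ρ x v0 v1 v2)) := by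
    simp only [sS, Fin.sum_univ_three, hV, h0, h1, h2, hU0, hU1, hU2]
    rw [ev1]
    simp only [ssC, sigC, LC, QC, ← hA]
    ring
  have hcc : cC (vV (chartV ρ x) w) = 3 * GG * ib ^ (3 : ℕ) - 3 + (3 / 2) * sS (vV (chartV ρ x) w) := by
    simp only [cC, sS, Fin.sum_univ_three, hV, h0, h1, h2, hU0, hU1, hU2]
    rw [ev2, ← hG]
    ring
  have hs' : 0 ≤ sS (vV (chartV ρ x) w) := Finset.sum_nonneg (fun i _ => sq_nonneg _)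
  refine ⟨hss, ?_, ?_⟩
  · exact merge_lowerE (ζ := ζ) (GG := GG) hm hib hs' hss hcc
  · unfold rawFcl
    rw [← hibdef]
    unfold xE
    rw [hcc, ← hss]
    linear_combination (3 * GG * ib ^ (2 : ℕ)) * hib

/-- The first functional at the chart point. -/
lemma xE_chart (ρ x : ℝ) : xE (chartV ρ x) =
    3 * c3C ρ x - (11 / 128) * ssC ρ x ^ (2 : ℕ) * (1 - (3 / 64) * ssC ρ x) := by
  rw [xE, sS_chart, cC_chart]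

lemma wv0 (ρ' y : ℝ) (g : Equiv.Perm (Fin 3)) (i : Fin 3) (h : g i = 0) :
    (fun i => chartV ρ' y (g i)) i = ρ' * (-1) := by
  simp only [h, chartV]; simp

lemma wv1 (ρ' y : ℝ) (g : Equiv.Perm (Fin 3)) (i : Fin 3) (h : g i = 1) :
    (fun i => chartV ρ' y (g i)) i = ρ' * (1 / 2 - y) := by
  simp only [h, chartV]; simp

lemma wv2 (ρ' y : ℝ) (g : Equiv.Perm (Fin 3)) (i : Fin 3) (h : g i = 2) :
    (fun i => chartV ρ' y (g i)) i = ρ' * (1 / 2 + y) := by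
  simp only [h, chartV]; simp

lemma eps3_xE (y r τ fS : ℝ) (hσ : 0 < sigC y)
    (hτ : τ = ((3 : ℕ) : ℝ) * (r * (y ^ (2 : ℕ) - 1 / 4) * (sigC y)⁻¹))
    (hfS : fS = (11 / 128) * (r ^ (2 : ℕ) * sigC y * (1 - (3 / 64) * (r ^ (2 : ℕ) * sigC y)))) :
    xE (chartV r y) = r ^ (2 : ℕ) * sigC y * τ - r ^ (2 : ℕ) * sigC y * fS := by
  have h1 : r ^ (2 : ℕ) * sigC y * τ = 3 * r ^ (3 : ℕ) * (y ^ (2 : ℕ) - 1 / 4) := by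
    rw [hτ]
    push_cast
    field_simp
  rw [h1, hfS, xE_chart]
  simp only [c3C, ssC, rg3C]
  ring

lemma Gw_gen (ρ x r y τ v0 v1 v2 : ℝ) (hτσ : r ^ (2 : ℕ) * (r * (y ^ (2 : ℕ) - 1 / 4)) = r ^ (2 : ℕ) * sigC y * τ / 3)
    (h1 : v0 + v1 + v2 = 0) (h2 : v0 ^ (2 : ℕ) + v1 ^ (2 : ℕ) + v2 ^ (2 : ℕ) = sigC y)
    (h3 : v0 ^ (3 : ℕ) + v1 ^ (3 : ℕ) + v2 ^ (3 : ℕ) = 3 * (y ^ (2 : ℕ) - 1 / 4)) :
    ((1 - ρ) * (1 + ρ * (1 / 2 - x)) * (1 + ρ * (1 / 2 + x))) *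
      ((1 + r * v0) * (1 + r * v1) * (1 + r * v2)) =
      (1 - ρ ^ (2 : ℕ) * sigC x / 2 + ρ ^ (2 : ℕ) * rg3C ρ x) * (1 - r ^ (2 : ℕ) * sigC y / 2 + r ^ (2 : ℕ) * sigC y * τ / 3) := by
  have e1 : (1 - ρ) * (1 + ρ * (1 / 2 - x)) * (1 + ρ * (1 / 2 + x)) =
      1 - ρ ^ (2 : ℕ) * sigC x / 2 + ρ ^ (2 : ℕ) * rg3C ρ x := by
    simp only [sigC, rg3C]; ring
  have e2 : (1 + r * v0) * (1 + r * v1) * (1 + r * v2) =
      1 - r ^ (2 : ℕ) * sigC y / 2 + r ^ (2 : ℕ) * sigC y * τ / 3 := by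
    have hv2 : v2 = -v0 - v1 := by linarith
    rw [← hτσ, ← h2]
    have : r ^ (2 : ℕ) * (r * (y ^ (2 : ℕ) - 1 / 4)) = r ^ (3 : ℕ) * ((v0 ^ (3 : ℕ) + v1 ^ (3 : ℕ) + v2 ^ (3 : ℕ)) / 3) := by
      rw [h3]; ring
    rw [this, hv2]
    ring
  rw [e1, e2]

lemma sig_bounds {y : ℝ} (h6 : 0 ≤ y) (h7 : y ≤ 3 / 2) : 0 < sigC y ∧ sigC y ≤ 6 := by
  rw [sigC]
  constructor <;> nlinarith

/-- The conversion of `F1`. -/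
lemma finalF_form (sig rg3 p Hr Lam1 h31 h61 h71 r2 S τ fS r4 B1 B2 B4 B5 B6 : ℝ) :
    finalFOld sig rg3 p (p * sig) (1 - (p * sig) / 2 + p * rg3) Hr Lam1 (sig * (p * sig) * (1 - (3 / 64) * (p * sig)))
      h31 h61 h71 r2 S (S * τ / 3) (1 - S / 2 + S * τ / 3) fS r4 τ B1 B2 B4 B5 B6 =
    FformE p S τ sig rg3 Hr Lam1 h31 h61 h71 B1 B2 B4 B5 B6 fS r2 r4 := by
  unfold finalFOld FformE
  ring

set_option maxHeartbeats 4000000 in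
/-- Inequality (I) in the sorted chart. -/
theorem chart_IE (ρ x r y : ℝ) (h0 : 0 ≤ ρ) (h1 : ρ ≤ 1) (h2 : 0 ≤ x) (h3 : x ≤ 3 / 2)
    (h4 : 0 ≤ r) (h5 : r ≤ 1) (h6 : 0 ≤ y) (h7 : y ≤ 3 / 2) :
    (1 - (25 / 128) * sS (chartV r y) + (11 / 1024) * sS (chartV r y) ^ (2 : ℕ)) * xE (chartV ρ x) +
        gG (chartV ρ x) * (1 - (21 / 128) * sS (chartV ρ x)) * xE (chartV r y) ≤
      (1 / 6) * ∑ g : Equiv.Perm (Fin 3),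
        mM (chartV ρ x) (fun i => chartV r y (g i)) *
          xE (vV (chartV ρ x) (fun i => chartV r y (g i))) := by
  obtain ⟨hσ, hσ1⟩ := sig_bounds h6 h7
  obtain ⟨τ, hτ⟩ : ∃ τ, τ = ((3 : ℕ) : ℝ) * (r * (y ^ (2 : ℕ) - 1 / 4) * (sigC y)⁻¹) := ⟨_, rfl⟩
  obtain ⟨fS, hfS⟩ : ∃ fS, fS = (11 / 128) * (r ^ (2 : ℕ) * sigC y * (1 - (3 / 64) * (r ^ (2 : ℕ) * sigC y))) := ⟨_, rfl⟩
  have hτσ : r * gamC y = τ * sigC y := by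
    rw [hτ, gamC]; push_cast; field_simp; (try ring)
  have hC3 : r ^ (2 : ℕ) * (r * (y ^ (2 : ℕ) - 1 / 4)) = r ^ (2 : ℕ) * sigC y * τ / 3 := by
    have e : gamC y = 3 * (y ^ (2 : ℕ) - 1 / 4) := by rw [gamC]; ring
    rw [e] at hτσ
    linear_combination (r ^ (2 : ℕ) / 3) * hτσ
  have hXv := eps3_xE y r τ fS hσ hτ hfS
  have hSv : sS (chartV r y) = r ^ (2 : ℕ) * sigC y := by
    rw [sS_chart, ssC]
  have hss : ssC ρ x = ρ ^ (2 : ℕ) * sigC x := rfl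
  have hcc : c3C ρ x = ρ ^ (2 : ℕ) * rg3C ρ x := rfl
  have hGG : (1 - ssC ρ x / 2 + c3C ρ x) * (1 - r ^ (2 : ℕ) * sigC y / 2 + r ^ (2 : ℕ) * (r * (y ^ (2 : ℕ) - 1 / 4))) =
      (1 - ρ ^ (2 : ℕ) * sigC x / 2 + ρ ^ (2 : ℕ) * rg3C ρ x) * (1 - r ^ (2 : ℕ) * sigC y / 2 + r ^ (2 : ℕ) * sigC y * τ / 3) := by
    rw [hC3, hss, hcc]
  obtain ⟨me0, te0⟩ := term_boundsE ρ x r (-1) (1 / 2 - y) (1 / 2 + y) ((1 - ρ ^ (2 : ℕ) * sigC x / 2 + ρ ^ (2 : ℕ) * rg3C ρ x) * (1 - r ^ (2 : ℕ) * sigC y / 2 + r ^ (2 : ℕ) * sigC y * τ / 3)) (ρ ^ (2 : ℕ) * sigC x + r ^ (2 : ℕ) * sigC y)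
    (fun i => chartV r y (gP 0 i)) (wv0 r y (gP 0) 0 (by decide))
    (wv1 r y (gP 0) 1 (by decide)) (wv2 r y (gP 0) 2 (by decide)) (by ring)
    (Gw_gen ρ x r y τ _ _ _ hC3 (by ring) (by simp only [sigC]; ring) (by ring))
  obtain ⟨me1, te1⟩ := term_boundsE ρ x r (-1) (1 / 2 + y) (1 / 2 - y) ((1 - ρ ^ (2 : ℕ) * sigC x / 2 + ρ ^ (2 : ℕ) * rg3C ρ x) * (1 - r ^ (2 : ℕ) * sigC y / 2 + r ^ (2 : ℕ) * sigC y * τ / 3)) (ρ ^ (2 : ℕ) * sigC x + r ^ (2 : ℕ) * sigC y)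
    (fun i => chartV r y (gP 1 i)) (wv0 r y (gP 1) 0 (by decide))
    (wv2 r y (gP 1) 1 (by decide)) (wv1 r y (gP 1) 2 (by decide)) (by ring)
    (Gw_gen ρ x r y τ _ _ _ hC3 (by ring) (by simp only [sigC]; ring) (by ring))
  obtain ⟨me2, te2⟩ := term_boundsE ρ x r (1 / 2 - y) (-1) (1 / 2 + y) ((1 - ρ ^ (2 : ℕ) * sigC x / 2 + ρ ^ (2 : ℕ) * rg3C ρ x) * (1 - r ^ (2 : ℕ) * sigC y / 2 + r ^ (2 : ℕ) * sigC y * τ / 3)) (ρ ^ (2 : ℕ) * sigC x + r ^ (2 : ℕ) * sigC y)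
    (fun i => chartV r y (gP 2 i)) (wv1 r y (gP 2) 0 (by decide))
    (wv0 r y (gP 2) 1 (by decide)) (wv2 r y (gP 2) 2 (by decide)) (by ring)
    (Gw_gen ρ x r y τ _ _ _ hC3 (by ring) (by simp only [sigC]; ring) (by ring))
  obtain ⟨me3, te3⟩ := term_boundsE ρ x r (1 / 2 - y) (1 / 2 + y) (-1) ((1 - ρ ^ (2 : ℕ) * sigC x / 2 + ρ ^ (2 : ℕ) * rg3C ρ x) * (1 - r ^ (2 : ℕ) * sigC y / 2 + r ^ (2 : ℕ) * sigC y * τ / 3)) (ρ ^ (2 : ℕ) * sigC x + r ^ (2 : ℕ) * sigC y)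
    (fun i => chartV r y (gP 3 i)) (wv1 r y (gP 3) 0 (by decide))
    (wv2 r y (gP 3) 1 (by decide)) (wv0 r y (gP 3) 2 (by decide)) (by ring)
    (Gw_gen ρ x r y τ _ _ _ hC3 (by ring) (by simp only [sigC]; ring) (by ring))
  obtain ⟨me4, te4⟩ := term_boundsE ρ x r (1 / 2 + y) (-1) (1 / 2 - y) ((1 - ρ ^ (2 : ℕ) * sigC x / 2 + ρ ^ (2 : ℕ) * rg3C ρ x) * (1 - r ^ (2 : ℕ) * sigC y / 2 + r ^ (2 : ℕ) * sigC y * τ / 3)) (ρ ^ (2 : ℕ) * sigC x + r ^ (2 : ℕ) * sigC y)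
    (fun i => chartV r y (gP 4 i)) (wv2 r y (gP 4) 0 (by decide))
    (wv0 r y (gP 4) 1 (by decide)) (wv1 r y (gP 4) 2 (by decide)) (by ring)
    (Gw_gen ρ x r y τ _ _ _ hC3 (by ring) (by simp only [sigC]; ring) (by ring))
  obtain ⟨me5, te5⟩ := term_boundsE ρ x r (1 / 2 + y) (1 / 2 - y) (-1) ((1 - ρ ^ (2 : ℕ) * sigC x / 2 + ρ ^ (2 : ℕ) * rg3C ρ x) * (1 - r ^ (2 : ℕ) * sigC y / 2 + r ^ (2 : ℕ) * sigC y * τ / 3)) (ρ ^ (2 : ℕ) * sigC x + r ^ (2 : ℕ) * sigC y)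
    (fun i => chartV r y (gP 5 i)) (wv2 r y (gP 5) 0 (by decide))
    (wv1 r y (gP 5) 1 (by decide)) (wv0 r y (gP 5) 2 (by decide)) (by ring)
    (Gw_gen ρ x r y τ _ _ _ hC3 (by ring) (by simp only [sigC]; ring) (by ring))
  rw [sum_perm3]
  simp only [me0, me1, me2, me3, me4, me5]
  have hU := inT_chart h0 h1 h2 h3
  have hWv := inT_chart h4 h5 h6 h7
  rcases phiF_box h0 h1 h2 h3 h4 h5 h6 h7 with phi | phi
  · unfold PhiF at phi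
    rw [progF_eq] at phi
    dsimp only at phi
    obtain ⟨hm0, hm1, hm2, hm3, hm4, hm5, -, hF⟩ := phi
    have ee0 : 1 + r * (ρ * (alC x (-1) (1 / 2 - y) (1 / 2 + y))) = 1 + (r * ρ) * (alC x (-1) (1 / 2 - y) (1 / 2 + y)) := by ring
    rw [ee0] at hm0
    have ee1 : 1 + r * (ρ * (alC x (-1) (1 / 2 + y) (1 / 2 - y))) = 1 + (r * ρ) * (alC x (-1) (1 / 2 + y) (1 / 2 - y)) := by ring
    rw [ee1] at hm1
    have ee2 : 1 + r * (ρ * (alC x (1 / 2 - y) (-1) (1 / 2 + y))) = 1 + (r * ρ) * (alC x (1 / 2 - y) (-1) (1 / 2 + y)) := by ring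
    rw [ee2] at hm2
    have ee3 : 1 + r * (ρ * (alC x (1 / 2 - y) (1 / 2 + y) (-1))) = 1 + (r * ρ) * (alC x (1 / 2 - y) (1 / 2 + y) (-1)) := by ring
    rw [ee3] at hm3
    have ee4 : 1 + r * (ρ * (alC x (1 / 2 + y) (-1) (1 / 2 - y))) = 1 + (r * ρ) * (alC x (1 / 2 + y) (-1) (1 / 2 - y)) := by ring
    rw [ee4] at hm4
    have ee5 : 1 + r * (ρ * (alC x (1 / 2 + y) (1 / 2 - y) (-1))) = 1 + (r * ρ) * (alC x (1 / 2 + y) (1 / 2 - y) (-1)) := by ring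
    rw [ee5] at hm5
    simp only [ee0, ee1, ee2, ee3, ee4, ee5] at hF
    rw [← hτ, ← hfS, hC3] at hF
    have hσ6 : ∀ A : ℝ, A = 6 * sigC y * (((sigC y)⁻¹ / 2 ^ (1 : ℕ) / 3) * A) := by
      intro A
      have hne := hσ.ne'
      have e6 : 6 * sigC y * ((sigC y)⁻¹ / 2 ^ (1 : ℕ) / 3) = 1 := by
        field_simp
        norm_num
      rw [← mul_assoc, e6, one_mul]
    obtain ⟨B1, hB1⟩ : ∃ B1, B1 = ((sigC y)⁻¹ / 2 ^ (1 : ℕ) / 3) * ((alC x (-1) (1 / 2 - y) (1 / 2 + y)) ^ (2 : ℕ) * (QC ρ x (-1) (1 / 2 - y) (1 / 2 + y)) * (1 + (r * ρ) * (alC x (-1) (1 / 2 - y) (1 / 2 + y)))⁻¹ + (alC x (-1) (1 / 2 + y) (1 / 2 - y)) ^ (2 : ℕ) * (QC ρ x (-1) (1 / 2 + y) (1 / 2 - y)) * (1 + (r * ρ) * (alC x (-1) (1 / 2 + y) (1 / 2 - y)))⁻¹ + (alC x (1 / 2 - y) (-1) (1 / 2 + y)) ^ (2 : ℕ) * (QC ρ x (1 / 2 - y) (-1) (1 / 2 + y)) * (1 + (r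 * ρ) * (alC x (1 / 2 - y) (-1) (1 / 2 + y)))⁻¹ + (alC x (1 / 2 - y) (1 / 2 + y) (-1)) ^ (2 : ℕ) * (QC ρ x (1 / 2 - y) (1 / 2 + y) (-1)) * (1 + (r * ρ) * (alC x (1 / 2 - y) (1 / 2 + y) (-1)))⁻¹ + (alC x (1 / 2 + y) (-1) (1 / 2 - y)) ^ (2 : ℕ) * (QC ρ x (1 / 2 + y) (-1) (1 / 2 - y)) * (1 + (r * ρ) * (alC x (1 / 2 + y) (-1) (1 / 2 - y)))⁻¹ + (alC x (1 / 2 + y) (1 / 2 - y) (-1)) ^ (2 : ℕ) * (QC ρ x (1 / 2 + y) (1 / 2 - y) (-1)) * (1 + (r * ρ) * (alC x (1 / 2 + y) (1 / 2 - y) (-1)))⁻¹) := ⟨_, rfl⟩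
    obtain ⟨B2, hB2⟩ : ∃ B2, B2 = ((sigC y)⁻¹ / 2 ^ (1 : ℕ) / 3) * ((alC x (-1) (1 / 2 - y) (1 / 2 + y)) ^ (2 : ℕ) * ((1 + (r * ρ) * (alC x (-1) (1 / 2 - y) (1 / 2 + y)))⁻¹ ^ (2 : ℕ) + 2 * (1 + (r * ρ) * (alC x (-1) (1 / 2 - y) (1 / 2 + y)))⁻¹) + (alC x (-1) (1 / 2 + y) (1 / 2 - y)) ^ (2 : ℕ) * ((1 + (r * ρ) * (alC x (-1) (1 / 2 + y) (1 / 2 - y)))⁻¹ ^ (2 : ℕ) + 2 * (1 + (r * ρ) * (alC x (-1) (1 / 2 + y) (1 / 2 - y)))⁻¹) + (alC x (1 / 2 - y) (-1) (1 / 2 + y)) ^ (2 : ℕ) * ((1 + (r * ρ) * (alC x (1 / 2 - y) (-1) (1 / 2 + y)))⁻¹ ^ (2 : ℕ) + 2 * (1 + (r * ρ) * (alC x (1 / 2 - y) (-1) (1 / 2 + y)))⁻¹) + (alC x (1 / 2 - y) (1 / 2 + y) (-1)) ^ (2 : ℕ) * ((1 + (r * ρ) * (alC x (1 / 2 - y) (1 / 2 + y) (-1)))⁻¹ ^ (2 : ℕ) + 2 * (1 + (r * ρ) * (alC x (1 / 2 - y) (1 / 2 + y) (-1)))⁻¹) + (alC x (1 / 2 + y) (-1) (1 / 2 - y)) ^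 (2 : ℕ) * ((1 + (r * ρ) * (alC x (1 / 2 + y) (-1) (1 / 2 - y)))⁻¹ ^ (2 : ℕ) + 2 * (1 + (r * ρ) * (alC x (1 / 2 + y) (-1) (1 / 2 - y)))⁻¹) + (alC x (1 / 2 + y) (1 / 2 - y) (-1)) ^ (2 : ℕ) * ((1 + (r * ρ) * (alC x (1 / 2 + y) (1 / 2 - y) (-1)))⁻¹ ^ (2 : ℕ) + 2 * (1 + (r * ρ) * (alC x (1 / 2 + y) (1 / 2 - y) (-1)))⁻¹)) := ⟨_, rfl⟩
    obtain ⟨B6, hB6⟩ : ∃ B6, B6 = ((sigC y)⁻¹ / 2 ^ (1 : ℕ) / 3) * ((1 + (r * ρ) * (alC x (-1) (1 / 2 - y) (1 / 2 + y)))⁻¹ * (LC ρ x (-1) (1 / 2 - y) (1 / 2 + y)) ^ (2 : ℕ) + (1 + (r * ρ) * (alC x (-1) (1 / 2 + y) (1 / 2 - y)))⁻¹ * (LC ρ x (-1) (1 / 2 + y) (1 / 2 - y)) ^ (2 : ℕ) + (1 + (r * ρ) * (alC x (1 / 2 - y) (-1) (1 / 2 + y)))⁻¹ * (LC ρ x (1 / 2 - y) (-1) (1 / 2 + y)) ^ (2 : ℕ) + (1 + (r * ρ) * (alC x (1 / 2 - y) (1 / 2 + y) (-1)))⁻¹ * (LC ρ x (1 / 2 - y) (1 / 2 + y) (-1)) ^ (2 : ℕ)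 + (1 + (r * ρ) * (alC x (1 / 2 + y) (-1) (1 / 2 - y)))⁻¹ * (LC ρ x (1 / 2 + y) (-1) (1 / 2 - y)) ^ (2 : ℕ) + (1 + (r * ρ) * (alC x (1 / 2 + y) (1 / 2 - y) (-1)))⁻¹ * (LC ρ x (1 / 2 + y) (1 / 2 - y) (-1)) ^ (2 : ℕ)) := ⟨_, rfl⟩
    obtain ⟨B4, hB4⟩ : ∃ B4, B4 = ((sigC y)⁻¹ / 2 ^ (1 : ℕ) / 3) * ((alC x (-1) (1 / 2 - y) (1 / 2 + y)) * (LC ρ x (-1) (1 / 2 - y) (1 / 2 + y)) * ((QC ρ x (-1) (1 / 2 - y) (1 / 2 + y)) * ((1 + (r * ρ) * (alC x (-1) (1 / 2 - y) (1 / 2 + y)))⁻¹ ^ (2 : ℕ) + (1 + (r * ρ) * (alC x (-1) (1 / 2 - y) (1 / 2 + y)))⁻¹)) + (alC x (-1) (1 / 2 + y) (1 / 2 - y)) * (LC ρ x (-1) (1 / 2 + y) (1 / 2 - y)) * ((QC ρ x (-1) (1 / 2 + y) (1 / 2 - y)) * ((1 + (r * ρ) * (alC x (-1) (1 / 2 + y) (1 / 2 - y)))⁻¹ ^ (2 : ℕ) + (1 + (r * ρ) * (alC x (-1) (1 / 2 + y) (1 / 2 - y)))⁻¹)) + (alC x (1 / 2 - y) (-1) (1 / 2 + y))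 * (LC ρ x (1 / 2 - y) (-1) (1 / 2 + y)) * ((QC ρ x (1 / 2 - y) (-1) (1 / 2 + y)) * ((1 + (r * ρ) * (alC x (1 / 2 - y) (-1) (1 / 2 + y)))⁻¹ ^ (2 : ℕ) + (1 + (r * ρ) * (alC x (1 / 2 - y) (-1) (1 / 2 + y)))⁻¹)) + (alC x (1 / 2 - y) (1 / 2 + y) (-1)) * (LC ρ x (1 / 2 - y) (1 / 2 + y) (-1)) * ((QC ρ x (1 / 2 - y) (1 / 2 + y) (-1)) * ((1 + (r * ρ) * (alC x (1 / 2 - y) (1 / 2 + y) (-1)))⁻¹ ^ (2 : ℕ) + (1 + (r * ρ) * (alC x (1 / 2 - y) (1 / 2 + y) (-1)))⁻¹)) + (alC x (1 / 2 + y) (-1) (1 / 2 - y)) * (LC ρ x (1 / 2 + y) (-1) (1 / 2 - y)) * ((QC ρ x (1 / 2 + y) (-1) (1 / 2 - y)) * ((1 + (r * ρ) * (alC x (1 / 2 + y) (-1) (1 / 2 - y)))⁻¹ ^ (2 : ℕ) + (1 + (r * ρ) * (alC x (1 / 2 + y) (-1) (1 / 2 - y)))⁻¹)) + (alC x (1 / 2 + y) (1 / 2 - y) (-1)) * (LC ρ x (1 / 2 + y) (1 / 2 - y) (-1)) * ((QC ρ x (1 / 2 + y) (1 / 2 - y) (-1)) *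 ((1 + (r * ρ) * (alC x (1 / 2 + y) (1 / 2 - y) (-1)))⁻¹ ^ (2 : ℕ) + (1 + (r * ρ) * (alC x (1 / 2 + y) (1 / 2 - y) (-1)))⁻¹))) := ⟨_, rfl⟩
    obtain ⟨B5, hB5⟩ : ∃ B5, B5 = ((sigC y)⁻¹ / 2 ^ (1 : ℕ) / 3) * ((alC x (-1) (1 / 2 - y) (1 / 2 + y)) ^ (2 : ℕ) * (QC ρ x (-1) (1 / 2 - y) (1 / 2 + y)) * (QC ρ x (-1) (1 / 2 - y) (1 / 2 + y)) * ((1 + (r * ρ) * (alC x (-1) (1 / 2 - y) (1 / 2 + y)))⁻¹ ^ (3 : ℕ) + 2 * (1 + (r * ρ) * (alC x (-1) (1 / 2 - y) (1 / 2 + y)))⁻¹ ^ (2 : ℕ) + 3 * (1 + (r * ρ) * (alC x (-1) (1 / 2 - y) (1 / 2 + y)))⁻¹) + (alC x (-1) (1 / 2 + y) (1 / 2 - y)) ^ (2 : ℕ) * (QC ρ x (-1) (1 / 2 + y) (1 / 2 - y)) * (QC ρ x (-1) (1 / 2 + y) (1 / 2 - y)) * ((1 + (r * ρ) * (alC x (-1) (1 / 2 + y) (1 / 2 - y)))⁻¹ ^ (3 : ℕ) + 2 * (1 + (r * ρ) * (alC x (-1) (1 / 2 + y) (1 / 2 - y)))⁻¹ ^ (2 : ℕ) + 3 * (1 + (r * ρ) *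 (alC x (-1) (1 / 2 + y) (1 / 2 - y)))⁻¹) + (alC x (1 / 2 - y) (-1) (1 / 2 + y)) ^ (2 : ℕ) * (QC ρ x (1 / 2 - y) (-1) (1 / 2 + y)) * (QC ρ x (1 / 2 - y) (-1) (1 / 2 + y)) * ((1 + (r * ρ) * (alC x (1 / 2 - y) (-1) (1 / 2 + y)))⁻¹ ^ (3 : ℕ) + 2 * (1 + (r * ρ) * (alC x (1 / 2 - y) (-1) (1 / 2 + y)))⁻¹ ^ (2 : ℕ) + 3 * (1 + (r * ρ) * (alC x (1 / 2 - y) (-1) (1 / 2 + y)))⁻¹) + (alC x (1 / 2 - y) (1 / 2 + y) (-1)) ^ (2 : ℕ) * (QC ρ x (1 / 2 - y) (1 / 2 + y) (-1)) * (QC ρ x (1 / 2 - y) (1 / 2 + y) (-1)) * ((1 + (r * ρ) * (alC x (1 / 2 - y) (1 / 2 + y) (-1)))⁻¹ ^ (3 : ℕ) + 2 * (1 + (r * ρ) * (alC x (1 / 2 - y) (1 / 2 + y) (-1)))⁻¹ ^ (2 : ℕ) + 3 * (1 + (r * ρ) * (alC x (1 / 2 - y) (1 / 2 + y) (-1)))⁻¹) + (alC x (1 / 2 + y) (-1) (1 / 2 - y)) ^ (2 : ℕ) * (QC ρ x (1 / 2 + y) (-1) (1 / 2 - y)) * (QC ρ x (1 / 2 + y) (-1) (1 / 2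 - y)) * ((1 + (r * ρ) * (alC x (1 / 2 + y) (-1) (1 / 2 - y)))⁻¹ ^ (3 : ℕ) + 2 * (1 + (r * ρ) * (alC x (1 / 2 + y) (-1) (1 / 2 - y)))⁻¹ ^ (2 : ℕ) + 3 * (1 + (r * ρ) * (alC x (1 / 2 + y) (-1) (1 / 2 - y)))⁻¹) + (alC x (1 / 2 + y) (1 / 2 - y) (-1)) ^ (2 : ℕ) * (QC ρ x (1 / 2 + y) (1 / 2 - y) (-1)) * (QC ρ x (1 / 2 + y) (1 / 2 - y) (-1)) * ((1 + (r * ρ) * (alC x (1 / 2 + y) (1 / 2 - y) (-1)))⁻¹ ^ (3 : ℕ) + 2 * (1 + (r * ρ) * (alC x (1 / 2 + y) (1 / 2 - y) (-1)))⁻¹ ^ (2 : ℕ) + 3 * (1 + (r * ρ) * (alC x (1 / 2 + y) (1 / 2 - y) (-1)))⁻¹)) := ⟨_, rfl⟩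
    rw [← hB1, ← hB2, ← hB6, ← hB4, ← hB5] at hF
    rw [hss, hcc] at hF
    rw [finalF_form] at hF
    obtain ⟨-, te0', -⟩ := te0 hm0
    obtain ⟨-, te1', -⟩ := te1 hm1
    obtain ⟨-, te2', -⟩ := te2 hm2
    obtain ⟨-, te3', -⟩ := te3 hm3
    obtain ⟨-, te4', -⟩ := te4 hm4
    obtain ⟨-, te5', -⟩ := te5 hm5
    rw [hss] at te0' te1' te2' te3' te4' te5'
    have main := abstract_IE r ρ τ fS (sigC y) (sigC x) (rg3C ρ x) (hrC ρ x) (lamC ρ x) (h31C ρ x) (h61C ρ x) (h71C ρ x)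
      (gamC y) B1 B2 B4 B5 B6
      ((alC x (-1) (1 / 2 - y) (1 / 2 + y))) ((alC x (-1) (1 / 2 + y) (1 / 2 - y))) ((alC x (1 / 2 - y) (-1) (1 / 2 + y))) ((alC x (1 / 2 - y) (1 / 2 + y) (-1))) ((alC x (1 / 2 + y) (-1) (1 / 2 - y))) ((alC x (1 / 2 + y) (1 / 2 - y) (-1)))
      ((1 + (r * ρ) * (alC x (-1) (1 / 2 - y) (1 / 2 + y)))⁻¹) ((1 + (r * ρ) * (alC x (-1) (1 / 2 + y) (1 / 2 - y)))⁻¹) ((1 + (r * ρ) * (alC x (1 / 2 - y) (-1) (1 / 2 + y)))⁻¹) ((1 + (r * ρ) * (alC x (1 / 2 - y) (1 / 2 + y) (-1)))⁻¹) ((1 + (r * ρ) * (alC x (1 / 2 + y) (-1) (1 / 2 - y)))⁻¹) ((1 + (r * ρ) * (alC x (1 / 2 + y) (1 / 2 - y) (-1)))⁻¹)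
      ((QC ρ x (-1) (1 / 2 - y) (1 / 2 + y))) ((QC ρ x (-1) (1 / 2 + y) (1 / 2 - y))) ((QC ρ x (1 / 2 - y) (-1) (1 / 2 + y))) ((QC ρ x (1 / 2 - y) (1 / 2 + y) (-1))) ((QC ρ x (1 / 2 + y) (-1) (1 / 2 - y))) ((QC ρ x (1 / 2 + y) (1 / 2 - y) (-1)))
      ((LC ρ x (-1) (1 / 2 - y) (1 / 2 + y))) ((LC ρ x (-1) (1 / 2 + y) (1 / 2 - y))) ((LC ρ x (1 / 2 - y) (-1) (1 / 2 + y))) ((LC ρ x (1 / 2 - y) (1 / 2 + y) (-1))) ((LC ρ x (1 / 2 + y) (-1) (1 / 2 - y))) ((LC ρ x (1 / 2 + y) (1 / 2 - y) (-1)))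
      _ _ _ _ _ _
      (mul_inv_cancel₀ hm0.ne') (mul_inv_cancel₀ hm1.ne') (mul_inv_cancel₀ hm2.ne')
      (mul_inv_cancel₀ hm3.ne') (mul_inv_cancel₀ hm4.ne') (mul_inv_cancel₀ hm5.ne')
      (sum_al ρ x y) (sum_L ρ x y) (sum_Q ρ x y) (sum_aQ ρ x y) (sum_LQ ρ x y) (sum_QQ ρ x y) (sum_aQQ ρ x y)
      hτσ (by rw [hB1]; exact (hσ6 _).symm ▸ rfl) (by rw [hB2]; exact (hσ6 _).symm ▸ rfl) (by rw [hB6]; exact (hσ6 _).symm ▸ rfl)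
      (by rw [hB4]; exact (hσ6 _).symm ▸ rfl) (by rw [hB5]; exact (hσ6 _).symm ▸ rfl)
      (mul_nonneg (sq_nonneg _) hσ.le) (by rw [hfS]; ring) hF
      te0' te1' te2' te3' te4' te5'
    rw [hSv, hXv, xE_chart, gG_chart, sS_chart, hss, hcc]
    exact main
  · have hc := phiFC_closed phi
      ((1 + (r * ρ) * (alC x (-1) (1 / 2 - y) (1 / 2 + y))) * xE (vV (chartV ρ x) (fun i => chartV r y (gP 0 i))))
      ((1 + (r * ρ) * (alC x (-1) (1 / 2 + y) (1 / 2 - y))) * xE (vV (chartV ρ x) (fun i => chartV r y (gP 1 i))))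
      ((1 + (r * ρ) * (alC x (1 / 2 - y) (-1) (1 / 2 + y))) * xE (vV (chartV ρ x) (fun i => chartV r y (gP 2 i))))
      ((1 + (r * ρ) * (alC x (1 / 2 - y) (1 / 2 + y) (-1))) * xE (vV (chartV ρ x) (fun i => chartV r y (gP 3 i))))
      ((1 + (r * ρ) * (alC x (1 / 2 + y) (-1) (1 / 2 - y))) * xE (vV (chartV ρ x) (fun i => chartV r y (gP 4 i))))
      ((1 + (r * ρ) * (alC x (1 / 2 + y) (1 / 2 - y) (-1))) * xE (vV (chartV ρ x) (fun i => chartV r y (gP 5 i))))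
      (by
        have := term_low hU (inT_perm hWv (gP 0))
        rwa [me0] at this)
      (fun hm => by
        rw [hGG]
        exact (te0 hm).2.2)
      (by
        have := term_low hU (inT_perm hWv (gP 1))
        rwa [me1] at this)
      (fun hm => by
        rw [hGG]
        exact (te1 hm).2.2)
      (by
        have := term_low hU (inT_perm hWv (gP 2))
        rwa [me2] at this)
      (fun hm => by
        rw [hGG]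
        exact (te2 hm).2.2)
      (by
        have := term_low hU (inT_perm hWv (gP 3))
        rwa [me3] at this)
      (fun hm => by
        rw [hGG]
        exact (te3 hm).2.2)
      (by
        have := term_low hU (inT_perm hWv (gP 4))
        rwa [me4] at this)
      (fun hm => by
        rw [hGG]
        exact (te4 hm).2.2)
      (by
        have := term_low hU (inT_perm hWv (gP 5))
        rwa [me5] at this)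
      (fun hm => by
        rw [hGG]
        exact (te5 hm).2.2)
    refine le_trans (le_of_eq ?_) (six_le hc)
    rw [hSv, xE_chart, xE_chart, gG_chart, sS_chart]
    simp only [ssC, c3C, rg3C]

set_option maxHeartbeats 4000000 in
/-- Inequality (II) in the sorted chart. -/
theorem chart_IIE (ρ x r y : ℝ) (h0 : 0 ≤ ρ) (h1 : ρ ≤ 1) (h2 : 0 ≤ x) (h3 : x ≤ 3 / 2)
    (h4 : 0 ≤ r) (h5 : r ≤ 1) (h6 : 0 ≤ y) (h7 : y ≤ 3 / 2) :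
    (1 / 6) * ∑ g : Equiv.Perm (Fin 3),
        mM (chartV ρ x) (fun i => chartV r y (g i)) *
          sS (vV (chartV ρ x) (fun i => chartV r y (g i))) ≤
    sS (chartV ρ x) + sS (chartV r y) - (57 / 256) * sS (chartV r y) * xE (chartV ρ x)
      - lE (chartV ρ x) * xE (chartV r y) - (1 / 1024) * sS (chartV r y) * sS (chartV ρ x) := by
  obtain ⟨hσ, hσ1⟩ := sig_bounds h6 h7
  obtain ⟨τ, hτ⟩ : ∃ τ, τ = ((3 : ℕ) : ℝ) * (r * (y ^ (2 : ℕ) - 1 / 4) * (sigC y)⁻¹) := ⟨_, rfl⟩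
  obtain ⟨fS, hfS⟩ : ∃ fS, fS = (11 / 128) * (r ^ (2 : ℕ) * sigC y * (1 - (3 / 64) * (r ^ (2 : ℕ) * sigC y))) := ⟨_, rfl⟩
  have hτσ : r * gamC y = τ * sigC y := by
    rw [hτ, gamC]; push_cast; field_simp; (try ring)
  have hC3 : r ^ (2 : ℕ) * (r * (y ^ (2 : ℕ) - 1 / 4)) = r ^ (2 : ℕ) * sigC y * τ / 3 := by
    have e : gamC y = 3 * (y ^ (2 : ℕ) - 1 / 4) := by rw [gamC]; ring
    rw [e] at hτσ
    linear_combination (r ^ (2 : ℕ) / 3) * hτσ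
  have hXv := eps3_xE y r τ fS hσ hτ hfS
  have hSv : sS (chartV r y) = r ^ (2 : ℕ) * sigC y := by
    rw [sS_chart, ssC]
  have hss : ssC ρ x = ρ ^ (2 : ℕ) * sigC x := rfl
  have hcc : c3C ρ x = ρ ^ (2 : ℕ) * rg3C ρ x := rfl
  have hGG : (1 - ssC ρ x / 2 + c3C ρ x) * (1 - r ^ (2 : ℕ) * sigC y / 2 + r ^ (2 : ℕ) * (r * (y ^ (2 : ℕ) - 1 / 4))) =
      (1 - ρ ^ (2 : ℕ) * sigC x / 2 + ρ ^ (2 : ℕ) * rg3C ρ x) * (1 - r ^ (2 : ℕ) * sigC y / 2 + r ^ (2 : ℕ) * sigC y * τ / 3) := by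
    rw [hC3, hss, hcc]
  obtain ⟨me0, te0⟩ := term_boundsE ρ x r (-1) (1 / 2 - y) (1 / 2 + y) ((1 - ρ ^ (2 : ℕ) * sigC x / 2 + ρ ^ (2 : ℕ) * rg3C ρ x) * (1 - r ^ (2 : ℕ) * sigC y / 2 + r ^ (2 : ℕ) * sigC y * τ / 3)) (ρ ^ (2 : ℕ) * sigC x + r ^ (2 : ℕ) * sigC y)
    (fun i => chartV r y (gP 0 i)) (wv0 r y (gP 0) 0 (by decide))
    (wv1 r y (gP 0) 1 (by decide)) (wv2 r y (gP 0) 2 (by decide)) (by ring)
    (Gw_gen ρ x r y τ _ _ _ hC3 (by ring) (by simp only [sigC]; ring) (by ring))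
  obtain ⟨me1, te1⟩ := term_boundsE ρ x r (-1) (1 / 2 + y) (1 / 2 - y) ((1 - ρ ^ (2 : ℕ) * sigC x / 2 + ρ ^ (2 : ℕ) * rg3C ρ x) * (1 - r ^ (2 : ℕ) * sigC y / 2 + r ^ (2 : ℕ) * sigC y * τ / 3)) (ρ ^ (2 : ℕ) * sigC x + r ^ (2 : ℕ) * sigC y)
    (fun i => chartV r y (gP 1 i)) (wv0 r y (gP 1) 0 (by decide))
    (wv2 r y (gP 1) 1 (by decide)) (wv1 r y (gP 1) 2 (by decide)) (by ring)
    (Gw_gen ρ x r y τ _ _ _ hC3 (by ring) (by simp only [sigC]; ring) (by ring))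
  obtain ⟨me2, te2⟩ := term_boundsE ρ x r (1 / 2 - y) (-1) (1 / 2 + y) ((1 - ρ ^ (2 : ℕ) * sigC x / 2 + ρ ^ (2 : ℕ) * rg3C ρ x) * (1 - r ^ (2 : ℕ) * sigC y / 2 + r ^ (2 : ℕ) * sigC y * τ / 3)) (ρ ^ (2 : ℕ) * sigC x + r ^ (2 : ℕ) * sigC y)
    (fun i => chartV r y (gP 2 i)) (wv1 r y (gP 2) 0 (by decide))
    (wv0 r y (gP 2) 1 (by decide)) (wv2 r y (gP 2) 2 (by decide)) (by ring)
    (Gw_gen ρ x r y τ _ _ _ hC3 (by ring) (by simp only [sigC]; ring) (by ring))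
  obtain ⟨me3, te3⟩ := term_boundsE ρ x r (1 / 2 - y) (1 / 2 + y) (-1) ((1 - ρ ^ (2 : ℕ) * sigC x / 2 + ρ ^ (2 : ℕ) * rg3C ρ x) * (1 - r ^ (2 : ℕ) * sigC y / 2 + r ^ (2 : ℕ) * sigC y * τ / 3)) (ρ ^ (2 : ℕ) * sigC x + r ^ (2 : ℕ) * sigC y)
    (fun i => chartV r y (gP 3 i)) (wv1 r y (gP 3) 0 (by decide))
    (wv2 r y (gP 3) 1 (by decide)) (wv0 r y (gP 3) 2 (by decide)) (by ring)
    (Gw_gen ρ x r y τ _ _ _ hC3 (by ring) (by simp only [sigC]; ring) (by ring))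
  obtain ⟨me4, te4⟩ := term_boundsE ρ x r (1 / 2 + y) (-1) (1 / 2 - y) ((1 - ρ ^ (2 : ℕ) * sigC x / 2 + ρ ^ (2 : ℕ) * rg3C ρ x) * (1 - r ^ (2 : ℕ) * sigC y / 2 + r ^ (2 : ℕ) * sigC y * τ / 3)) (ρ ^ (2 : ℕ) * sigC x + r ^ (2 : ℕ) * sigC y)
    (fun i => chartV r y (gP 4 i)) (wv2 r y (gP 4) 0 (by decide))
    (wv0 r y (gP 4) 1 (by decide)) (wv1 r y (gP 4) 2 (by decide)) (by ring)
    (Gw_gen ρ x r y τ _ _ _ hC3 (by ring) (by simp only [sigC]; ring) (by ring))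
  obtain ⟨me5, te5⟩ := term_boundsE ρ x r (1 / 2 + y) (1 / 2 - y) (-1) ((1 - ρ ^ (2 : ℕ) * sigC x / 2 + ρ ^ (2 : ℕ) * rg3C ρ x) * (1 - r ^ (2 : ℕ) * sigC y / 2 + r ^ (2 : ℕ) * sigC y * τ / 3)) (ρ ^ (2 : ℕ) * sigC x + r ^ (2 : ℕ) * sigC y)
    (fun i => chartV r y (gP 5 i)) (wv2 r y (gP 5) 0 (by decide))
    (wv1 r y (gP 5) 1 (by decide)) (wv0 r y (gP 5) 2 (by decide)) (by ring)
    (Gw_gen ρ x r y τ _ _ _ hC3 (by ring) (by simp only [sigC]; ring) (by ring))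
  rw [sum_perm3]
  simp only [me0, me1, me2, me3, me4, me5]
  have hU := inT_chart h0 h1 h2 h3
  have hWv := inT_chart h4 h5 h6 h7
  have hLam : lE (chartV ρ x) = (ρ ^ (2 : ℕ) * ((7 / 32) * sigC x - (9 / 32) * (3 * rg3C ρ x) + (3 / 256) * (sigC x * (ρ ^ (2 : ℕ) * sigC x)))) := by
    rw [lE, sS_chart, cC_chart, hss, hcc]
    ring
  rcases phiG_box h0 h1 h2 h3 h4 h5 h6 h7 with phi | phi
  · unfold PhiG at phi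
    rw [progG_eq] at phi
    dsimp only at phi
    obtain ⟨hm0, hm1, hm2, hm3, hm4, hm5, -, hF⟩ := phi
    have ee0 : 1 + r * (ρ * (alC x (-1) (1 / 2 - y) (1 / 2 + y))) = 1 + (r * ρ) * (alC x (-1) (1 / 2 - y) (1 / 2 + y)) := by ring
    rw [ee0] at hm0
    have ee1 : 1 + r * (ρ * (alC x (-1) (1 / 2 + y) (1 / 2 - y))) = 1 + (r * ρ) * (alC x (-1) (1 / 2 + y) (1 / 2 - y)) := by ring
    rw [ee1] at hm1
    have ee2 : 1 + r * (ρ * (alC x (1 / 2 - y) (-1) (1 / 2 + y))) = 1 + (r * ρ) * (alC x (1 / 2 - y) (-1) (1 / 2 + y)) := by ring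
    rw [ee2] at hm2
    have ee3 : 1 + r * (ρ * (alC x (1 / 2 - y) (1 / 2 + y) (-1))) = 1 + (r * ρ) * (alC x (1 / 2 - y) (1 / 2 + y) (-1)) := by ring
    rw [ee3] at hm3
    have ee4 : 1 + r * (ρ * (alC x (1 / 2 + y) (-1) (1 / 2 - y))) = 1 + (r * ρ) * (alC x (1 / 2 + y) (-1) (1 / 2 - y)) := by ring
    rw [ee4] at hm4
    have ee5 : 1 + r * (ρ * (alC x (1 / 2 + y) (1 / 2 - y) (-1))) = 1 + (r * ρ) * (alC x (1 / 2 + y) (1 / 2 - y) (-1)) := by ring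
    rw [ee5] at hm5
    simp only [ee0, ee1, ee2, ee3, ee4, ee5] at hF
    rw [← hτ, ← hfS] at hF
    have hσ6 : ∀ A : ℝ, A = 6 * sigC y * (((sigC y)⁻¹ / 2 ^ (1 : ℕ) / 3) * A) := by
      intro A
      have hne := hσ.ne'
      have e6 : 6 * sigC y * ((sigC y)⁻¹ / 2 ^ (1 : ℕ) / 3) = 1 := by
        field_simp
        norm_num
      rw [← mul_assoc, e6, one_mul]
    obtain ⟨B1, hB1⟩ : ∃ B1, B1 = ((sigC y)⁻¹ / 2 ^ (1 : ℕ) / 3) * ((alC x (-1) (1 / 2 - y) (1 / 2 + y)) ^ (2 : ℕ) * (QC ρ x (-1) (1 / 2 - y) (1 / 2 + y)) * (1 + (r * ρ) * (alC x (-1) (1 / 2 - y) (1 / 2 + y)))⁻¹ + (alC x (-1) (1 / 2 + y) (1 / 2 - y)) ^ (2 : ℕ) * (QC ρ x (-1) (1 / 2 + y) (1 / 2 - y)) * (1 + (r * ρ) * (alC x (-1) (1 / 2 + y) (1 / 2 - y)))⁻¹ + (alC x (1 / 2 - y) (-1) (1 / 2 + y)) ^ (2 : ℕ) * (QC ρ x (1 / 2 - y) (-1) (1 / 2 + y)) * (1 + (r * ρ)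 * (alC x (1 / 2 - y) (-1) (1 / 2 + y)))⁻¹ + (alC x (1 / 2 - y) (1 / 2 + y) (-1)) ^ (2 : ℕ) * (QC ρ x (1 / 2 - y) (1 / 2 + y) (-1)) * (1 + (r * ρ) * (alC x (1 / 2 - y) (1 / 2 + y) (-1)))⁻¹ + (alC x (1 / 2 + y) (-1) (1 / 2 - y)) ^ (2 : ℕ) * (QC ρ x (1 / 2 + y) (-1) (1 / 2 - y)) * (1 + (r * ρ) * (alC x (1 / 2 + y) (-1) (1 / 2 - y)))⁻¹ + (alC x (1 / 2 + y) (1 / 2 - y) (-1)) ^ (2 : ℕ) * (QC ρ x (1 / 2 + y) (1 / 2 - y) (-1)) * (1 + (r * ρ) * (alC x (1 / 2 + y) (1 / 2 - y) (-1)))⁻¹) := ⟨_, rfl⟩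
    rw [← hB1] at hF
    rw [hss] at hF
    obtain ⟨se0, -, -⟩ := te0 hm0
    obtain ⟨se1, -, -⟩ := te1 hm1
    obtain ⟨se2, -, -⟩ := te2 hm2
    obtain ⟨se3, -, -⟩ := te3 hm3
    obtain ⟨se4, -, -⟩ := te4 hm4
    obtain ⟨se5, -, -⟩ := te5 hm5
    rw [hss] at se0 se1 se2 se3 se4 se5
    have hG : 0 ≤ -hrC ρ x - (57 / 256) * (3 * rg3C ρ x - (11 / 128) * (sigC x * (ρ ^ (2 : ℕ) * sigC x) * (1 - (3 / 64) * (ρ ^ (2 : ℕ) * sigC x)))) -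
        sigC x / 1024 + fS * ((7 / 32) * sigC x - (9 / 32) * (3 * rg3C ρ x) + (3 / 256) * (sigC x * (ρ ^ (2 : ℕ) * sigC x))) - r ^ (2 : ℕ) * B1 +
        τ * (lamC ρ x - ((7 / 32) * sigC x - (9 / 32) * (3 * rg3C ρ x) + (3 / 256) * (sigC x * (ρ ^ (2 : ℕ) * sigC x)))) := by
      refine le_of_le_of_eq hF ?_
      push_cast
      ring
    have hT : ∀ m ib s s' M : ℝ, m * ib = 1 → s' = s + ib * M → m * s' = m * s + M := by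
      intro m ib s s' M h e
      rw [e]
      linear_combination M * h
    have main := abstract_IIE r ρ τ fS (sigC y) (sigC x) (rg3C ρ x) (hrC ρ x) (lamC ρ x) (gamC y) B1
      ((alC x (-1) (1 / 2 - y) (1 / 2 + y))) ((alC x (-1) (1 / 2 + y) (1 / 2 - y))) ((alC x (1 / 2 - y) (-1) (1 / 2 + y))) ((alC x (1 / 2 - y) (1 / 2 + y) (-1))) ((alC x (1 / 2 + y) (-1) (1 / 2 - y))) ((alC x (1 / 2 + y) (1 / 2 - y) (-1)))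
      ((1 + (r * ρ) * (alC x (-1) (1 / 2 - y) (1 / 2 + y)))⁻¹) ((1 + (r * ρ) * (alC x (-1) (1 / 2 + y) (1 / 2 - y)))⁻¹) ((1 + (r * ρ) * (alC x (1 / 2 - y) (-1) (1 / 2 + y)))⁻¹) ((1 + (r * ρ) * (alC x (1 / 2 - y) (1 / 2 + y) (-1)))⁻¹) ((1 + (r * ρ) * (alC x (1 / 2 + y) (-1) (1 / 2 - y)))⁻¹) ((1 + (r * ρ) * (alC x (1 / 2 + y) (1 / 2 - y) (-1)))⁻¹)
      ((QC ρ x (-1) (1 / 2 - y) (1 / 2 + y))) ((QC ρ x (-1) (1 / 2 + y) (1 / 2 - y))) ((QC ρ x (1 / 2 - y) (-1) (1 / 2 + y))) ((QC ρ x (1 / 2 - y) (1 / 2 + y) (-1))) ((QC ρ x (1 / 2 + y) (-1) (1 / 2 - y))) ((QC ρ x (1 / 2 + y) (1 / 2 - y) (-1)))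
      ((LC ρ x (-1) (1 / 2 - y) (1 / 2 + y))) ((LC ρ x (-1) (1 / 2 + y) (1 / 2 - y))) ((LC ρ x (1 / 2 - y) (-1) (1 / 2 + y))) ((LC ρ x (1 / 2 - y) (1 / 2 + y) (-1))) ((LC ρ x (1 / 2 + y) (-1) (1 / 2 - y))) ((LC ρ x (1 / 2 + y) (1 / 2 - y) (-1)))
      _ _ _ _ _ _
      (mul_inv_cancel₀ hm0.ne') (mul_inv_cancel₀ hm1.ne') (mul_inv_cancel₀ hm2.ne')
      (mul_inv_cancel₀ hm3.ne') (mul_inv_cancel₀ hm4.ne') (mul_inv_cancel₀ hm5.ne')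
      (sum_al ρ x y) (sum_L ρ x y) (sum_Q ρ x y) (sum_aQ ρ x y)
      hτσ (by rw [hB1]; exact (hσ6 _).symm ▸ rfl)
      (mul_nonneg (sq_nonneg _) hσ.le) hG
      (hT _ _ _ _ _ (mul_inv_cancel₀ hm0.ne') se0) (hT _ _ _ _ _ (mul_inv_cancel₀ hm1.ne') se1)
      (hT _ _ _ _ _ (mul_inv_cancel₀ hm2.ne') se2) (hT _ _ _ _ _ (mul_inv_cancel₀ hm3.ne') se3)
      (hT _ _ _ _ _ (mul_inv_cancel₀ hm4.ne') se4) (hT _ _ _ _ _ (mul_inv_cancel₀ hm5.ne') se5)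
    rw [hSv, hXv, hLam, xE_chart, sS_chart, hss, hcc]
    exact main
  · have hc := phiGC_closed phi
      ((1 + (r * ρ) * (alC x (-1) (1 / 2 - y) (1 / 2 + y))) * sS (vV (chartV ρ x) (fun i => chartV r y (gP 0 i))))
      ((1 + (r * ρ) * (alC x (-1) (1 / 2 + y) (1 / 2 - y))) * sS (vV (chartV ρ x) (fun i => chartV r y (gP 1 i))))
      ((1 + (r * ρ) * (alC x (1 / 2 - y) (-1) (1 / 2 + y))) * sS (vV (chartV ρ x) (fun i => chartV r y (gP 2 i))))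
      ((1 + (r * ρ) * (alC x (1 / 2 - y) (1 / 2 + y) (-1))) * sS (vV (chartV ρ x) (fun i => chartV r y (gP 3 i))))
      ((1 + (r * ρ) * (alC x (1 / 2 + y) (-1) (1 / 2 - y))) * sS (vV (chartV ρ x) (fun i => chartV r y (gP 4 i))))
      ((1 + (r * ρ) * (alC x (1 / 2 + y) (1 / 2 - y) (-1))) * sS (vV (chartV ρ x) (fun i => chartV r y (gP 5 i))))
      (by
        have := term_up hU (inT_perm hWv (gP 0))
        rwa [me0] at this)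
      (fun hm => by
        rw [(te0 hm).1]
        have hib := mul_inv_cancel₀ hm.ne'
        generalize (1 + (r * ρ) * (alC x (-1) (1 / 2 - y) (1 / 2 + y)))⁻¹ = ib at hib ⊢
        generalize (1 + (r * ρ) * (alC x (-1) (1 / 2 - y) (1 / 2 + y))) = m at hib ⊢
        linear_combination (2 * (r * ρ * (LC ρ x (-1) (1 / 2 - y) (1 / 2 + y)))) * hib + (ib * (r ^ (2 : ℕ) * (QC ρ x (-1) (1 / 2 - y) (1 / 2 + y)))) * hib)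
      (by
        have := term_up hU (inT_perm hWv (gP 1))
        rwa [me1] at this)
      (fun hm => by
        rw [(te1 hm).1]
        have hib := mul_inv_cancel₀ hm.ne'
        generalize (1 + (r * ρ) * (alC x (-1) (1 / 2 + y) (1 / 2 - y)))⁻¹ = ib at hib ⊢
        generalize (1 + (r * ρ) * (alC x (-1) (1 / 2 + y) (1 / 2 - y))) = m at hib ⊢
        linear_combination (2 * (r * ρ * (LC ρ x (-1) (1 / 2 + y) (1 / 2 - y)))) * hib + (ib * (r ^ (2 : ℕ) * (QC ρ x (-1) (1 / 2 + y) (1 / 2 - y)))) * hib)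
      (by
        have := term_up hU (inT_perm hWv (gP 2))
        rwa [me2] at this)
      (fun hm => by
        rw [(te2 hm).1]
        have hib := mul_inv_cancel₀ hm.ne'
        generalize (1 + (r * ρ) * (alC x (1 / 2 - y) (-1) (1 / 2 + y)))⁻¹ = ib at hib ⊢
        generalize (1 + (r * ρ) * (alC x (1 / 2 - y) (-1) (1 / 2 + y))) = m at hib ⊢
        linear_combination (2 * (r * ρ * (LC ρ x (1 / 2 - y) (-1) (1 / 2 + y)))) * hib + (ib * (r ^ (2 : ℕ) * (QC ρ x (1 / 2 - y) (-1) (1 / 2 + y)))) * hib)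
      (by
        have := term_up hU (inT_perm hWv (gP 3))
        rwa [me3] at this)
      (fun hm => by
        rw [(te3 hm).1]
        have hib := mul_inv_cancel₀ hm.ne'
        generalize (1 + (r * ρ) * (alC x (1 / 2 - y) (1 / 2 + y) (-1)))⁻¹ = ib at hib ⊢
        generalize (1 + (r * ρ) * (alC x (1 / 2 - y) (1 / 2 + y) (-1))) = m at hib ⊢
        linear_combination (2 * (r * ρ * (LC ρ x (1 / 2 - y) (1 / 2 + y) (-1)))) * hib + (ib * (r ^ (2 : ℕ) * (QC ρ x (1 / 2 - y) (1 / 2 + y) (-1)))) * hib)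
      (by
        have := term_up hU (inT_perm hWv (gP 4))
        rwa [me4] at this)
      (fun hm => by
        rw [(te4 hm).1]
        have hib := mul_inv_cancel₀ hm.ne'
        generalize (1 + (r * ρ) * (alC x (1 / 2 + y) (-1) (1 / 2 - y)))⁻¹ = ib at hib ⊢
        generalize (1 + (r * ρ) * (alC x (1 / 2 + y) (-1) (1 / 2 - y))) = m at hib ⊢
        linear_combination (2 * (r * ρ * (LC ρ x (1 / 2 + y) (-1) (1 / 2 - y)))) * hib + (ib * (r ^ (2 : ℕ) * (QC ρ x (1 / 2 + y) (-1) (1 / 2 - y)))) * hib)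
      (by
        have := term_up hU (inT_perm hWv (gP 5))
        rwa [me5] at this)
      (fun hm => by
        rw [(te5 hm).1]
        have hib := mul_inv_cancel₀ hm.ne'
        generalize (1 + (r * ρ) * (alC x (1 / 2 + y) (1 / 2 - y) (-1)))⁻¹ = ib at hib ⊢
        generalize (1 + (r * ρ) * (alC x (1 / 2 + y) (1 / 2 - y) (-1))) = m at hib ⊢
        linear_combination (2 * (r * ρ * (LC ρ x (1 / 2 + y) (1 / 2 - y) (-1)))) * hib + (ib * (r ^ (2 : ℕ) * (QC ρ x (1 / 2 + y) (1 / 2 - y) (-1)))) * hib)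
    refine le_trans (le_six hc) (le_of_eq ?_)
    rw [hSv, xE_chart, xE_chart, sS_chart]
    rw [lE, sS_chart, cC_chart]
    simp only [ssC, c3C, rg3C]

end Vale.Agent.Lib.P154E
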