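import Vale.Agent.Lib.P154E.ETProg

/-!
Generated kernel checks of the Taylor model box tests for `F`.
-/

namespace Vale.Agent.Lib.P154E

open Vale.Agent.Lib.P154

theorem chkF_117 : chk testFX (CT.d (CT.b (CT.c (CT.d CT.l CT.l) (CT.c (CT.d CT.l CT.l) (CT.d (CT.d CT.l CT.l) (CT.d CT.l (CT.c CT.l CT.l))))) (CT.c (CT.a CT.l CT.l) (CT.c (CT.a (CT.a CT.l CT.l) (CT.a CT.l CT.l)) (CT.d (CT.d CT.l CT.l) (CT.d CT.l (CT.a CT.l CT.l)))))) (CT.c (CT.b (CT.d CT.l (CT.a CT.l CT.l)) (CT.d CT.l (CT.a CT.l CT.l))) (CT.d (CT.b (CT.c (CT.a CT.l CT.l) (CT.a (CT.c CT.l (CT.a CT.l CT.l)) (CT.d CT.l (CT.d CT.l CT.l)))) (CT.c (CT.a CT.l CT.l) (CT.a (CT.c CT.l (CT.b CT.l (CT.a CT.l CT.l))) (CT.c CT.l (CT.d CT.l (CT.d CT.l CT.l)))))) (CT.c (CT.b (CT.d CT.l CT.l) (CT.d CT.l (CT.a CT.l CT.l))) (CT.c (CT.b (CT.d CT.l (CT.a CT.l CT.l)) (CT.d CT.l CT.l)) (CT.d (CT.b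 (CT.a CT.l (CT.d CT.l CT.l)) (CT.a (CT.b CT.l CT.l) (CT.d CT.l CT.l))) CT.l)))))) 1065151889408 34359738368 1546188226560 103079215104 824633720832 274877906944 824633720832 824633720832 = true := by decide +kernel

end Vale.Agent.Lib.P154E
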