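import Mathlib
import Vale.Agent.Lib.P154.TMSound
import Vale.Agent.Lib.P154E.ETProg

/-!
Generated: real mirrors of the Taylor model programs and their soundness.
-/

namespace Vale.Agent.Lib.P154E

open Vale.Agent.Lib.P154

lemma mem_constNeg (P : Pt) (q : ℕ) : Mem P (constNeg q) (-((q : ℝ) / DD)) := by
  constructor
  · simp [constNeg, gsum, dv]
  · have e : -((q : ℝ) / DD) - aff (constNeg q) P = 0 := by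
      simp only [constNeg, aff, dv]
      push_cast
      ring
    rw [e]
    simp [constNeg]

lemma mem_vneg (P : Pt) : Mem P (constNeg 1099511627776) (-1) := by
  have h := mem_constNeg P 1099511627776
  have e : ((1099511627776 : ℕ) : ℝ) / DD = 1 := by norm_num [DD]
  rwa [e] at h

/-- Real mirror of `uPartET`. -/
noncomputable def uPartER (R X : ℝ) : ℝ × ℝ × ℝ × ℝ × ℝ × ℝ × ℝ × ℝ × ℝ × ℝ × ℝ × ℝ :=
  let x2 := X ^ (2 : ℕ)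
  let aux1 := ((2 : ℕ) : ℝ) * x2
  let sig := aux1 + ((1649267441664 : ℕ) : ℝ) / 2 ^ (40 : ℕ)
  let gam3 := x2 - ((274877906944 : ℕ) : ℝ) / 2 ^ (40 : ℕ)
  let r2 := R ^ (2 : ℕ)
  let rg3 := R * gam3
  let s := r2 * sig
  let c3 := r2 * rg3
  let s3 := s / 3
  let sig3 := sig / 3
  let y := R * X
  let h := R / 2 ^ (1 : ℕ)
  let U0 := ((1099511627776 : ℕ) : ℝ) / 2 ^ (40 : ℕ) - R
  let aux2 := h - y
  let aux3 := aux2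
  let U1 := aux3 + ((1099511627776 : ℕ) : ℝ) / 2 ^ (40 : ℕ)
  let aux4 := h + y
  let aux5 := aux4
  let U2 := aux5 + ((1099511627776 : ℕ) : ℝ) / 2 ^ (40 : ℕ)
  let aux6 := s / 2 ^ (1 : ℕ)
  let aux7 := ((1099511627776 : ℕ) : ℝ) / 2 ^ (40 : ℕ) - aux6
  let aux8 := aux7 + c3
  let G := aux8
  let Y0 := R * sig
  (sig, sig3, rg3, r2, s, c3, s3, U0, U1, U2, G, Y0)

/-- Soundness of the block `uPartE`. -/
theorem mem_uPartE {P : Pt} {t_R t_X : TM} {R X : ℝ}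
    (h_R : Mem P t_R R) (h_X : Mem P t_X X)
    :
    Mem P (uPartET t_R t_X).1 (uPartER R X).1 ∧
    Mem P (uPartET t_R t_X).2.1 (uPartER R X).2.1 ∧
    Mem P (uPartET t_R t_X).2.2.1 (uPartER R X).2.2.1 ∧
    Mem P (uPartET t_R t_X).2.2.2.1 (uPartER R X).2.2.2.1 ∧
    Mem P (uPartET t_R t_X).2.2.2.2.1 (uPartER R X).2.2.2.2.1 ∧
    Mem P (uPartET t_R t_X).2.2.2.2.2.1 (uPartER R X).2.2.2.2.2.1 ∧
    Mem P (uPartET t_R t_X).2.2.2.2.2.2.1 (uPartER R X).2.2.2.2.2.2.1 ∧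
    Mem P (uPartET t_R t_X).2.2.2.2.2.2.2.1 (uPartER R X).2.2.2.2.2.2.2.1 ∧
    Mem P (uPartET t_R t_X).2.2.2.2.2.2.2.2.1 (uPartER R X).2.2.2.2.2.2.2.2.1 ∧
    Mem P (uPartET t_R t_X).2.2.2.2.2.2.2.2.2.1 (uPartER R X).2.2.2.2.2.2.2.2.2.1 ∧
    Mem P (uPartET t_R t_X).2.2.2.2.2.2.2.2.2.2.1 (uPartER R X).2.2.2.2.2.2.2.2.2.2.1 ∧
    Mem P (uPartET t_R t_X).2.2.2.2.2.2.2.2.2.2.2 (uPartER R X).2.2.2.2.2.2.2.2.2.2.2 := by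
  have h_x2 := mem_sq h_X
  have h_aux1 := mem_smul 2 h_x2
  have h_sig := mem_addC 1649267441664 h_aux1
  have h_gam3 := mem_subC 274877906944 h_x2
  have h_r2 := mem_sq h_R
  have h_rg3 := mem_mul h_R h_gam3
  have h_s := mem_mul h_r2 h_sig
  have h_c3 := mem_mul h_r2 h_rg3
  have h_s3 := mem_third h_s
  have h_sig3 := mem_third h_sig
  have h_y := mem_mul h_R h_X
  have h_h := mem_shr 1 h_R
  have h_U0 := mem_rsubC 1099511627776 h_R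
  have h_aux2 := mem_sub h_h h_y
  have h_aux3 := mem_nrm h_aux2
  have h_U1 := mem_addC 1099511627776 h_aux3
  have h_aux4 := mem_add h_h h_y
  have h_aux5 := mem_nrm h_aux4
  have h_U2 := mem_addC 1099511627776 h_aux5
  have h_aux6 := mem_shr 1 h_s
  have h_aux7 := mem_rsubC 1099511627776 h_aux6
  have h_aux8 := mem_add h_aux7 h_c3
  have h_G := mem_nrm h_aux8
  have h_Y0 := mem_mul h_R h_sig
  exact ⟨h_sig, h_sig3, h_rg3, h_r2, h_s, h_c3, h_s3, h_U0, h_U1, h_U2, h_G, h_Y0⟩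

/-- Real mirror of `vPartET`. -/
noncomputable def vPartER (Q Y : ℝ) : ℝ × ℝ × ℝ × ℝ × ℝ × ℝ × ℝ × ℝ × ℝ :=
  let xp2 := Y ^ (2 : ℕ)
  let aux1 := ((2 : ℕ) : ℝ) * xp2
  let sigp := aux1 + ((1649267441664 : ℕ) : ℝ) / 2 ^ (40 : ℕ)
  let gamp3 := xp2 - ((274877906944 : ℕ) : ℝ) / 2 ^ (40 : ℕ)
  let rp2 := Q ^ (2 : ℕ)
  let S := rp2 * sigp
  let rg3p := Q * gamp3
  let C3 := rp2 * rg3p
  let aux2 := S / 2 ^ (1 : ℕ)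
  let aux3 := ((1099511627776 : ℕ) : ℝ) / 2 ^ (40 : ℕ) - aux2
  let aux4 := aux3 + C3
  let Gw := aux4
  let aux5 := (((3 : ℕ) : ℝ) / 2 ^ (6 : ℕ)) * S
  let aux6 := ((1099511627776 : ℕ) : ℝ) / 2 ^ (40 : ℕ) - aux5
  let aux7 := S * aux6
  let fS := (((11 : ℕ) : ℝ) / 2 ^ (7 : ℕ)) * aux7
  let r4 := rp2 ^ (2 : ℕ)
  (xp2, sigp, rp2, S, rg3p, C3, Gw, fS, r4)

/-- Soundness of the block `vPartE`. -/
theorem mem_vPartE {P : Pt} {t_Q t_Y : TM} {Q Y : ℝ}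
    (h_Q : Mem P t_Q Q) (h_Y : Mem P t_Y Y)
    :
    Mem P (vPartET t_Q t_Y).1 (vPartER Q Y).1 ∧
    Mem P (vPartET t_Q t_Y).2.1 (vPartER Q Y).2.1 ∧
    Mem P (vPartET t_Q t_Y).2.2.1 (vPartER Q Y).2.2.1 ∧
    Mem P (vPartET t_Q t_Y).2.2.2.1 (vPartER Q Y).2.2.2.1 ∧
    Mem P (vPartET t_Q t_Y).2.2.2.2.1 (vPartER Q Y).2.2.2.2.1 ∧
    Mem P (vPartET t_Q t_Y).2.2.2.2.2.1 (vPartER Q Y).2.2.2.2.2.1 ∧
    Mem P (vPartET t_Q t_Y).2.2.2.2.2.2.1 (vPartER Q Y).2.2.2.2.2.2.1 ∧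
    Mem P (vPartET t_Q t_Y).2.2.2.2.2.2.2.1 (vPartER Q Y).2.2.2.2.2.2.2.1 ∧
    Mem P (vPartET t_Q t_Y).2.2.2.2.2.2.2.2 (vPartER Q Y).2.2.2.2.2.2.2.2 := by
  have h_xp2 := mem_sq h_Y
  have h_aux1 := mem_smul 2 h_xp2
  have h_sigp := mem_addC 1649267441664 h_aux1
  have h_gamp3 := mem_subC 274877906944 h_xp2
  have h_rp2 := mem_sq h_Q
  have h_S := mem_mul h_rp2 h_sigp
  have h_rg3p := mem_mul h_Q h_gamp3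
  have h_C3 := mem_mul h_rp2 h_rg3p
  have h_aux2 := mem_shr 1 h_S
  have h_aux3 := mem_rsubC 1099511627776 h_aux2
  have h_aux4 := mem_add h_aux3 h_C3
  have h_Gw := mem_nrm h_aux4
  have h_aux5 := mem_scale 3 6 h_S
  have h_aux6 := mem_rsubC 1099511627776 h_aux5
  have h_aux7 := mem_mul h_S h_aux6
  have h_fS := mem_scale 11 7 h_aux7
  have h_r4 := mem_sq h_rp2
  exact ⟨h_xp2, h_sigp, h_rp2, h_S, h_rg3p, h_C3, h_Gw, h_fS, h_r4⟩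

/-- Real mirror of `alphasET`. -/
noncomputable def alphasER (X Y : ℝ) : ℝ × ℝ × ℝ × ℝ × ℝ × ℝ :=
  let aux1 := X * Y
  let z := aux1 / 3
  let hx := X / 2 ^ (1 : ℕ)
  let hy := Y / 2 ^ (1 : ℕ)
  let z2 := ((2 : ℕ) : ℝ) * z
  let al0 := z2 + ((549755813888 : ℕ) : ℝ) / 2 ^ (40 : ℕ)
  let al1 := ((549755813888 : ℕ) : ℝ) / 2 ^ (40 : ℕ) - z2
  let aux2 := hx + hy
  let sxy := aux2
  let aux3 := sxy + z
  let aux4 := aux3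
  let al2 := aux4 - ((274877906944 : ℕ) : ℝ) / 2 ^ (40 : ℕ)
  let aux5 := hy - hx
  let dyx := aux5
  let aux6 := dyx - z
  let aux7 := aux6
  let al3 := aux7 - ((274877906944 : ℕ) : ℝ) / 2 ^ (40 : ℕ)
  let aux8 := hx - hy
  let dxy := aux8
  let aux9 := dxy - z
  let aux10 := aux9
  let al4 := aux10 - ((274877906944 : ℕ) : ℝ) / 2 ^ (40 : ℕ)
  let aux11 := z - sxy
  let aux12 := aux11
  let al5 := aux12 - ((274877906944 : ℕ) : ℝ) / 2 ^ (40 : ℕ)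
  (al0, al1, al2, al3, al4, al5)

/-- Soundness of the block `alphasE`. -/
theorem mem_alphasE {P : Pt} {t_X t_Y : TM} {X Y : ℝ}
    (h_X : Mem P t_X X) (h_Y : Mem P t_Y Y)
    :
    Mem P (alphasET t_X t_Y).1 (alphasER X Y).1 ∧
    Mem P (alphasET t_X t_Y).2.1 (alphasER X Y).2.1 ∧
    Mem P (alphasET t_X t_Y).2.2.1 (alphasER X Y).2.2.1 ∧
    Mem P (alphasET t_X t_Y).2.2.2.1 (alphasER X Y).2.2.2.1 ∧
    Mem P (alphasET t_X t_Y).2.2.2.2.1 (alphasER X Y).2.2.2.2.1 ∧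
    Mem P (alphasET t_X t_Y).2.2.2.2.2 (alphasER X Y).2.2.2.2.2 := by
  have h_aux1 := mem_mul h_X h_Y
  have h_z := mem_third h_aux1
  have h_hx := mem_shr 1 h_X
  have h_hy := mem_shr 1 h_Y
  have h_z2 := mem_smul 2 h_z
  have h_al0 := mem_addC 549755813888 h_z2
  have h_al1 := mem_rsubC 549755813888 h_z2
  have h_aux2 := mem_add h_hx h_hy
  have h_sxy := mem_nrm h_aux2
  have h_aux3 := mem_add h_sxy h_z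
  have h_aux4 := mem_nrm h_aux3
  have h_al2 := mem_subC 274877906944 h_aux4
  have h_aux5 := mem_sub h_hy h_hx
  have h_dyx := mem_nrm h_aux5
  have h_aux6 := mem_sub h_dyx h_z
  have h_aux7 := mem_nrm h_aux6
  have h_al3 := mem_subC 274877906944 h_aux7
  have h_aux8 := mem_sub h_hx h_hy
  have h_dxy := mem_nrm h_aux8
  have h_aux9 := mem_sub h_dxy h_z
  have h_aux10 := mem_nrm h_aux9
  have h_al4 := mem_subC 274877906944 h_aux10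
  have h_aux11 := mem_sub h_z h_sxy
  have h_aux12 := mem_nrm h_aux11
  have h_al5 := mem_subC 274877906944 h_aux12
  exact ⟨h_al0, h_al1, h_al2, h_al3, h_al4, h_al5⟩

/-- Real mirror of `matFET`. -/
noncomputable def matFER (U0 U1 U2 X Y y2 : ℝ) : ℝ × ℝ × ℝ × ℝ × ℝ × ℝ × ℝ × ℝ × ℝ × ℝ × ℝ × ℝ × ℝ × ℝ × ℝ × ℝ × ℝ × ℝ × ℝ :=
  let w0 := U0 ^ (2 : ℕ)
  let w1 := U1 ^ (2 : ℕ)
  let w2 := U2 ^ (2 : ℕ)
  let aux1 := w0 + w1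
  let W0 := aux1 + w2
  let wx0 := w0 * Y
  let wx1 := w1 * Y
  let wx2 := w2 * Y
  let wxx0 := w0 * y2
  let wxx1 := w1 * y2
  let wxx2 := w2 * y2
  let wh0 := w0 / 2 ^ (1 : ℕ)
  let wh1 := w1 / 2 ^ (1 : ℕ)
  let wh2 := w2 / 2 ^ (1 : ℕ)
  let wq0 := w0 / 2 ^ (2 : ℕ)
  let wq1 := w1 / 2 ^ (2 : ℕ)
  let wq2 := w2 / 2 ^ (2 : ℕ)
  let a00 := -w0
  let a01 := wh0 - wx0
  let a02 := wh0 + wx0
  let bc0 := wq0 + wxx0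
  let b01 := bc0 - wx0
  let b02 := bc0 + wx0
  let a10 := -w1
  let a11 := wh1 - wx1
  let a12 := wh1 + wx1
  let bc1 := wq1 + wxx1
  let b11 := bc1 - wx1
  let b12 := bc1 + wx1
  let a20 := -w2
  let a21 := wh2 - wx2
  let a22 := wh2 + wx2
  let bc2 := wq2 + wxx2
  let b21 := bc2 - wx2
  let b22 := bc2 + wx2
  let t0 := -U0
  let aux2 := ((549755813888 : ℕ) : ℝ) / 2 ^ (40 : ℕ) - X
  let t1 := aux2 * U1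
  let aux3 := X + ((549755813888 : ℕ) : ℝ) / 2 ^ (40 : ℕ)
  let t2 := aux3 * U2
  let tx0 := t0 * Y
  let tx1 := t1 * Y
  let tx2 := t2 * Y
  let th0 := t0 / 2 ^ (1 : ℕ)
  let th1 := t1 / 2 ^ (1 : ℕ)
  let th2 := t2 / 2 ^ (1 : ℕ)
  let d00 := -t0
  let d01 := th0 - tx0
  let d02 := th0 + tx0
  let d10 := -t1
  let d11 := th1 - tx1
  let d12 := th1 + tx1
  let d20 := -t2
  let d21 := th2 - tx2
  let d22 := th2 + tx2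
  let aux4 := a00 + a11
  let aux5 := aux4 + a22
  let P1g0 := aux5
  let aux6 := w0 + b11
  let aux7 := aux6 + b22
  let P2g0 := aux7
  let aux8 := d00 + d11
  let aux9 := aux8 + d22
  let Y1g0 := aux9
  let aux10 := a00 + a12
  let aux11 := aux10 + a21
  let P1g1 := aux11
  let aux12 := w0 + b12
  let aux13 := aux12 + b21
  let P2g1 := aux13
  let aux14 := d00 + d12
  let aux15 := aux14 + d21
  let Y1g1 := aux15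
  let aux16 := a01 + a10
  let aux17 := aux16 + a22
  let P1g2 := aux17
  let aux18 := b01 + w1
  let aux19 := aux18 + b22
  let P2g2 := aux19
  let aux20 := d01 + d10
  let aux21 := aux20 + d22
  let Y1g2 := aux21
  let aux22 := a01 + a12
  let aux23 := aux22 + a20
  let P1g3 := aux23
  let aux24 := b01 + b12
  let aux25 := aux24 + w2
  let P2g3 := aux25
  let aux26 := d01 + d12
  let aux27 := aux26 + d20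
  let Y1g3 := aux27
  let aux28 := a02 + a10
  let aux29 := aux28 + a21
  let P1g4 := aux29
  let aux30 := b02 + w1
  let aux31 := aux30 + b21
  let P2g4 := aux31
  let aux32 := d02 + d10
  let aux33 := aux32 + d21
  let Y1g4 := aux33
  let aux34 := a02 + a11
  let aux35 := aux34 + a20
  let P1g5 := aux35
  let aux36 := b02 + b11
  let aux37 := aux36 + w2
  let P2g5 := aux37
  let aux38 := d02 + d11
  let aux39 := aux38 + d20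
  let Y1g5 := aux39
  (P1g0, P2g0, Y1g0, P1g1, P2g1, Y1g1, P1g2, P2g2, Y1g2, P1g3, P2g3, Y1g3, P1g4, P2g4, Y1g4, P1g5, P2g5, Y1g5, W0)

/-- Soundness of the block `matFE`. -/
theorem mem_matFE {P : Pt} {t_U0 t_U1 t_U2 t_X t_Y t_y2 : TM} {U0 U1 U2 X Y y2 : ℝ}
    (h_U0 : Mem P t_U0 U0) (h_U1 : Mem P t_U1 U1) (h_U2 : Mem P t_U2 U2) (h_X : Mem P t_X X) (h_Y : Mem P t_Y Y) (h_y2 : Mem P t_y2 y2)
    :
    Mem P (matFET t_U0 t_U1 t_U2 t_X t_Y t_y2).1 (matFER U0 U1 U2 X Y y2).1 ∧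
    Mem P (matFET t_U0 t_U1 t_U2 t_X t_Y t_y2).2.1 (matFER U0 U1 U2 X Y y2).2.1 ∧
    Mem P (matFET t_U0 t_U1 t_U2 t_X t_Y t_y2).2.2.1 (matFER U0 U1 U2 X Y y2).2.2.1 ∧
    Mem P (matFET t_U0 t_U1 t_U2 t_X t_Y t_y2).2.2.2.1 (matFER U0 U1 U2 X Y y2).2.2.2.1 ∧
    Mem P (matFET t_U0 t_U1 t_U2 t_X t_Y t_y2).2.2.2.2.1 (matFER U0 U1 U2 X Y y2).2.2.2.2.1 ∧
    Mem P (matFET t_U0 t_U1 t_U2 t_X t_Y t_y2).2.2.2.2.2.1 (matFER U0 U1 U2 X Y y2).2.2.2.2.2.1 ∧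
    Mem P (matFET t_U0 t_U1 t_U2 t_X t_Y t_y2).2.2.2.2.2.2.1 (matFER U0 U1 U2 X Y y2).2.2.2.2.2.2.1 ∧
    Mem P (matFET t_U0 t_U1 t_U2 t_X t_Y t_y2).2.2.2.2.2.2.2.1 (matFER U0 U1 U2 X Y y2).2.2.2.2.2.2.2.1 ∧
    Mem P (matFET t_U0 t_U1 t_U2 t_X t_Y t_y2).2.2.2.2.2.2.2.2.1 (matFER U0 U1 U2 X Y y2).2.2.2.2.2.2.2.2.1 ∧
    Mem P (matFET t_U0 t_U1 t_U2 t_X t_Y t_y2).2.2.2.2.2.2.2.2.2.1 (matFER U0 U1 U2 X Y y2).2.2.2.2.2.2.2.2.2.1 ∧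
    Mem P (matFET t_U0 t_U1 t_U2 t_X t_Y t_y2).2.2.2.2.2.2.2.2.2.2.1 (matFER U0 U1 U2 X Y y2).2.2.2.2.2.2.2.2.2.2.1 ∧
    Mem P (matFET t_U0 t_U1 t_U2 t_X t_Y t_y2).2.2.2.2.2.2.2.2.2.2.2.1 (matFER U0 U1 U2 X Y y2).2.2.2.2.2.2.2.2.2.2.2.1 ∧
    Mem P (matFET t_U0 t_U1 t_U2 t_X t_Y t_y2).2.2.2.2.2.2.2.2.2.2.2.2.1 (matFER U0 U1 U2 X Y y2).2.2.2.2.2.2.2.2.2.2.2.2.1 ∧
    Mem P (matFET t_U0 t_U1 t_U2 t_X t_Y t_y2).2.2.2.2.2.2.2.2.2.2.2.2.2.1 (matFER U0 U1 U2 X Y y2).2.2.2.2.2.2.2.2.2.2.2.2.2.1 ∧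
    Mem P (matFET t_U0 t_U1 t_U2 t_X t_Y t_y2).2.2.2.2.2.2.2.2.2.2.2.2.2.2.1 (matFER U0 U1 U2 X Y y2).2.2.2.2.2.2.2.2.2.2.2.2.2.2.1 ∧
    Mem P (matFET t_U0 t_U1 t_U2 t_X t_Y t_y2).2.2.2.2.2.2.2.2.2.2.2.2.2.2.2.1 (matFER U0 U1 U2 X Y y2).2.2.2.2.2.2.2.2.2.2.2.2.2.2.2.1 ∧
    Mem P (matFET t_U0 t_U1 t_U2 t_X t_Y t_y2).2.2.2.2.2.2.2.2.2.2.2.2.2.2.2.2.1 (matFER U0 U1 U2 X Y y2).2.2.2.2.2.2.2.2.2.2.2.2.2.2.2.2.1 ∧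
    Mem P (matFET t_U0 t_U1 t_U2 t_X t_Y t_y2).2.2.2.2.2.2.2.2.2.2.2.2.2.2.2.2.2.1 (matFER U0 U1 U2 X Y y2).2.2.2.2.2.2.2.2.2.2.2.2.2.2.2.2.2.1 ∧
    Mem P (matFET t_U0 t_U1 t_U2 t_X t_Y t_y2).2.2.2.2.2.2.2.2.2.2.2.2.2.2.2.2.2.2 (matFER U0 U1 U2 X Y y2).2.2.2.2.2.2.2.2.2.2.2.2.2.2.2.2.2.2 := by
  have h_w0 := mem_sq h_U0
  have h_w1 := mem_sq h_U1
  have h_w2 := mem_sq h_U2
  have h_aux1 := mem_add h_w0 h_w1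
  have h_W0 := mem_add h_aux1 h_w2
  have h_wx0 := mem_mul h_w0 h_Y
  have h_wx1 := mem_mul h_w1 h_Y
  have h_wx2 := mem_mul h_w2 h_Y
  have h_wxx0 := mem_mul h_w0 h_y2
  have h_wxx1 := mem_mul h_w1 h_y2
  have h_wxx2 := mem_mul h_w2 h_y2
  have h_wh0 := mem_shr 1 h_w0
  have h_wh1 := mem_shr 1 h_w1
  have h_wh2 := mem_shr 1 h_w2
  have h_wq0 := mem_shr 2 h_w0
  have h_wq1 := mem_shr 2 h_w1
  have h_wq2 := mem_shr 2 h_w2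
  have h_a00 := mem_neg h_w0
  have h_a01 := mem_sub h_wh0 h_wx0
  have h_a02 := mem_add h_wh0 h_wx0
  have h_bc0 := mem_add h_wq0 h_wxx0
  have h_b01 := mem_sub h_bc0 h_wx0
  have h_b02 := mem_add h_bc0 h_wx0
  have h_a10 := mem_neg h_w1
  have h_a11 := mem_sub h_wh1 h_wx1
  have h_a12 := mem_add h_wh1 h_wx1
  have h_bc1 := mem_add h_wq1 h_wxx1
  have h_b11 := mem_sub h_bc1 h_wx1
  have h_b12 := mem_add h_bc1 h_wx1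
  have h_a20 := mem_neg h_w2
  have h_a21 := mem_sub h_wh2 h_wx2
  have h_a22 := mem_add h_wh2 h_wx2
  have h_bc2 := mem_add h_wq2 h_wxx2
  have h_b21 := mem_sub h_bc2 h_wx2
  have h_b22 := mem_add h_bc2 h_wx2
  have h_t0 := mem_neg h_U0
  have h_aux2 := mem_rsubC 549755813888 h_X
  have h_t1 := mem_mul h_aux2 h_U1
  have h_aux3 := mem_addC 549755813888 h_X
  have h_t2 := mem_mul h_aux3 h_U2
  have h_tx0 := mem_mul h_t0 h_Y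
  have h_tx1 := mem_mul h_t1 h_Y
  have h_tx2 := mem_mul h_t2 h_Y
  have h_th0 := mem_shr 1 h_t0
  have h_th1 := mem_shr 1 h_t1
  have h_th2 := mem_shr 1 h_t2
  have h_d00 := mem_neg h_t0
  have h_d01 := mem_sub h_th0 h_tx0
  have h_d02 := mem_add h_th0 h_tx0
  have h_d10 := mem_neg h_t1
  have h_d11 := mem_sub h_th1 h_tx1
  have h_d12 := mem_add h_th1 h_tx1
  have h_d20 := mem_neg h_t2
  have h_d21 := mem_sub h_th2 h_tx2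
  have h_d22 := mem_add h_th2 h_tx2
  have h_aux4 := mem_add h_a00 h_a11
  have h_aux5 := mem_add h_aux4 h_a22
  have h_P1g0 := mem_nrm h_aux5
  have h_aux6 := mem_add h_w0 h_b11
  have h_aux7 := mem_add h_aux6 h_b22
  have h_P2g0 := mem_nrm h_aux7
  have h_aux8 := mem_add h_d00 h_d11
  have h_aux9 := mem_add h_aux8 h_d22
  have h_Y1g0 := mem_nrm h_aux9
  have h_aux10 := mem_add h_a00 h_a12
  have h_aux11 := mem_add h_aux10 h_a21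
  have h_P1g1 := mem_nrm h_aux11
  have h_aux12 := mem_add h_w0 h_b12
  have h_aux13 := mem_add h_aux12 h_b21
  have h_P2g1 := mem_nrm h_aux13
  have h_aux14 := mem_add h_d00 h_d12
  have h_aux15 := mem_add h_aux14 h_d21
  have h_Y1g1 := mem_nrm h_aux15
  have h_aux16 := mem_add h_a01 h_a10
  have h_aux17 := mem_add h_aux16 h_a22
  have h_P1g2 := mem_nrm h_aux17
  have h_aux18 := mem_add h_b01 h_w1
  have h_aux19 := mem_add h_aux18 h_b22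
  have h_P2g2 := mem_nrm h_aux19
  have h_aux20 := mem_add h_d01 h_d10
  have h_aux21 := mem_add h_aux20 h_d22
  have h_Y1g2 := mem_nrm h_aux21
  have h_aux22 := mem_add h_a01 h_a12
  have h_aux23 := mem_add h_aux22 h_a20
  have h_P1g3 := mem_nrm h_aux23
  have h_aux24 := mem_add h_b01 h_b12
  have h_aux25 := mem_add h_aux24 h_w2
  have h_P2g3 := mem_nrm h_aux25
  have h_aux26 := mem_add h_d01 h_d12
  have h_aux27 := mem_add h_aux26 h_d20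
  have h_Y1g3 := mem_nrm h_aux27
  have h_aux28 := mem_add h_a02 h_a10
  have h_aux29 := mem_add h_aux28 h_a21
  have h_P1g4 := mem_nrm h_aux29
  have h_aux30 := mem_add h_b02 h_w1
  have h_aux31 := mem_add h_aux30 h_b21
  have h_P2g4 := mem_nrm h_aux31
  have h_aux32 := mem_add h_d02 h_d10
  have h_aux33 := mem_add h_aux32 h_d21
  have h_Y1g4 := mem_nrm h_aux33
  have h_aux34 := mem_add h_a02 h_a11
  have h_aux35 := mem_add h_aux34 h_a20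
  have h_P1g5 := mem_nrm h_aux35
  have h_aux36 := mem_add h_b02 h_b11
  have h_aux37 := mem_add h_aux36 h_w2
  have h_P2g5 := mem_nrm h_aux37
  have h_aux38 := mem_add h_d02 h_d11
  have h_aux39 := mem_add h_aux38 h_d20
  have h_Y1g5 := mem_nrm h_aux39
  exact ⟨h_P1g0, h_P2g0, h_Y1g0, h_P1g1, h_P2g1, h_Y1g1, h_P1g2, h_P2g2, h_Y1g2, h_P1g3, h_P2g3, h_Y1g3, h_P1g4, h_P2g4, h_Y1g4, h_P1g5, h_P2g5, h_Y1g5, h_W0⟩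

/-- Real mirror of `matDET`. -/
noncomputable def matDER (U0 U1 U2 X Y : ℝ) : ℝ × ℝ × ℝ × ℝ × ℝ × ℝ × ℝ × ℝ × ℝ × ℝ × ℝ :=
  let w0 := U0 ^ (2 : ℕ)
  let w1 := U1 ^ (2 : ℕ)
  let w2 := U2 ^ (2 : ℕ)
  let t0 := -U0
  let aux1 := ((549755813888 : ℕ) : ℝ) / 2 ^ (40 : ℕ) - X
  let t1 := aux1 * U1
  let aux2 := X + ((549755813888 : ℕ) : ℝ) / 2 ^ (40 : ℕ)
  let t2 := aux2 * U2
  let tx0 := t0 * Y
  let tx1 := t1 * Y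
  let tx2 := t2 * Y
  let th0 := t0 / 2 ^ (1 : ℕ)
  let th1 := t1 / 2 ^ (1 : ℕ)
  let th2 := t2 / 2 ^ (1 : ℕ)
  let d00 := -t0
  let d01 := th0 - tx0
  let d02 := th0 + tx0
  let d10 := -t1
  let d11 := th1 - tx1
  let d12 := th1 + tx1
  let d20 := -t2
  let d21 := th2 - tx2
  let d22 := th2 + tx2
  let aux3 := d00 + d11
  let aux4 := aux3 + d22
  let Y1g0 := aux4
  let aux5 := d00 + d12
  let aux6 := aux5 + d21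
  let Y1g1 := aux6
  let aux7 := d01 + d10
  let aux8 := aux7 + d22
  let Y1g2 := aux8
  let aux9 := d01 + d12
  let aux10 := aux9 + d20
  let Y1g3 := aux10
  let aux11 := d02 + d10
  let aux12 := aux11 + d21
  let Y1g4 := aux12
  let aux13 := d02 + d11
  let aux14 := aux13 + d20
  let Y1g5 := aux14
  let vm := ((549755813888 : ℕ) : ℝ) / 2 ^ (40 : ℕ) - Y
  let vp := Y + ((549755813888 : ℕ) : ℝ) / 2 ^ (40 : ℕ)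
  (Y1g0, Y1g1, Y1g2, Y1g3, Y1g4, Y1g5, w0, w1, w2, vm, vp)

/-- Soundness of the block `matDE`. -/
theorem mem_matDE {P : Pt} {t_U0 t_U1 t_U2 t_X t_Y : TM} {U0 U1 U2 X Y : ℝ}
    (h_U0 : Mem P t_U0 U0) (h_U1 : Mem P t_U1 U1) (h_U2 : Mem P t_U2 U2) (h_X : Mem P t_X X) (h_Y : Mem P t_Y Y)
    :
    Mem P (matDET t_U0 t_U1 t_U2 t_X t_Y).1 (matDER U0 U1 U2 X Y).1 ∧
    Mem P (matDET t_U0 t_U1 t_U2 t_X t_Y).2.1 (matDER U0 U1 U2 X Y).2.1 ∧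
    Mem P (matDET t_U0 t_U1 t_U2 t_X t_Y).2.2.1 (matDER U0 U1 U2 X Y).2.2.1 ∧
    Mem P (matDET t_U0 t_U1 t_U2 t_X t_Y).2.2.2.1 (matDER U0 U1 U2 X Y).2.2.2.1 ∧
    Mem P (matDET t_U0 t_U1 t_U2 t_X t_Y).2.2.2.2.1 (matDER U0 U1 U2 X Y).2.2.2.2.1 ∧
    Mem P (matDET t_U0 t_U1 t_U2 t_X t_Y).2.2.2.2.2.1 (matDER U0 U1 U2 X Y).2.2.2.2.2.1 ∧
    Mem P (matDET t_U0 t_U1 t_U2 t_X t_Y).2.2.2.2.2.2.1 (matDER U0 U1 U2 X Y).2.2.2.2.2.2.1 ∧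
    Mem P (matDET t_U0 t_U1 t_U2 t_X t_Y).2.2.2.2.2.2.2.1 (matDER U0 U1 U2 X Y).2.2.2.2.2.2.2.1 ∧
    Mem P (matDET t_U0 t_U1 t_U2 t_X t_Y).2.2.2.2.2.2.2.2.1 (matDER U0 U1 U2 X Y).2.2.2.2.2.2.2.2.1 ∧
    Mem P (matDET t_U0 t_U1 t_U2 t_X t_Y).2.2.2.2.2.2.2.2.2.1 (matDER U0 U1 U2 X Y).2.2.2.2.2.2.2.2.2.1 ∧
    Mem P (matDET t_U0 t_U1 t_U2 t_X t_Y).2.2.2.2.2.2.2.2.2.2 (matDER U0 U1 U2 X Y).2.2.2.2.2.2.2.2.2.2 := by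
  have h_w0 := mem_sq h_U0
  have h_w1 := mem_sq h_U1
  have h_w2 := mem_sq h_U2
  have h_t0 := mem_neg h_U0
  have h_aux1 := mem_rsubC 549755813888 h_X
  have h_t1 := mem_mul h_aux1 h_U1
  have h_aux2 := mem_addC 549755813888 h_X
  have h_t2 := mem_mul h_aux2 h_U2
  have h_tx0 := mem_mul h_t0 h_Y
  have h_tx1 := mem_mul h_t1 h_Y
  have h_tx2 := mem_mul h_t2 h_Y
  have h_th0 := mem_shr 1 h_t0
  have h_th1 := mem_shr 1 h_t1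
  have h_th2 := mem_shr 1 h_t2
  have h_d00 := mem_neg h_t0
  have h_d01 := mem_sub h_th0 h_tx0
  have h_d02 := mem_add h_th0 h_tx0
  have h_d10 := mem_neg h_t1
  have h_d11 := mem_sub h_th1 h_tx1
  have h_d12 := mem_add h_th1 h_tx1
  have h_d20 := mem_neg h_t2
  have h_d21 := mem_sub h_th2 h_tx2
  have h_d22 := mem_add h_th2 h_tx2
  have h_aux3 := mem_add h_d00 h_d11
  have h_aux4 := mem_add h_aux3 h_d22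
  have h_Y1g0 := mem_nrm h_aux4
  have h_aux5 := mem_add h_d00 h_d12
  have h_aux6 := mem_add h_aux5 h_d21
  have h_Y1g1 := mem_nrm h_aux6
  have h_aux7 := mem_add h_d01 h_d10
  have h_aux8 := mem_add h_aux7 h_d22
  have h_Y1g2 := mem_nrm h_aux8
  have h_aux9 := mem_add h_d01 h_d12
  have h_aux10 := mem_add h_aux9 h_d20
  have h_Y1g3 := mem_nrm h_aux10
  have h_aux11 := mem_add h_d02 h_d10
  have h_aux12 := mem_add h_aux11 h_d21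
  have h_Y1g4 := mem_nrm h_aux12
  have h_aux13 := mem_add h_d02 h_d11
  have h_aux14 := mem_add h_aux13 h_d20
  have h_Y1g5 := mem_nrm h_aux14
  have h_vm := mem_rsubC 549755813888 h_Y
  have h_vp := mem_addC 549755813888 h_Y
  exact ⟨h_Y1g0, h_Y1g1, h_Y1g2, h_Y1g3, h_Y1g4, h_Y1g5, h_w0, h_w1, h_w2, h_vm, h_vp⟩

/-- Real mirror of `matGET`. -/
noncomputable def matGER (U0 U1 U2 Y : ℝ) : ℝ × ℝ × ℝ × ℝ × ℝ :=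
  let w0 := U0 ^ (2 : ℕ)
  let w1 := U1 ^ (2 : ℕ)
  let w2 := U2 ^ (2 : ℕ)
  let vm := ((549755813888 : ℕ) : ℝ) / 2 ^ (40 : ℕ) - Y
  let vp := Y + ((549755813888 : ℕ) : ℝ) / 2 ^ (40 : ℕ)
  (w0, w1, w2, vm, vp)

/-- Soundness of the block `matGE`. -/
theorem mem_matGE {P : Pt} {t_U0 t_U1 t_U2 t_Y : TM} {U0 U1 U2 Y : ℝ}
    (h_U0 : Mem P t_U0 U0) (h_U1 : Mem P t_U1 U1) (h_U2 : Mem P t_U2 U2) (h_Y : Mem P t_Y Y)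
    :
    Mem P (matGET t_U0 t_U1 t_U2 t_Y).1 (matGER U0 U1 U2 Y).1 ∧
    Mem P (matGET t_U0 t_U1 t_U2 t_Y).2.1 (matGER U0 U1 U2 Y).2.1 ∧
    Mem P (matGET t_U0 t_U1 t_U2 t_Y).2.2.1 (matGER U0 U1 U2 Y).2.2.1 ∧
    Mem P (matGET t_U0 t_U1 t_U2 t_Y).2.2.2.1 (matGER U0 U1 U2 Y).2.2.2.1 ∧
    Mem P (matGET t_U0 t_U1 t_U2 t_Y).2.2.2.2 (matGER U0 U1 U2 Y).2.2.2.2 := by
  have h_w0 := mem_sq h_U0
  have h_w1 := mem_sq h_U1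
  have h_w2 := mem_sq h_U2
  have h_vm := mem_rsubC 549755813888 h_Y
  have h_vp := mem_addC 549755813888 h_Y
  exact ⟨h_w0, h_w1, h_w2, h_vm, h_vp⟩

/-- Real mirror of `permAET`. -/
noncomputable def permAER (R Q al : ℝ) : ℝ × ℝ :=
  let ra := R * al
  let a := Q * ra
  let m := a + ((1099511627776 : ℕ) : ℝ) / 2 ^ (40 : ℕ)
  (ra, m)

/-- Soundness of the block `permAE`. -/
theorem mem_permAE {P : Pt} {t_R t_Q t_al : TM} {R Q al : ℝ}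
    (h_R : Mem P t_R R) (h_Q : Mem P t_Q Q) (h_al : Mem P t_al al)
    :
    Mem P (permAET t_R t_Q t_al).1 (permAER R Q al).1 ∧
    Mem P (permAET t_R t_Q t_al).2 (permAER R Q al).2 := by
  have h_ra := mem_mul h_R h_al
  have h_a := mem_mul h_Q h_ra
  have h_m := mem_addC 1099511627776 h_a
  exact ⟨h_ra, h_m⟩

/-- Real mirror of `permBET`. -/
noncomputable def permBER (ra m al w0 w1 w2 v0 v1 v2 Y0 Y1 rp2 C1 GG3 Ah : ℝ) : ℝ :=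
  let ib := m⁻¹
  let d0 := v0 - ra
  let d1 := v1 - ra
  let d2 := v2 - ra
  let q0 := d0 ^ (2 : ℕ)
  let q1 := d1 ^ (2 : ℕ)
  let q2 := d2 ^ (2 : ℕ)
  let aux1 := w0 * q0
  let aux2 := w1 * q1
  let aux3 := w2 * q2
  let aux4 := aux1 + aux2
  let aux5 := aux4 + aux3
  let Qt := aux5
  let aux6 := ra * Y0
  let aux7 := Y1 - aux6
  let Lt := aux7
  let alsq := al ^ (2 : ℕ)
  let a0 := al * Qt
  let aa := rp2 * a0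
  let ib1 := ib + ((1099511627776 : ℕ) : ℝ) / 2 ^ (40 : ℕ)
  let aux8 := aa * ib1
  let aux9 := ((2 : ℕ) : ℝ) * Lt
  let tt := aux9 - aux8
  let t2 := tt ^ (2 : ℕ)
  let a2 := aa ^ (2 : ℕ)
  let aux10 := ((2 : ℕ) : ℝ) * a2
  let ww := t2 + aux10
  let aux11 := C1 * Qt
  let ib2 := ib + ((2199023255552 : ℕ) : ℝ) / 2 ^ (40 : ℕ)
  let aux12 := GG3 * ib2
  let aux13 := aux11 + aux12
  let xx := alsq * aux13
  let yy := Ah * ww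
  let aux14 := xx - yy
  let zz := aux14
  let Rg := ib * zz
  Rg

/-- Soundness of the block `permBE`. -/
theorem mem_permBE {P : Pt} {t_ra t_m t_al t_w0 t_w1 t_w2 t_v0 t_v1 t_v2 t_Y0 t_Y1 t_rp2 t_C1 t_GG3 t_Ah : TM} {ra m al w0 w1 w2 v0 v1 v2 Y0 Y1 rp2 C1 GG3 Ah : ℝ}
    (h_ra : Mem P t_ra ra) (h_m : Mem P t_m m) (h_al : Mem P t_al al) (h_w0 : Mem P t_w0 w0) (h_w1 : Mem P t_w1 w1) (h_w2 : Mem P t_w2 w2) (h_v0 : Mem P t_v0 v0) (h_v1 : Mem P t_v1 v1) (h_v2 : Mem P t_v2 v2) (h_Y0 : Mem P t_Y0 Y0) (h_Y1 : Mem P t_Y1 Y1) (h_rp2 : Mem P t_rp2 rp2) (h_C1 : Mem P t_C1 C1) (h_GG3 : Mem P t_GG3 GG3) (h_Ah : Mem P t_Ah Ah)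
    (hpos_m : posT t_m = true)
    :
    Mem P (permBET t_ra t_m t_al t_w0 t_w1 t_w2 t_v0 t_v1 t_v2 t_Y0 t_Y1 t_rp2 t_C1 t_GG3 t_Ah) (permBER ra m al w0 w1 w2 v0 v1 v2 Y0 Y1 rp2 C1 GG3 Ah) := by
  have h_ib := mem_inv h_m hpos_m
  have h_d0 := mem_sub h_v0 h_ra
  have h_d1 := mem_sub h_v1 h_ra
  have h_d2 := mem_sub h_v2 h_ra
  have h_q0 := mem_sq h_d0
  have h_q1 := mem_sq h_d1
  have h_q2 := mem_sq h_d2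
  have h_aux1 := mem_mul h_w0 h_q0
  have h_aux2 := mem_mul h_w1 h_q1
  have h_aux3 := mem_mul h_w2 h_q2
  have h_aux4 := mem_add h_aux1 h_aux2
  have h_aux5 := mem_add h_aux4 h_aux3
  have h_Qt := mem_nrm h_aux5
  have h_aux6 := mem_mul h_ra h_Y0
  have h_aux7 := mem_sub h_Y1 h_aux6
  have h_Lt := mem_nrm h_aux7
  have h_alsq := mem_sq h_al
  have h_a0 := mem_mul h_al h_Qt
  have h_aa := mem_mul h_rp2 h_a0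
  have h_ib1 := mem_addC 1099511627776 h_ib
  have h_aux8 := mem_mul h_aa h_ib1
  have h_aux9 := mem_smul 2 h_Lt
  have h_tt := mem_sub h_aux9 h_aux8
  have h_t2 := mem_sq h_tt
  have h_a2 := mem_sq h_aa
  have h_aux10 := mem_smul 2 h_a2
  have h_ww := mem_add h_t2 h_aux10
  have h_aux11 := mem_mul h_C1 h_Qt
  have h_ib2 := mem_addC 2199023255552 h_ib
  have h_aux12 := mem_mul h_GG3 h_ib2
  have h_aux13 := mem_add h_aux11 h_aux12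
  have h_xx := mem_mul h_alsq h_aux13
  have h_yy := mem_mul h_Ah h_ww
  have h_aux14 := mem_sub h_xx h_yy
  have h_zz := mem_nrm h_aux14
  have h_Rg := mem_mul h_ib h_zz
  exact h_Rg

/-- Real mirror of `permGET`. -/
noncomputable def permGER (ra m al w0 w1 w2 v0 v1 v2 : ℝ) : ℝ :=
  let ib := m⁻¹
  let d0 := v0 - ra
  let d1 := v1 - ra
  let d2 := v2 - ra
  let q0 := d0 ^ (2 : ℕ)
  let q1 := d1 ^ (2 : ℕ)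
  let q2 := d2 ^ (2 : ℕ)
  let aux1 := w0 * q0
  let aux2 := w1 * q1
  let aux3 := w2 * q2
  let aux4 := aux1 + aux2
  let aux5 := aux4 + aux3
  let Qt := aux5
  let alsq := al ^ (2 : ℕ)
  let Ta := alsq * Qt
  let Ka := Ta * ib
  Ka

/-- Soundness of the block `permGE`. -/
theorem mem_permGE {P : Pt} {t_ra t_m t_al t_w0 t_w1 t_w2 t_v0 t_v1 t_v2 : TM} {ra m al w0 w1 w2 v0 v1 v2 : ℝ}
    (h_ra : Mem P t_ra ra) (h_m : Mem P t_m m) (h_al : Mem P t_al al) (h_w0 : Mem P t_w0 w0) (h_w1 : Mem P t_w1 w1) (h_w2 : Mem P t_w2 w2) (h_v0 : Mem P t_v0 v0) (h_v1 : Mem P t_v1 v1) (h_v2 : Mem P t_v2 v2)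
    (hpos_m : posT t_m = true)
    :
    Mem P (permGET t_ra t_m t_al t_w0 t_w1 t_w2 t_v0 t_v1 t_v2) (permGER ra m al w0 w1 w2 v0 v1 v2) := by
  have h_ib := mem_inv h_m hpos_m
  have h_d0 := mem_sub h_v0 h_ra
  have h_d1 := mem_sub h_v1 h_ra
  have h_d2 := mem_sub h_v2 h_ra
  have h_q0 := mem_sq h_d0
  have h_q1 := mem_sq h_d1
  have h_q2 := mem_sq h_d2
  have h_aux1 := mem_mul h_w0 h_q0
  have h_aux2 := mem_mul h_w1 h_q1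
  have h_aux3 := mem_mul h_w2 h_q2
  have h_aux4 := mem_add h_aux1 h_aux2
  have h_aux5 := mem_add h_aux4 h_aux3
  have h_Qt := mem_nrm h_aux5
  have h_alsq := mem_sq h_al
  have h_Ta := mem_mul h_alsq h_Qt
  have h_Ka := mem_mul h_Ta h_ib
  exact h_Ka

/-- Real mirror of `hPartET`. -/
noncomputable def hPartER (sig sig3 rg3 s s3 : ℝ) : ℝ × ℝ × ℝ :=
  let aux1 := sig3 * s3
  let aux2 := aux1 / 2 ^ (1 : ℕ)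
  let aux3 := sig3 / 2 ^ (1 : ℕ)
  let aux4 := aux2 - aux3
  let Hr := aux4 - rg3
  let aux5 := sig3 - rg3
  let aux6 := ((2199023255552 : ℕ) : ℝ) / 2 ^ (40 : ℕ) - s3
  let aux7 := aux5 * aux6
  let Lam1 := aux7 / 2 ^ (1 : ℕ)
  let aux8 := sig * s
  let aux9 := (((3 : ℕ) : ℝ) / 2 ^ (6 : ℕ)) * s
  let aux10 := ((1099511627776 : ℕ) : ℝ) / 2 ^ (40 : ℕ) - aux9
  let f2 := aux8 * aux10
  (Hr, Lam1, f2)

/-- Soundness of the block `hPartE`. -/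
theorem mem_hPartE {P : Pt} {t_sig t_sig3 t_rg3 t_s t_s3 : TM} {sig sig3 rg3 s s3 : ℝ}
    (h_sig : Mem P t_sig sig) (h_sig3 : Mem P t_sig3 sig3) (h_rg3 : Mem P t_rg3 rg3) (h_s : Mem P t_s s) (h_s3 : Mem P t_s3 s3)
    :
    Mem P (hPartET t_sig t_sig3 t_rg3 t_s t_s3).1 (hPartER sig sig3 rg3 s s3).1 ∧
    Mem P (hPartET t_sig t_sig3 t_rg3 t_s t_s3).2.1 (hPartER sig sig3 rg3 s s3).2.1 ∧
    Mem P (hPartET t_sig t_sig3 t_rg3 t_s t_s3).2.2 (hPartER sig sig3 rg3 s s3).2.2 := by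
  have h_aux1 := mem_mul h_sig3 h_s3
  have h_aux2 := mem_shr 1 h_aux1
  have h_aux3 := mem_shr 1 h_sig3
  have h_aux4 := mem_sub h_aux2 h_aux3
  have h_Hr := mem_sub h_aux4 h_rg3
  have h_aux5 := mem_sub h_sig3 h_rg3
  have h_aux6 := mem_rsubC 2199023255552 h_s3
  have h_aux7 := mem_mul h_aux5 h_aux6
  have h_Lam1 := mem_shr 1 h_aux7
  have h_aux8 := mem_mul h_sig h_s
  have h_aux9 := mem_scale 3 6 h_s
  have h_aux10 := mem_rsubC 1099511627776 h_aux9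
  have h_f2 := mem_mul h_aux8 h_aux10
  exact ⟨h_Hr, h_Lam1, h_f2⟩

/-- Real mirror of `polysET`. -/
noncomputable def polysER (sig sig3 rg3 c3 s3 : ℝ) : ℝ × ℝ × ℝ :=
  let s3c3 := s3 * c3
  let s3sq := s3 ^ (2 : ℕ)
  let s3cu := s3sq * s3
  let rc := rg3 * c3
  let c3sq := c3 ^ (2 : ℕ)
  let s3c := s3sq * c3
  let hs := s3c3 / 2 ^ (1 : ℕ)
  let aux1 := c3 + ((1099511627776 : ℕ) : ℝ) / 2 ^ (40 : ℕ)
  let aux2 := ((2 : ℕ) : ℝ) * s3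
  let aux3 := aux1 - aux2
  let aux4 := aux3
  let aux5 := aux4 - hs
  let aux6 := aux5
  let aux7 := (((3 : ℕ) : ℝ) / 2 ^ (2 : ℕ)) * s3sq
  let aux8 := aux6 + aux7
  let aux9 := aux8
  let h31 := sig * aux9
  let aux10 := s3 / 2 ^ (2 : ℕ)
  let aux11 := c3 + aux10
  let aux12 := aux11
  let aux13 := aux12 - hs
  let aux14 := aux13
  let aux15 := s3sq / 2 ^ (2 : ℕ)
  let aux16 := aux14 - aux15
  let aux17 := aux16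
  let aux18 := s3cu / 2 ^ (3 : ℕ)
  let aux19 := aux17 + aux18
  let aux20 := aux19
  let aux21 := sig * aux20
  let aux22 := ((4 : ℕ) : ℝ) * rg3
  let aux23 := rc - aux22
  let aux24 := aux23
  let aux25 := aux24 + aux21
  let h61 := aux25
  let aux26 := s3c3 / 2 ^ (2 : ℕ)
  let aux27 := s3 + aux26
  let aux28 := aux27
  let aux29 := s3cu / 2 ^ (2 : ℕ)
  let aux30 := aux28 + aux29
  let aux31 := aux30
  let aux32 := sig * aux31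
  let aux33 := c3 / 2 ^ (1 : ℕ)
  let aux34 := ((2199023255552 : ℕ) : ℝ) / 2 ^ (40 : ℕ) - aux33
  let aux35 := aux34 - c3sq
  let aux36 := aux35
  let aux37 := (((5 : ℕ) : ℝ) / 2 ^ (1 : ℕ)) * s3sq
  let aux38 := aux36 + aux37
  let aux39 := aux38
  let aux40 := (((5 : ℕ) : ℝ) / 2 ^ (3 : ℕ)) * s3c
  let aux41 := aux39 + aux40
  let aux42 := aux41
  let aux43 := sig3 * aux42
  let aux44 := ((2 : ℕ) : ℝ) * rc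
  let aux45 := aux44 - rg3
  let aux46 := aux45
  let aux47 := aux46 - aux32
  let aux48 := aux47
  let aux49 := aux48 + aux43
  let h71 := aux49
  (h31, h61, h71)

/-- Soundness of the block `polysE`. -/
theorem mem_polysE {P : Pt} {t_sig t_sig3 t_rg3 t_c3 t_s3 : TM} {sig sig3 rg3 c3 s3 : ℝ}
    (h_sig : Mem P t_sig sig) (h_sig3 : Mem P t_sig3 sig3) (h_rg3 : Mem P t_rg3 rg3) (h_c3 : Mem P t_c3 c3) (h_s3 : Mem P t_s3 s3)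
    :
    Mem P (polysET t_sig t_sig3 t_rg3 t_c3 t_s3).1 (polysER sig sig3 rg3 c3 s3).1 ∧
    Mem P (polysET t_sig t_sig3 t_rg3 t_c3 t_s3).2.1 (polysER sig sig3 rg3 c3 s3).2.1 ∧
    Mem P (polysET t_sig t_sig3 t_rg3 t_c3 t_s3).2.2 (polysER sig sig3 rg3 c3 s3).2.2 := by
  have h_s3c3 := mem_mul h_s3 h_c3
  have h_s3sq := mem_sq h_s3
  have h_s3cu := mem_mul h_s3sq h_s3
  have h_rc := mem_mul h_rg3 h_c3
  have h_c3sq := mem_sq h_c3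
  have h_s3c := mem_mul h_s3sq h_c3
  have h_hs := mem_shr 1 h_s3c3
  have h_aux1 := mem_addC 1099511627776 h_c3
  have h_aux2 := mem_smul 2 h_s3
  have h_aux3 := mem_sub h_aux1 h_aux2
  have h_aux4 := mem_nrm h_aux3
  have h_aux5 := mem_sub h_aux4 h_hs
  have h_aux6 := mem_nrm h_aux5
  have h_aux7 := mem_scale 3 2 h_s3sq
  have h_aux8 := mem_add h_aux6 h_aux7
  have h_aux9 := mem_nrm h_aux8
  have h_h31 := mem_mul h_sig h_aux9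
  have h_aux10 := mem_shr 2 h_s3
  have h_aux11 := mem_add h_c3 h_aux10
  have h_aux12 := mem_nrm h_aux11
  have h_aux13 := mem_sub h_aux12 h_hs
  have h_aux14 := mem_nrm h_aux13
  have h_aux15 := mem_shr 2 h_s3sq
  have h_aux16 := mem_sub h_aux14 h_aux15
  have h_aux17 := mem_nrm h_aux16
  have h_aux18 := mem_shr 3 h_s3cu
  have h_aux19 := mem_add h_aux17 h_aux18
  have h_aux20 := mem_nrm h_aux19
  have h_aux21 := mem_mul h_sig h_aux20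
  have h_aux22 := mem_smul 4 h_rg3
  have h_aux23 := mem_sub h_rc h_aux22
  have h_aux24 := mem_nrm h_aux23
  have h_aux25 := mem_add h_aux24 h_aux21
  have h_h61 := mem_nrm h_aux25
  have h_aux26 := mem_shr 2 h_s3c3
  have h_aux27 := mem_add h_s3 h_aux26
  have h_aux28 := mem_nrm h_aux27
  have h_aux29 := mem_shr 2 h_s3cu
  have h_aux30 := mem_add h_aux28 h_aux29
  have h_aux31 := mem_nrm h_aux30
  have h_aux32 := mem_mul h_sig h_aux31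
  have h_aux33 := mem_shr 1 h_c3
  have h_aux34 := mem_rsubC 2199023255552 h_aux33
  have h_aux35 := mem_sub h_aux34 h_c3sq
  have h_aux36 := mem_nrm h_aux35
  have h_aux37 := mem_scale 5 1 h_s3sq
  have h_aux38 := mem_add h_aux36 h_aux37
  have h_aux39 := mem_nrm h_aux38
  have h_aux40 := mem_scale 5 3 h_s3c
  have h_aux41 := mem_add h_aux39 h_aux40
  have h_aux42 := mem_nrm h_aux41
  have h_aux43 := mem_mul h_sig3 h_aux42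
  have h_aux44 := mem_smul 2 h_rc
  have h_aux45 := mem_sub h_aux44 h_rg3
  have h_aux46 := mem_nrm h_aux45
  have h_aux47 := mem_sub h_aux46 h_aux32
  have h_aux48 := mem_nrm h_aux47
  have h_aux49 := mem_add h_aux48 h_aux43
  have h_h71 := mem_nrm h_aux49
  exact ⟨h_h31, h_h61, h_h71⟩

/-- Real mirror of `finalFET`. -/
noncomputable def finalFER (sig rg3 r2 s G Hr Lam1 f2 h31 h61 h71 rp2 S C3 Gw fS r4 tau : ℝ) : ℝ × ℝ × ℝ × ℝ :=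
  let aux1 := tau * Lam1
  let n0 := Hr - aux1
  let aux2 := (((9 : ℕ) : ℝ) / 2 ^ (6 : ℕ)) * s
  let aux3 := ((2199023255552 : ℕ) : ℝ) / 2 ^ (40 : ℕ) - aux2
  let f1 := sig * aux3
  let aux4 := f1 * r2
  let aux5 := (((11 : ℕ) : ℝ) / 2 ^ (7 : ℕ)) * aux4
  let aux6 := ((1649267441664 : ℕ) : ℝ) / 2 ^ (40 : ℕ) - aux5
  let aux7 := ((2 : ℕ) : ℝ) * s
  let aux8 := aux7 - S
  let aux9 := aux8 * S
  let aux10 := (((33 : ℕ) : ℝ) / 2 ^ (13 : ℕ)) * aux9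
  let Cn := aux6 + aux10
  let C1 := Cn * rp2
  let Tn := Cn * n0
  let hsig := sig / 2 ^ (1 : ℕ)
  let aux11 := hsig - rg3
  let T1 := (((3 : ℕ) : ℝ) / 2 ^ (1 : ℕ)) * aux11
  let T2 := (((11 : ℕ) : ℝ) / 2 ^ (7 : ℕ)) * f1
  let aux12 := G * Gw
  let GG3 := ((3 : ℕ) : ℝ) * aux12
  let aux13 := rg3 - hsig
  let T4 := aux13 * fS
  let aux14 := G * sig
  let aux15 := tau - fS
  let aux16 := aux14 * aux15
  let T5 := (((21 : ℕ) : ℝ) / 2 ^ (7 : ℕ)) * aux16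
  let aux17 := ((3 : ℕ) : ℝ) * rg3
  let aux18 := (((11 : ℕ) : ℝ) / 2 ^ (7 : ℕ)) * f2
  let aux19 := aux17 - aux18
  let aux20 := (((11 : ℕ) : ℝ) / 2 ^ (10 : ℕ)) * S
  let aux21 := (((25 : ℕ) : ℝ) / 2 ^ (7 : ℕ)) * aux19
  let aux22 := aux20 * aux19
  let T6 := aux21 - aux22
  let aux23 := tau * h31
  let aux24 := ((4 : ℕ) : ℝ) * aux23
  let aux25 := S * h61
  let aux26 := aux24 + aux25
  let aux27 := C3 * h71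
  let aux28 := ((9 : ℕ) : ℝ) * aux27
  let aux29 := aux26 - aux28
  let W0h := aux29
  let aux30 := s + S
  let aux31 := (((3 : ℕ) : ℝ) / 2 ^ (5 : ℕ)) * aux30
  let aux32 := ((1099511627776 : ℕ) : ℝ) / 2 ^ (40 : ℕ) - aux31
  let Ah := (((11 : ℕ) : ℝ) / 2 ^ (7 : ℕ)) * aux32
  let T7 := Ah * W0h
  let aux33 := S * sig
  let aux34 := ((3 : ℕ) : ℝ) * aux33
  let T8 := (((33 : ℕ) : ℝ) / 2 ^ (13 : ℕ)) * aux34
  let aux35 := Tn + T1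
  let aux36 := aux35 - T2
  let aux37 := aux36 + T4
  let aux38 := aux37 + T5
  let aux39 := aux38 + T6
  let aux40 := aux39 - T7
  let aux41 := aux40 + T8
  let PP := aux41
  (PP, C1, GG3, Ah)

/-- Soundness of the block `finalFE`. -/
theorem mem_finalFE {P : Pt} {t_sig t_rg3 t_r2 t_s t_G t_Hr t_Lam1 t_f2 t_h31 t_h61 t_h71 t_rp2 t_S t_C3 t_Gw t_fS t_r4 t_tau : TM} {sig rg3 r2 s G Hr Lam1 f2 h31 h61 h71 rp2 S C3 Gw fS r4 tau : ℝ}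
    (h_sig : Mem P t_sig sig) (h_rg3 : Mem P t_rg3 rg3) (h_r2 : Mem P t_r2 r2) (h_s : Mem P t_s s) (h_G : Mem P t_G G) (h_Hr : Mem P t_Hr Hr) (h_Lam1 : Mem P t_Lam1 Lam1) (h_f2 : Mem P t_f2 f2) (h_h31 : Mem P t_h31 h31) (h_h61 : Mem P t_h61 h61) (h_h71 : Mem P t_h71 h71) (h_rp2 : Mem P t_rp2 rp2) (h_S : Mem P t_S S) (h_C3 : Mem P t_C3 C3) (h_Gw : Mem P t_Gw Gw) (h_fS : Mem P t_fS fS) (h_r4 : Mem P t_r4 r4) (h_tau : Mem P t_tau tau)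
    :
    Mem P (finalFET t_sig t_rg3 t_r2 t_s t_G t_Hr t_Lam1 t_f2 t_h31 t_h61 t_h71 t_rp2 t_S t_C3 t_Gw t_fS t_r4 t_tau).1 (finalFER sig rg3 r2 s G Hr Lam1 f2 h31 h61 h71 rp2 S C3 Gw fS r4 tau).1 ∧
    Mem P (finalFET t_sig t_rg3 t_r2 t_s t_G t_Hr t_Lam1 t_f2 t_h31 t_h61 t_h71 t_rp2 t_S t_C3 t_Gw t_fS t_r4 t_tau).2.1 (finalFER sig rg3 r2 s G Hr Lam1 f2 h31 h61 h71 rp2 S C3 Gw fS r4 tau).2.1 ∧
    Mem P (finalFET t_sig t_rg3 t_r2 t_s t_G t_Hr t_Lam1 t_f2 t_h31 t_h61 t_h71 t_rp2 t_S t_C3 t_Gw t_fS t_r4 t_tau).2.2.1 (finalFER sig rg3 r2 s G Hr Lam1 f2 h31 h61 h71 rp2 S C3 Gw fS r4 tau).2.2.1 ∧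
    Mem P (finalFET t_sig t_rg3 t_r2 t_s t_G t_Hr t_Lam1 t_f2 t_h31 t_h61 t_h71 t_rp2 t_S t_C3 t_Gw t_fS t_r4 t_tau).2.2.2 (finalFER sig rg3 r2 s G Hr Lam1 f2 h31 h61 h71 rp2 S C3 Gw fS r4 tau).2.2.2 := by
  have h_aux1 := mem_mul h_tau h_Lam1
  have h_n0 := mem_sub h_Hr h_aux1
  have h_aux2 := mem_scale 9 6 h_s
  have h_aux3 := mem_rsubC 2199023255552 h_aux2
  have h_f1 := mem_mul h_sig h_aux3
  have h_aux4 := mem_mul h_f1 h_r2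
  have h_aux5 := mem_scale 11 7 h_aux4
  have h_aux6 := mem_rsubC 1649267441664 h_aux5
  have h_aux7 := mem_smul 2 h_s
  have h_aux8 := mem_sub h_aux7 h_S
  have h_aux9 := mem_mul h_aux8 h_S
  have h_aux10 := mem_scale 33 13 h_aux9
  have h_Cn := mem_add h_aux6 h_aux10
  have h_C1 := mem_mul h_Cn h_rp2
  have h_Tn := mem_mul h_Cn h_n0
  have h_hsig := mem_shr 1 h_sig
  have h_aux11 := mem_sub h_hsig h_rg3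
  have h_T1 := mem_scale 3 1 h_aux11
  have h_T2 := mem_scale 11 7 h_f1
  have h_aux12 := mem_mul h_G h_Gw
  have h_GG3 := mem_smul 3 h_aux12
  have h_aux13 := mem_sub h_rg3 h_hsig
  have h_T4 := mem_mul h_aux13 h_fS
  have h_aux14 := mem_mul h_G h_sig
  have h_aux15 := mem_sub h_tau h_fS
  have h_aux16 := mem_mul h_aux14 h_aux15
  have h_T5 := mem_scale 21 7 h_aux16
  have h_aux17 := mem_smul 3 h_rg3
  have h_aux18 := mem_scale 11 7 h_f2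
  have h_aux19 := mem_sub h_aux17 h_aux18
  have h_aux20 := mem_scale 11 10 h_S
  have h_aux21 := mem_scale 25 7 h_aux19
  have h_aux22 := mem_mul h_aux20 h_aux19
  have h_T6 := mem_sub h_aux21 h_aux22
  have h_aux23 := mem_mul h_tau h_h31
  have h_aux24 := mem_smul 4 h_aux23
  have h_aux25 := mem_mul h_S h_h61
  have h_aux26 := mem_add h_aux24 h_aux25
  have h_aux27 := mem_mul h_C3 h_h71
  have h_aux28 := mem_smul 9 h_aux27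
  have h_aux29 := mem_sub h_aux26 h_aux28
  have h_W0h := mem_nrm h_aux29
  have h_aux30 := mem_add h_s h_S
  have h_aux31 := mem_scale 3 5 h_aux30
  have h_aux32 := mem_rsubC 1099511627776 h_aux31
  have h_Ah := mem_scale 11 7 h_aux32
  have h_T7 := mem_mul h_Ah h_W0h
  have h_aux33 := mem_mul h_S h_sig
  have h_aux34 := mem_smul 3 h_aux33
  have h_T8 := mem_scale 33 13 h_aux34
  have h_aux35 := mem_add h_Tn h_T1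
  have h_aux36 := mem_sub h_aux35 h_T2
  have h_aux37 := mem_add h_aux36 h_T4
  have h_aux38 := mem_add h_aux37 h_T5
  have h_aux39 := mem_add h_aux38 h_T6
  have h_aux40 := mem_sub h_aux39 h_T7
  have h_aux41 := mem_add h_aux40 h_T8
  have h_PP := mem_nrm h_aux41
  exact ⟨h_PP, h_C1, h_GG3, h_Ah⟩

/-- Real mirror of `progFET`. -/
noncomputable def progFER (R X Q Y : ℝ) : ℝ × ℝ × ℝ × ℝ × ℝ × ℝ × ℝ × ℝ :=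
  let ou := uPartER R X
  let ov := vPartER Q Y
  let oa := alphasER X Y
  let om := matDER ou.2.2.2.2.2.2.2.1 ou.2.2.2.2.2.2.2.2.1 ou.2.2.2.2.2.2.2.2.2.1 X Y
  let vneg := (-1 : ℝ)
  let pa0 := permAER R Q oa.1
  let pa1 := permAER R Q oa.2.1
  let pa2 := permAER R Q oa.2.2.1
  let pa3 := permAER R Q oa.2.2.2.1
  let pa4 := permAER R Q oa.2.2.2.2.1
  let pa5 := permAER R Q oa.2.2.2.2.2
  let isg := ov.2.1⁻¹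
  let aux1 := ov.2.2.2.2.1 * isg
  let tau := ((3 : ℕ) : ℝ) * aux1
  let aux2 := isg / 2 ^ (1 : ℕ)
  let is6 := aux2 / 3
  let oh := hPartER ou.1 ou.2.1 ou.2.2.1 ou.2.2.2.2.1 ou.2.2.2.2.2.2.1
  let op := polysER ou.1 ou.2.1 ou.2.2.1 ou.2.2.2.2.2.1 ou.2.2.2.2.2.2.1
  let ofin := finalFER ou.1 ou.2.2.1 ou.2.2.2.1 ou.2.2.2.2.1 ou.2.2.2.2.2.2.2.2.2.2.1 oh.1 oh.2.1 oh.2.2 op.1 op.2.1 op.2.2 ov.2.2.1 ov.2.2.2.1 ov.2.2.2.2.2.1 ov.2.2.2.2.2.2.1 ov.2.2.2.2.2.2.2.1 ov.2.2.2.2.2.2.2.2 tau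
  let pb0 := permBER pa0.1 pa0.2 oa.1 om.2.2.2.2.2.2.1 om.2.2.2.2.2.2.2.1 om.2.2.2.2.2.2.2.2.1 vneg om.2.2.2.2.2.2.2.2.2.1 om.2.2.2.2.2.2.2.2.2.2 ou.2.2.2.2.2.2.2.2.2.2.2 om.1 ov.2.2.1 ofin.2.1 ofin.2.2.1 ofin.2.2.2
  let pb1 := permBER pa1.1 pa1.2 oa.2.1 om.2.2.2.2.2.2.1 om.2.2.2.2.2.2.2.1 om.2.2.2.2.2.2.2.2.1 vneg om.2.2.2.2.2.2.2.2.2.2 om.2.2.2.2.2.2.2.2.2.1 ou.2.2.2.2.2.2.2.2.2.2.2 om.2.1 ov.2.2.1 ofin.2.1 ofin.2.2.1 ofin.2.2.2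
  let pb2 := permBER pa2.1 pa2.2 oa.2.2.1 om.2.2.2.2.2.2.1 om.2.2.2.2.2.2.2.1 om.2.2.2.2.2.2.2.2.1 om.2.2.2.2.2.2.2.2.2.1 vneg om.2.2.2.2.2.2.2.2.2.2 ou.2.2.2.2.2.2.2.2.2.2.2 om.2.2.1 ov.2.2.1 ofin.2.1 ofin.2.2.1 ofin.2.2.2
  let pb3 := permBER pa3.1 pa3.2 oa.2.2.2.1 om.2.2.2.2.2.2.1 om.2.2.2.2.2.2.2.1 om.2.2.2.2.2.2.2.2.1 om.2.2.2.2.2.2.2.2.2.1 om.2.2.2.2.2.2.2.2.2.2 vneg ou.2.2.2.2.2.2.2.2.2.2.2 om.2.2.2.1 ov.2.2.1 ofin.2.1 ofin.2.2.1 ofin.2.2.2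
  let pb4 := permBER pa4.1 pa4.2 oa.2.2.2.2.1 om.2.2.2.2.2.2.1 om.2.2.2.2.2.2.2.1 om.2.2.2.2.2.2.2.2.1 om.2.2.2.2.2.2.2.2.2.2 vneg om.2.2.2.2.2.2.2.2.2.1 ou.2.2.2.2.2.2.2.2.2.2.2 om.2.2.2.2.1 ov.2.2.1 ofin.2.1 ofin.2.2.1 ofin.2.2.2
  let pb5 := permBER pa5.1 pa5.2 oa.2.2.2.2.2 om.2.2.2.2.2.2.1 om.2.2.2.2.2.2.2.1 om.2.2.2.2.2.2.2.2.1 om.2.2.2.2.2.2.2.2.2.2 om.2.2.2.2.2.2.2.2.2.1 vneg ou.2.2.2.2.2.2.2.2.2.2.2 om.2.2.2.2.2.1 ov.2.2.1 ofin.2.1 ofin.2.2.1 ofin.2.2.2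
  let aux3 := pb0 + pb1
  let aux4 := aux3 + pb2
  let aux5 := aux4 + pb3
  let aux6 := aux5 + pb4
  let aux7 := aux6 + pb5
  let BB := is6 * aux7
  let res := ofin.1 + BB
  (pa0.2, pa1.2, pa2.2, pa3.2, pa4.2, pa5.2, ov.2.1, res)

/-- Soundness of the block `progFE`. -/
theorem mem_progFE {P : Pt} {t_R t_X t_Q t_Y : TM} {R X Q Y : ℝ}
    (h_R : Mem P t_R R) (h_X : Mem P t_X X) (h_Q : Mem P t_Q Q) (h_Y : Mem P t_Y Y)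
    (hpos0 : posT (progFET t_R t_X t_Q t_Y).1 = true)
    (hpos1 : posT (progFET t_R t_X t_Q t_Y).2.1 = true)
    (hpos2 : posT (progFET t_R t_X t_Q t_Y).2.2.1 = true)
    (hpos3 : posT (progFET t_R t_X t_Q t_Y).2.2.2.1 = true)
    (hpos4 : posT (progFET t_R t_X t_Q t_Y).2.2.2.2.1 = true)
    (hpos5 : posT (progFET t_R t_X t_Q t_Y).2.2.2.2.2.1 = true)
    (hpos6 : posT (progFET t_R t_X t_Q t_Y).2.2.2.2.2.2.1 = true)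
    :
    Mem P (progFET t_R t_X t_Q t_Y).1 (progFER R X Q Y).1 ∧
    Mem P (progFET t_R t_X t_Q t_Y).2.1 (progFER R X Q Y).2.1 ∧
    Mem P (progFET t_R t_X t_Q t_Y).2.2.1 (progFER R X Q Y).2.2.1 ∧
    Mem P (progFET t_R t_X t_Q t_Y).2.2.2.1 (progFER R X Q Y).2.2.2.1 ∧
    Mem P (progFET t_R t_X t_Q t_Y).2.2.2.2.1 (progFER R X Q Y).2.2.2.2.1 ∧
    Mem P (progFET t_R t_X t_Q t_Y).2.2.2.2.2.1 (progFER R X Q Y).2.2.2.2.2.1 ∧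
    Mem P (progFET t_R t_X t_Q t_Y).2.2.2.2.2.2.1 (progFER R X Q Y).2.2.2.2.2.2.1 ∧
    Mem P (progFET t_R t_X t_Q t_Y).2.2.2.2.2.2.2 (progFER R X Q Y).2.2.2.2.2.2.2 := by
  have h_ou := mem_uPartE h_R h_X
  have h_ov := mem_vPartE h_Q h_Y
  have h_oa := mem_alphasE h_X h_Y
  have h_om := mem_matDE h_ou.2.2.2.2.2.2.2.1 h_ou.2.2.2.2.2.2.2.2.1 h_ou.2.2.2.2.2.2.2.2.2.1 h_X h_Y
  have h_vneg := mem_vneg P
  have h_pa0 := mem_permAE h_R h_Q h_oa.1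
  have h_pa1 := mem_permAE h_R h_Q h_oa.2.1
  have h_pa2 := mem_permAE h_R h_Q h_oa.2.2.1
  have h_pa3 := mem_permAE h_R h_Q h_oa.2.2.2.1
  have h_pa4 := mem_permAE h_R h_Q h_oa.2.2.2.2.1
  have h_pa5 := mem_permAE h_R h_Q h_oa.2.2.2.2.2
  have h_isg := mem_inv h_ov.2.1 hpos6
  have h_aux1 := mem_mul h_ov.2.2.2.2.1 h_isg
  have h_tau := mem_smul 3 h_aux1
  have h_aux2 := mem_shr 1 h_isg
  have h_is6 := mem_third h_aux2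
  have h_oh := mem_hPartE h_ou.1 h_ou.2.1 h_ou.2.2.1 h_ou.2.2.2.2.1 h_ou.2.2.2.2.2.2.1
  have h_op := mem_polysE h_ou.1 h_ou.2.1 h_ou.2.2.1 h_ou.2.2.2.2.2.1 h_ou.2.2.2.2.2.2.1
  have h_ofin := mem_finalFE h_ou.1 h_ou.2.2.1 h_ou.2.2.2.1 h_ou.2.2.2.2.1 h_ou.2.2.2.2.2.2.2.2.2.2.1 h_oh.1 h_oh.2.1 h_oh.2.2 h_op.1 h_op.2.1 h_op.2.2 h_ov.2.2.1 h_ov.2.2.2.1 h_ov.2.2.2.2.2.1 h_ov.2.2.2.2.2.2.1 h_ov.2.2.2.2.2.2.2.1 h_ov.2.2.2.2.2.2.2.2 h_tau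
  have h_pb0 := mem_permBE h_pa0.1 h_pa0.2 h_oa.1 h_om.2.2.2.2.2.2.1 h_om.2.2.2.2.2.2.2.1 h_om.2.2.2.2.2.2.2.2.1 h_vneg h_om.2.2.2.2.2.2.2.2.2.1 h_om.2.2.2.2.2.2.2.2.2.2 h_ou.2.2.2.2.2.2.2.2.2.2.2 h_om.1 h_ov.2.2.1 h_ofin.2.1 h_ofin.2.2.1 h_ofin.2.2.2 hpos0
  have h_pb1 := mem_permBE h_pa1.1 h_pa1.2 h_oa.2.1 h_om.2.2.2.2.2.2.1 h_om.2.2.2.2.2.2.2.1 h_om.2.2.2.2.2.2.2.2.1 h_vneg h_om.2.2.2.2.2.2.2.2.2.2 h_om.2.2.2.2.2.2.2.2.2.1 h_ou.2.2.2.2.2.2.2.2.2.2.2 h_om.2.1 h_ov.2.2.1 h_ofin.2.1 h_ofin.2.2.1 h_ofin.2.2.2 hpos1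
  have h_pb2 := mem_permBE h_pa2.1 h_pa2.2 h_oa.2.2.1 h_om.2.2.2.2.2.2.1 h_om.2.2.2.2.2.2.2.1 h_om.2.2.2.2.2.2.2.2.1 h_om.2.2.2.2.2.2.2.2.2.1 h_vneg h_om.2.2.2.2.2.2.2.2.2.2 h_ou.2.2.2.2.2.2.2.2.2.2.2 h_om.2.2.1 h_ov.2.2.1 h_ofin.2.1 h_ofin.2.2.1 h_ofin.2.2.2 hpos2
  have h_pb3 := mem_permBE h_pa3.1 h_pa3.2 h_oa.2.2.2.1 h_om.2.2.2.2.2.2.1 h_om.2.2.2.2.2.2.2.1 h_om.2.2.2.2.2.2.2.2.1 h_om.2.2.2.2.2.2.2.2.2.1 h_om.2.2.2.2.2.2.2.2.2.2 h_vneg h_ou.2.2.2.2.2.2.2.2.2.2.2 h_om.2.2.2.1 h_ov.2.2.1 h_ofin.2.1 h_ofin.2.2.1 h_ofin.2.2.2 hpos3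
  have h_pb4 := mem_permBE h_pa4.1 h_pa4.2 h_oa.2.2.2.2.1 h_om.2.2.2.2.2.2.1 h_om.2.2.2.2.2.2.2.1 h_om.2.2.2.2.2.2.2.2.1 h_om.2.2.2.2.2.2.2.2.2.2 h_vneg h_om.2.2.2.2.2.2.2.2.2.1 h_ou.2.2.2.2.2.2.2.2.2.2.2 h_om.2.2.2.2.1 h_ov.2.2.1 h_ofin.2.1 h_ofin.2.2.1 h_ofin.2.2.2 hpos4
  have h_pb5 := mem_permBE h_pa5.1 h_pa5.2 h_oa.2.2.2.2.2 h_om.2.2.2.2.2.2.1 h_om.2.2.2.2.2.2.2.1 h_om.2.2.2.2.2.2.2.2.1 h_om.2.2.2.2.2.2.2.2.2.2 h_om.2.2.2.2.2.2.2.2.2.1 h_vneg h_ou.2.2.2.2.2.2.2.2.2.2.2 h_om.2.2.2.2.2.1 h_ov.2.2.1 h_ofin.2.1 h_ofin.2.2.1 h_ofin.2.2.2 hpos5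
  have h_aux3 := mem_add h_pb0 h_pb1
  have h_aux4 := mem_add h_aux3 h_pb2
  have h_aux5 := mem_add h_aux4 h_pb3
  have h_aux6 := mem_add h_aux5 h_pb4
  have h_aux7 := mem_add h_aux6 h_pb5
  have h_BB := mem_mul h_is6 h_aux7
  have h_res := mem_add h_ofin.1 h_BB
  exact ⟨h_pa0.2, h_pa1.2, h_pa2.2, h_pa3.2, h_pa4.2, h_pa5.2, h_ov.2.1, h_res⟩

/-- Real mirror of `progGET`. -/
noncomputable def progGER (R X Q Y : ℝ) : ℝ × ℝ × ℝ × ℝ × ℝ × ℝ × ℝ × ℝ :=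
  let ou := uPartER R X
  let ov := vPartER Q Y
  let oa := alphasER X Y
  let om := matGER ou.2.2.2.2.2.2.2.1 ou.2.2.2.2.2.2.2.2.1 ou.2.2.2.2.2.2.2.2.2.1 Y
  let vneg := (-1 : ℝ)
  let pa0 := permAER R Q oa.1
  let pa1 := permAER R Q oa.2.1
  let pa2 := permAER R Q oa.2.2.1
  let pa3 := permAER R Q oa.2.2.2.1
  let pa4 := permAER R Q oa.2.2.2.2.1
  let pa5 := permAER R Q oa.2.2.2.2.2
  let pb0 := permGER pa0.1 pa0.2 oa.1 om.1 om.2.1 om.2.2.1 vneg om.2.2.2.1 om.2.2.2.2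
  let pb1 := permGER pa1.1 pa1.2 oa.2.1 om.1 om.2.1 om.2.2.1 vneg om.2.2.2.2 om.2.2.2.1
  let pb2 := permGER pa2.1 pa2.2 oa.2.2.1 om.1 om.2.1 om.2.2.1 om.2.2.2.1 vneg om.2.2.2.2
  let pb3 := permGER pa3.1 pa3.2 oa.2.2.2.1 om.1 om.2.1 om.2.2.1 om.2.2.2.1 om.2.2.2.2 vneg
  let pb4 := permGER pa4.1 pa4.2 oa.2.2.2.2.1 om.1 om.2.1 om.2.2.1 om.2.2.2.2 vneg om.2.2.2.1
  let pb5 := permGER pa5.1 pa5.2 oa.2.2.2.2.2 om.1 om.2.1 om.2.2.1 om.2.2.2.2 om.2.2.2.1 vneg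
  let aux1 := pb0 + pb1
  let aux2 := aux1 + pb2
  let aux3 := aux2 + pb3
  let aux4 := aux3 + pb4
  let aux5 := aux4 + pb5
  let isg := ov.2.1⁻¹
  let aux6 := isg / 2 ^ (1 : ℕ)
  let is6 := aux6 / 3
  let B1 := is6 * aux5
  let oh := hPartER ou.1 ou.2.1 ou.2.2.1 ou.2.2.2.2.1 ou.2.2.2.2.2.2.1
  let aux7 := ov.2.2.2.2.1 * isg
  let tau := ((3 : ℕ) : ℝ) * aux7
  let aux8 := (((7 : ℕ) : ℝ) / 2 ^ (5 : ℕ)) * ou.1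
  let aux9 := ((3 : ℕ) : ℝ) * ou.2.2.1
  let aux10 := (((9 : ℕ) : ℝ) / 2 ^ (5 : ℕ)) * aux9
  let aux11 := aux8 - aux10
  let aux12 := ou.1 * ou.2.2.2.2.1
  let aux13 := (((3 : ℕ) : ℝ) / 2 ^ (8 : ℕ)) * aux12
  let aux14 := aux11 + aux13
  let Lt1 := aux14
  let aux15 := ((3 : ℕ) : ℝ) * ou.2.2.1
  let aux16 := (((11 : ℕ) : ℝ) / 2 ^ (7 : ℕ)) * oh.2.2
  let aux17 := aux15 - aux16
  let aux18 := (((57 : ℕ) : ℝ) / 2 ^ (8 : ℕ)) * aux17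
  let aux19 := -oh.1
  let aux20 := aux19 - aux18
  let aux21 := ou.1 / 2 ^ (10 : ℕ)
  let aux22 := aux20 - aux21
  let aux23 := ov.2.2.2.2.2.2.2.1 * Lt1
  let aux24 := aux22 + aux23
  let aux25 := ov.2.2.1 * B1
  let aux26 := aux24 - aux25
  let aux27 := oh.2.1 - Lt1
  let aux28 := tau * aux27
  let aux29 := aux26 + aux28
  (pa0.2, pa1.2, pa2.2, pa3.2, pa4.2, pa5.2, ov.2.1, aux29)

/-- Soundness of the block `progGE`. -/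
theorem mem_progGE {P : Pt} {t_R t_X t_Q t_Y : TM} {R X Q Y : ℝ}
    (h_R : Mem P t_R R) (h_X : Mem P t_X X) (h_Q : Mem P t_Q Q) (h_Y : Mem P t_Y Y)
    (hpos0 : posT (progGET t_R t_X t_Q t_Y).1 = true)
    (hpos1 : posT (progGET t_R t_X t_Q t_Y).2.1 = true)
    (hpos2 : posT (progGET t_R t_X t_Q t_Y).2.2.1 = true)
    (hpos3 : posT (progGET t_R t_X t_Q t_Y).2.2.2.1 = true)
    (hpos4 : posT (progGET t_R t_X t_Q t_Y).2.2.2.2.1 = true)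
    (hpos5 : posT (progGET t_R t_X t_Q t_Y).2.2.2.2.2.1 = true)
    (hpos6 : posT (progGET t_R t_X t_Q t_Y).2.2.2.2.2.2.1 = true)
    :
    Mem P (progGET t_R t_X t_Q t_Y).1 (progGER R X Q Y).1 ∧
    Mem P (progGET t_R t_X t_Q t_Y).2.1 (progGER R X Q Y).2.1 ∧
    Mem P (progGET t_R t_X t_Q t_Y).2.2.1 (progGER R X Q Y).2.2.1 ∧
    Mem P (progGET t_R t_X t_Q t_Y).2.2.2.1 (progGER R X Q Y).2.2.2.1 ∧
    Mem P (progGET t_R t_X t_Q t_Y).2.2.2.2.1 (progGER R X Q Y).2.2.2.2.1 ∧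
    Mem P (progGET t_R t_X t_Q t_Y).2.2.2.2.2.1 (progGER R X Q Y).2.2.2.2.2.1 ∧
    Mem P (progGET t_R t_X t_Q t_Y).2.2.2.2.2.2.1 (progGER R X Q Y).2.2.2.2.2.2.1 ∧
    Mem P (progGET t_R t_X t_Q t_Y).2.2.2.2.2.2.2 (progGER R X Q Y).2.2.2.2.2.2.2 := by
  have h_ou := mem_uPartE h_R h_X
  have h_ov := mem_vPartE h_Q h_Y
  have h_oa := mem_alphasE h_X h_Y
  have h_om := mem_matGE h_ou.2.2.2.2.2.2.2.1 h_ou.2.2.2.2.2.2.2.2.1 h_ou.2.2.2.2.2.2.2.2.2.1 h_Y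
  have h_vneg := mem_vneg P
  have h_pa0 := mem_permAE h_R h_Q h_oa.1
  have h_pa1 := mem_permAE h_R h_Q h_oa.2.1
  have h_pa2 := mem_permAE h_R h_Q h_oa.2.2.1
  have h_pa3 := mem_permAE h_R h_Q h_oa.2.2.2.1
  have h_pa4 := mem_permAE h_R h_Q h_oa.2.2.2.2.1
  have h_pa5 := mem_permAE h_R h_Q h_oa.2.2.2.2.2
  have h_pb0 := mem_permGE h_pa0.1 h_pa0.2 h_oa.1 h_om.1 h_om.2.1 h_om.2.2.1 h_vneg h_om.2.2.2.1 h_om.2.2.2.2 hpos0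
  have h_pb1 := mem_permGE h_pa1.1 h_pa1.2 h_oa.2.1 h_om.1 h_om.2.1 h_om.2.2.1 h_vneg h_om.2.2.2.2 h_om.2.2.2.1 hpos1
  have h_pb2 := mem_permGE h_pa2.1 h_pa2.2 h_oa.2.2.1 h_om.1 h_om.2.1 h_om.2.2.1 h_om.2.2.2.1 h_vneg h_om.2.2.2.2 hpos2
  have h_pb3 := mem_permGE h_pa3.1 h_pa3.2 h_oa.2.2.2.1 h_om.1 h_om.2.1 h_om.2.2.1 h_om.2.2.2.1 h_om.2.2.2.2 h_vneg hpos3
  have h_pb4 := mem_permGE h_pa4.1 h_pa4.2 h_oa.2.2.2.2.1 h_om.1 h_om.2.1 h_om.2.2.1 h_om.2.2.2.2 h_vneg h_om.2.2.2.1 hpos4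
  have h_pb5 := mem_permGE h_pa5.1 h_pa5.2 h_oa.2.2.2.2.2 h_om.1 h_om.2.1 h_om.2.2.1 h_om.2.2.2.2 h_om.2.2.2.1 h_vneg hpos5
  have h_aux1 := mem_add h_pb0 h_pb1
  have h_aux2 := mem_add h_aux1 h_pb2
  have h_aux3 := mem_add h_aux2 h_pb3
  have h_aux4 := mem_add h_aux3 h_pb4
  have h_aux5 := mem_add h_aux4 h_pb5
  have h_isg := mem_inv h_ov.2.1 hpos6
  have h_aux6 := mem_shr 1 h_isg
  have h_is6 := mem_third h_aux6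
  have h_B1 := mem_mul h_is6 h_aux5
  have h_oh := mem_hPartE h_ou.1 h_ou.2.1 h_ou.2.2.1 h_ou.2.2.2.2.1 h_ou.2.2.2.2.2.2.1
  have h_aux7 := mem_mul h_ov.2.2.2.2.1 h_isg
  have h_tau := mem_smul 3 h_aux7
  have h_aux8 := mem_scale 7 5 h_ou.1
  have h_aux9 := mem_smul 3 h_ou.2.2.1
  have h_aux10 := mem_scale 9 5 h_aux9
  have h_aux11 := mem_sub h_aux8 h_aux10
  have h_aux12 := mem_mul h_ou.1 h_ou.2.2.2.2.1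
  have h_aux13 := mem_scale 3 8 h_aux12
  have h_aux14 := mem_add h_aux11 h_aux13
  have h_Lt1 := mem_nrm h_aux14
  have h_aux15 := mem_smul 3 h_ou.2.2.1
  have h_aux16 := mem_scale 11 7 h_oh.2.2
  have h_aux17 := mem_sub h_aux15 h_aux16
  have h_aux18 := mem_scale 57 8 h_aux17
  have h_aux19 := mem_neg h_oh.1
  have h_aux20 := mem_sub h_aux19 h_aux18
  have h_aux21 := mem_shr 10 h_ou.1
  have h_aux22 := mem_sub h_aux20 h_aux21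
  have h_aux23 := mem_mul h_ov.2.2.2.2.2.2.2.1 h_Lt1
  have h_aux24 := mem_add h_aux22 h_aux23
  have h_aux25 := mem_mul h_ov.2.2.1 h_B1
  have h_aux26 := mem_sub h_aux24 h_aux25
  have h_aux27 := mem_sub h_oh.2.1 h_Lt1
  have h_aux28 := mem_mul h_tau h_aux27
  have h_aux29 := mem_add h_aux26 h_aux28
  exact ⟨h_pa0.2, h_pa1.2, h_pa2.2, h_pa3.2, h_pa4.2, h_pa5.2, h_ov.2.1, h_aux29⟩

/-- Real mirror of `rawFET`. -/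
noncomputable def rawFER (ra m W0 Y0 P1 P2 Y1 QR rp2 s GG : ℝ) : ℝ :=
  let ib := m⁻¹
  let ra2 := ra ^ (2 : ℕ)
  let aux1 := ra * P1
  let aux2 := ((2 : ℕ) : ℝ) * aux1
  let aux3 := P2 - aux2
  let aux4 := ra2 * W0
  let aux5 := aux3 + aux4
  let Qt := aux5
  let aux6 := ra * Y0
  let aux7 := Y1 - aux6
  let Lt := aux7
  let aux8 := QR * Lt
  let aux9 := ((2 : ℕ) : ℝ) * aux8
  let aux10 := rp2 * Qt
  let aux11 := ib * aux10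
  let aux12 := aux9 + aux11
  let Mg := aux12
  let aux13 := ib * Mg
  let aux14 := s + aux13
  let sp := aux14
  let sp2 := sp ^ (2 : ℕ)
  let sp3 := sp2 * sp
  let aux15 := (((3 : ℕ) : ℝ) / 2 ^ (1 : ℕ)) * sp
  let aux16 := aux15 - ((3298534883328 : ℕ) : ℝ) / 2 ^ (40 : ℕ)
  let aux17 := (((11 : ℕ) : ℝ) / 2 ^ (7 : ℕ)) * sp2
  let aux18 := aux16 - aux17
  let aux19 := (((33 : ℕ) : ℝ) / 2 ^ (13 : ℕ)) * sp3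
  let aux20 := aux18 + aux19
  let t2 := m * aux20
  let aux21 := ib ^ (2 : ℕ)
  let aux22 := GG * aux21
  let t1 := ((3 : ℕ) : ℝ) * aux22
  let aux23 := t1 + t2
  let aux24 := aux23
  aux24

/-- Soundness of the block `rawFE`. -/
theorem mem_rawFE {P : Pt} {t_ra t_m t_W0 t_Y0 t_P1 t_P2 t_Y1 t_QR t_rp2 t_s t_GG : TM} {ra m W0 Y0 P1 P2 Y1 QR rp2 s GG : ℝ}
    (h_ra : Mem P t_ra ra) (h_m : Mem P t_m m) (h_W0 : Mem P t_W0 W0) (h_Y0 : Mem P t_Y0 Y0) (h_P1 : Mem P t_P1 P1) (h_P2 : Mem P t_P2 P2) (h_Y1 : Mem P t_Y1 Y1) (h_QR : Mem P t_QR QR) (h_rp2 : Mem P t_rp2 rp2) (h_s : Mem P t_s s) (h_GG : Mem P t_GG GG)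
    (hpos_m : posT t_m = true)
    :
    Mem P (rawFET t_ra t_m t_W0 t_Y0 t_P1 t_P2 t_Y1 t_QR t_rp2 t_s t_GG) (rawFER ra m W0 Y0 P1 P2 Y1 QR rp2 s GG) := by
  have h_ib := mem_inv h_m hpos_m
  have h_ra2 := mem_sq h_ra
  have h_aux1 := mem_mul h_ra h_P1
  have h_aux2 := mem_smul 2 h_aux1
  have h_aux3 := mem_sub h_P2 h_aux2
  have h_aux4 := mem_mul h_ra2 h_W0
  have h_aux5 := mem_add h_aux3 h_aux4
  have h_Qt := mem_nrm h_aux5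
  have h_aux6 := mem_mul h_ra h_Y0
  have h_aux7 := mem_sub h_Y1 h_aux6
  have h_Lt := mem_nrm h_aux7
  have h_aux8 := mem_mul h_QR h_Lt
  have h_aux9 := mem_smul 2 h_aux8
  have h_aux10 := mem_mul h_rp2 h_Qt
  have h_aux11 := mem_mul h_ib h_aux10
  have h_aux12 := mem_add h_aux9 h_aux11
  have h_Mg := mem_nrm h_aux12
  have h_aux13 := mem_mul h_ib h_Mg
  have h_aux14 := mem_add h_s h_aux13
  have h_sp := mem_nrm h_aux14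
  have h_sp2 := mem_sq h_sp
  have h_sp3 := mem_mul h_sp2 h_sp
  have h_aux15 := mem_scale 3 1 h_sp
  have h_aux16 := mem_subC 3298534883328 h_aux15
  have h_aux17 := mem_scale 11 7 h_sp2
  have h_aux18 := mem_sub h_aux16 h_aux17
  have h_aux19 := mem_scale 33 13 h_sp3
  have h_aux20 := mem_add h_aux18 h_aux19
  have h_t2 := mem_mul h_m h_aux20
  have h_aux21 := mem_sq h_ib
  have h_aux22 := mem_mul h_GG h_aux21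
  have h_t1 := mem_smul 3 h_aux22
  have h_aux23 := mem_add h_t1 h_t2
  have h_aux24 := mem_nrm h_aux23
  exact h_aux24

/-- Real mirror of `rawGET`. -/
noncomputable def rawGER (ra m W0 Y0 P1 P2 Y1 QR rp2 s : ℝ) : ℝ :=
  let ib := m⁻¹
  let ra2 := ra ^ (2 : ℕ)
  let aux1 := ra * P1
  let aux2 := ((2 : ℕ) : ℝ) * aux1
  let aux3 := P2 - aux2
  let aux4 := ra2 * W0
  let aux5 := aux3 + aux4
  let Qt := aux5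
  let aux6 := ra * Y0
  let aux7 := Y1 - aux6
  let Lt := aux7
  let aux8 := QR * Lt
  let aux9 := ((2 : ℕ) : ℝ) * aux8
  let aux10 := rp2 * Qt
  let aux11 := ib * aux10
  let aux12 := aux9 + aux11
  let Mg := aux12
  let aux13 := m * s
  let aux14 := aux13 + Mg
  let aux15 := aux14
  aux15

/-- Soundness of the block `rawGE`. -/
theorem mem_rawGE {P : Pt} {t_ra t_m t_W0 t_Y0 t_P1 t_P2 t_Y1 t_QR t_rp2 t_s : TM} {ra m W0 Y0 P1 P2 Y1 QR rp2 s : ℝ}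
    (h_ra : Mem P t_ra ra) (h_m : Mem P t_m m) (h_W0 : Mem P t_W0 W0) (h_Y0 : Mem P t_Y0 Y0) (h_P1 : Mem P t_P1 P1) (h_P2 : Mem P t_P2 P2) (h_Y1 : Mem P t_Y1 Y1) (h_QR : Mem P t_QR QR) (h_rp2 : Mem P t_rp2 rp2) (h_s : Mem P t_s s)
    (hpos_m : posT t_m = true)
    :
    Mem P (rawGET t_ra t_m t_W0 t_Y0 t_P1 t_P2 t_Y1 t_QR t_rp2 t_s) (rawGER ra m W0 Y0 P1 P2 Y1 QR rp2 s) := by
  have h_ib := mem_inv h_m hpos_m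
  have h_ra2 := mem_sq h_ra
  have h_aux1 := mem_mul h_ra h_P1
  have h_aux2 := mem_smul 2 h_aux1
  have h_aux3 := mem_sub h_P2 h_aux2
  have h_aux4 := mem_mul h_ra2 h_W0
  have h_aux5 := mem_add h_aux3 h_aux4
  have h_Qt := mem_nrm h_aux5
  have h_aux6 := mem_mul h_ra h_Y0
  have h_aux7 := mem_sub h_Y1 h_aux6
  have h_Lt := mem_nrm h_aux7
  have h_aux8 := mem_mul h_QR h_Lt
  have h_aux9 := mem_smul 2 h_aux8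
  have h_aux10 := mem_mul h_rp2 h_Qt
  have h_aux11 := mem_mul h_ib h_aux10
  have h_aux12 := mem_add h_aux9 h_aux11
  have h_Mg := mem_nrm h_aux12
  have h_aux13 := mem_mul h_m h_s
  have h_aux14 := mem_add h_aux13 h_Mg
  have h_aux15 := mem_nrm h_aux14
  exact h_aux15

/-- Real mirror of `polyCET`. -/
noncomputable def polyCER (s c3 G S C3 : ℝ) : ℝ × ℝ :=
  let s2 := s ^ (2 : ℕ)
  let S2 := S ^ (2 : ℕ)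
  let aux1 := (((3 : ℕ) : ℝ) / 2 ^ (6 : ℕ)) * s
  let aux2 := ((1099511627776 : ℕ) : ℝ) / 2 ^ (40 : ℕ) - aux1
  let aux3 := s2 * aux2
  let aux4 := (((11 : ℕ) : ℝ) / 2 ^ (7 : ℕ)) * aux3
  let aux5 := ((3 : ℕ) : ℝ) * c3
  let Xu := aux5 - aux4
  let aux6 := (((3 : ℕ) : ℝ) / 2 ^ (6 : ℕ)) * S
  let aux7 := ((1099511627776 : ℕ) : ℝ) / 2 ^ (40 : ℕ) - aux6
  let aux8 := S2 * aux7
  let aux9 := (((11 : ℕ) : ℝ) / 2 ^ (7 : ℕ)) * aux8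
  let aux10 := ((3 : ℕ) : ℝ) * C3
  let Xv := aux10 - aux9
  let aux11 := (((25 : ℕ) : ℝ) / 2 ^ (7 : ℕ)) * S
  let aux12 := ((1099511627776 : ℕ) : ℝ) / 2 ^ (40 : ℕ) - aux11
  let aux13 := (((11 : ℕ) : ℝ) / 2 ^ (10 : ℕ)) * S2
  let aux14 := aux12 + aux13
  let aux15 := aux14 * Xu
  let aux16 := (((21 : ℕ) : ℝ) / 2 ^ (7 : ℕ)) * s
  let aux17 := ((1099511627776 : ℕ) : ℝ) / 2 ^ (40 : ℕ) - aux16
  let aux18 := G * aux17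
  let aux19 := aux18 * Xv
  let aux20 := aux15 + aux19
  let LI := aux20
  let cc := ((3 : ℕ) : ℝ) * c3
  let aux21 := (((7 : ℕ) : ℝ) / 2 ^ (5 : ℕ)) * s
  let aux22 := (((9 : ℕ) : ℝ) / 2 ^ (5 : ℕ)) * cc
  let aux23 := aux21 - aux22
  let aux24 := (((3 : ℕ) : ℝ) / 2 ^ (8 : ℕ)) * s2
  let aux25 := aux23 + aux24
  let Lam := aux25
  let aux26 := s + S
  let aux27 := S * Xu
  let aux28 := (((57 : ℕ) : ℝ) / 2 ^ (8 : ℕ)) * aux27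
  let aux29 := aux26 - aux28
  let aux30 := Lam * Xv
  let aux31 := aux29 - aux30
  let aux32 := S * s
  let aux33 := aux32 / 2 ^ (10 : ℕ)
  let aux34 := aux31 - aux33
  let RII := aux34
  (LI, RII)

/-- Soundness of the block `polyCE`. -/
theorem mem_polyCE {P : Pt} {t_s t_c3 t_G t_S t_C3 : TM} {s c3 G S C3 : ℝ}
    (h_s : Mem P t_s s) (h_c3 : Mem P t_c3 c3) (h_G : Mem P t_G G) (h_S : Mem P t_S S) (h_C3 : Mem P t_C3 C3)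
    :
    Mem P (polyCET t_s t_c3 t_G t_S t_C3).1 (polyCER s c3 G S C3).1 ∧
    Mem P (polyCET t_s t_c3 t_G t_S t_C3).2 (polyCER s c3 G S C3).2 := by
  have h_s2 := mem_sq h_s
  have h_S2 := mem_sq h_S
  have h_aux1 := mem_scale 3 6 h_s
  have h_aux2 := mem_rsubC 1099511627776 h_aux1
  have h_aux3 := mem_mul h_s2 h_aux2
  have h_aux4 := mem_scale 11 7 h_aux3
  have h_aux5 := mem_smul 3 h_c3
  have h_Xu := mem_sub h_aux5 h_aux4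
  have h_aux6 := mem_scale 3 6 h_S
  have h_aux7 := mem_rsubC 1099511627776 h_aux6
  have h_aux8 := mem_mul h_S2 h_aux7
  have h_aux9 := mem_scale 11 7 h_aux8
  have h_aux10 := mem_smul 3 h_C3
  have h_Xv := mem_sub h_aux10 h_aux9
  have h_aux11 := mem_scale 25 7 h_S
  have h_aux12 := mem_rsubC 1099511627776 h_aux11
  have h_aux13 := mem_scale 11 10 h_S2
  have h_aux14 := mem_add h_aux12 h_aux13
  have h_aux15 := mem_mul h_aux14 h_Xu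
  have h_aux16 := mem_scale 21 7 h_s
  have h_aux17 := mem_rsubC 1099511627776 h_aux16
  have h_aux18 := mem_mul h_G h_aux17
  have h_aux19 := mem_mul h_aux18 h_Xv
  have h_aux20 := mem_add h_aux15 h_aux19
  have h_LI := mem_nrm h_aux20
  have h_cc := mem_smul 3 h_c3
  have h_aux21 := mem_scale 7 5 h_s
  have h_aux22 := mem_scale 9 5 h_cc
  have h_aux23 := mem_sub h_aux21 h_aux22
  have h_aux24 := mem_scale 3 8 h_s2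
  have h_aux25 := mem_add h_aux23 h_aux24
  have h_Lam := mem_nrm h_aux25
  have h_aux26 := mem_add h_s h_S
  have h_aux27 := mem_mul h_S h_Xu
  have h_aux28 := mem_scale 57 8 h_aux27
  have h_aux29 := mem_sub h_aux26 h_aux28
  have h_aux30 := mem_mul h_Lam h_Xv
  have h_aux31 := mem_sub h_aux29 h_aux30
  have h_aux32 := mem_mul h_S h_s
  have h_aux33 := mem_shr 10 h_aux32
  have h_aux34 := mem_sub h_aux31 h_aux33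
  have h_RII := mem_nrm h_aux34
  exact ⟨h_LI, h_RII⟩

/-- Real mirror of `baseCET`. -/
noncomputable def baseCER (R X Q Y : ℝ) : ℝ × ℝ × ℝ × ℝ × ℝ × ℝ × ℝ × ℝ × ℝ × ℝ × ℝ × ℝ × ℝ × ℝ × ℝ × ℝ × ℝ × ℝ × ℝ × ℝ × ℝ × ℝ × ℝ × ℝ × ℝ × ℝ × ℝ × ℝ × ℝ × ℝ × ℝ × ℝ × ℝ × ℝ × ℝ × ℝ × ℝ × ℝ :=
  let ou := uPartER R X
  let ov := vPartER Q Y
  let oa := alphasER X Y
  let om := matFER ou.2.2.2.2.2.2.2.1 ou.2.2.2.2.2.2.2.2.1 ou.2.2.2.2.2.2.2.2.2.1 X Y ov.1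
  let pa0 := permAER R Q oa.1
  let pa1 := permAER R Q oa.2.1
  let pa2 := permAER R Q oa.2.2.1
  let pa3 := permAER R Q oa.2.2.2.1
  let pa4 := permAER R Q oa.2.2.2.2.1
  let pa5 := permAER R Q oa.2.2.2.2.2
  let QR := Q * R
  let GG := ou.2.2.2.2.2.2.2.2.2.2.1 * ov.2.2.2.2.2.2.1
  let opc := polyCER ou.2.2.2.2.1 ou.2.2.2.2.2.1 ou.2.2.2.2.2.2.2.2.2.2.1 ov.2.2.2.1 ov.2.2.2.2.2.1
  (pa0.1, pa0.2, om.1, om.2.1, om.2.2.1, pa1.1, pa1.2, om.2.2.2.1, om.2.2.2.2.1, om.2.2.2.2.2.1, pa2.1, pa2.2, om.2.2.2.2.2.2.1, om.2.2.2.2.2.2.2.1, om.2.2.2.2.2.2.2.2.1, pa3.1, pa3.2, om.2.2.2.2.2.2.2.2.2.1, om.2.2.2.2.2.2.2.2.2.2.1, om.2.2.2.2.2.2.2.2.2.2.2.1, pa4.1, pa4.2, om.2.2.2.2.2.2.2.2.2.2.2.2.1, om.2.2.2.2.2.2.2.2.2.2.2.2.2.1, om.2.2.2.2.2.2.2.2.2.2.2.2.2.2.1, pa5.1, pa5.2, om.2.2.2.2.2.2.2.2.2.2.2.2.2.2.2.1, om.2.2.2.2.2.2.2.2.2.2.2.2.2.2.2.2.1,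 om.2.2.2.2.2.2.2.2.2.2.2.2.2.2.2.2.2.1, om.2.2.2.2.2.2.2.2.2.2.2.2.2.2.2.2.2.2, ou.2.2.2.2.2.2.2.2.2.2.2, QR, ov.2.2.1, ou.2.2.2.2.1, GG, opc.1, opc.2)

/-- Soundness of the block `baseCE`. -/
theorem mem_baseCE {P : Pt} {t_R t_X t_Q t_Y : TM} {R X Q Y : ℝ}
    (h_R : Mem P t_R R) (h_X : Mem P t_X X) (h_Q : Mem P t_Q Q) (h_Y : Mem P t_Y Y)
    :
    Mem P (baseCET t_R t_X t_Q t_Y).1 (baseCER R X Q Y).1 ∧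
    Mem P (baseCET t_R t_X t_Q t_Y).2.1 (baseCER R X Q Y).2.1 ∧
    Mem P (baseCET t_R t_X t_Q t_Y).2.2.1 (baseCER R X Q Y).2.2.1 ∧
    Mem P (baseCET t_R t_X t_Q t_Y).2.2.2.1 (baseCER R X Q Y).2.2.2.1 ∧
    Mem P (baseCET t_R t_X t_Q t_Y).2.2.2.2.1 (baseCER R X Q Y).2.2.2.2.1 ∧
    Mem P (baseCET t_R t_X t_Q t_Y).2.2.2.2.2.1 (baseCER R X Q Y).2.2.2.2.2.1 ∧
    Mem P (baseCET t_R t_X t_Q t_Y).2.2.2.2.2.2.1 (baseCER R X Q Y).2.2.2.2.2.2.1 ∧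
    Mem P (baseCET t_R t_X t_Q t_Y).2.2.2.2.2.2.2.1 (baseCER R X Q Y).2.2.2.2.2.2.2.1 ∧
    Mem P (baseCET t_R t_X t_Q t_Y).2.2.2.2.2.2.2.2.1 (baseCER R X Q Y).2.2.2.2.2.2.2.2.1 ∧
    Mem P (baseCET t_R t_X t_Q t_Y).2.2.2.2.2.2.2.2.2.1 (baseCER R X Q Y).2.2.2.2.2.2.2.2.2.1 ∧
    Mem P (baseCET t_R t_X t_Q t_Y).2.2.2.2.2.2.2.2.2.2.1 (baseCER R X Q Y).2.2.2.2.2.2.2.2.2.2.1 ∧
    Mem P (baseCET t_R t_X t_Q t_Y).2.2.2.2.2.2.2.2.2.2.2.1 (baseCER R X Q Y).2.2.2.2.2.2.2.2.2.2.2.1 ∧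
    Mem P (baseCET t_R t_X t_Q t_Y).2.2.2.2.2.2.2.2.2.2.2.2.1 (baseCER R X Q Y).2.2.2.2.2.2.2.2.2.2.2.2.1 ∧
    Mem P (baseCET t_R t_X t_Q t_Y).2.2.2.2.2.2.2.2.2.2.2.2.2.1 (baseCER R X Q Y).2.2.2.2.2.2.2.2.2.2.2.2.2.1 ∧
    Mem P (baseCET t_R t_X t_Q t_Y).2.2.2.2.2.2.2.2.2.2.2.2.2.2.1 (baseCER R X Q Y).2.2.2.2.2.2.2.2.2.2.2.2.2.2.1 ∧
    Mem P (baseCET t_R t_X t_Q t_Y).2.2.2.2.2.2.2.2.2.2.2.2.2.2.2.1 (baseCER R X Q Y).2.2.2.2.2.2.2.2.2.2.2.2.2.2.2.1 ∧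
    Mem P (baseCET t_R t_X t_Q t_Y).2.2.2.2.2.2.2.2.2.2.2.2.2.2.2.2.1 (baseCER R X Q Y).2.2.2.2.2.2.2.2.2.2.2.2.2.2.2.2.1 ∧
    Mem P (baseCET t_R t_X t_Q t_Y).2.2.2.2.2.2.2.2.2.2.2.2.2.2.2.2.2.1 (baseCER R X Q Y).2.2.2.2.2.2.2.2.2.2.2.2.2.2.2.2.2.1 ∧
    Mem P (baseCET t_R t_X t_Q t_Y).2.2.2.2.2.2.2.2.2.2.2.2.2.2.2.2.2.2.1 (baseCER R X Q Y).2.2.2.2.2.2.2.2.2.2.2.2.2.2.2.2.2.2.1 ∧
    Mem P (baseCET t_R t_X t_Q t_Y).2.2.2.2.2.2.2.2.2.2.2.2.2.2.2.2.2.2.2.1 (baseCER R X Q Y).2.2.2.2.2.2.2.2.2.2.2.2.2.2.2.2.2.2.2.1 ∧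
    Mem P (baseCET t_R t_X t_Q t_Y).2.2.2.2.2.2.2.2.2.2.2.2.2.2.2.2.2.2.2.2.1 (baseCER R X Q Y).2.2.2.2.2.2.2.2.2.2.2.2.2.2.2.2.2.2.2.2.1 ∧
    Mem P (baseCET t_R t_X t_Q t_Y).2.2.2.2.2.2.2.2.2.2.2.2.2.2.2.2.2.2.2.2.2.1 (baseCER R X Q Y).2.2.2.2.2.2.2.2.2.2.2.2.2.2.2.2.2.2.2.2.2.1 ∧
    Mem P (baseCET t_R t_X t_Q t_Y).2.2.2.2.2.2.2.2.2.2.2.2.2.2.2.2.2.2.2.2.2.2.1 (baseCER R X Q Y).2.2.2.2.2.2.2.2.2.2.2.2.2.2.2.2.2.2.2.2.2.2.1 ∧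
    Mem P (baseCET t_R t_X t_Q t_Y).2.2.2.2.2.2.2.2.2.2.2.2.2.2.2.2.2.2.2.2.2.2.2.1 (baseCER R X Q Y).2.2.2.2.2.2.2.2.2.2.2.2.2.2.2.2.2.2.2.2.2.2.2.1 ∧
    Mem P (baseCET t_R t_X t_Q t_Y).2.2.2.2.2.2.2.2.2.2.2.2.2.2.2.2.2.2.2.2.2.2.2.2.1 (baseCER R X Q Y).2.2.2.2.2.2.2.2.2.2.2.2.2.2.2.2.2.2.2.2.2.2.2.2.1 ∧
    Mem P (baseCET t_R t_X t_Q t_Y).2.2.2.2.2.2.2.2.2.2.2.2.2.2.2.2.2.2.2.2.2.2.2.2.2.1 (baseCER R X Q Y).2.2.2.2.2.2.2.2.2.2.2.2.2.2.2.2.2.2.2.2.2.2.2.2.2.1 ∧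
    Mem P (baseCET t_R t_X t_Q t_Y).2.2.2.2.2.2.2.2.2.2.2.2.2.2.2.2.2.2.2.2.2.2.2.2.2.2.1 (baseCER R X Q Y).2.2.2.2.2.2.2.2.2.2.2.2.2.2.2.2.2.2.2.2.2.2.2.2.2.2.1 ∧
    Mem P (baseCET t_R t_X t_Q t_Y).2.2.2.2.2.2.2.2.2.2.2.2.2.2.2.2.2.2.2.2.2.2.2.2.2.2.2.1 (baseCER R X Q Y).2.2.2.2.2.2.2.2.2.2.2.2.2.2.2.2.2.2.2.2.2.2.2.2.2.2.2.1 ∧
    Mem P (baseCET t_R t_X t_Q t_Y).2.2.2.2.2.2.2.2.2.2.2.2.2.2.2.2.2.2.2.2.2.2.2.2.2.2.2.2.1 (baseCER R X Q Y).2.2.2.2.2.2.2.2.2.2.2.2.2.2.2.2.2.2.2.2.2.2.2.2.2.2.2.2.1 ∧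
    Mem P (baseCET t_R t_X t_Q t_Y).2.2.2.2.2.2.2.2.2.2.2.2.2.2.2.2.2.2.2.2.2.2.2.2.2.2.2.2.2.1 (baseCER R X Q Y).2.2.2.2.2.2.2.2.2.2.2.2.2.2.2.2.2.2.2.2.2.2.2.2.2.2.2.2.2.1 ∧
    Mem P (baseCET t_R t_X t_Q t_Y).2.2.2.2.2.2.2.2.2.2.2.2.2.2.2.2.2.2.2.2.2.2.2.2.2.2.2.2.2.2.1 (baseCER R X Q Y).2.2.2.2.2.2.2.2.2.2.2.2.2.2.2.2.2.2.2.2.2.2.2.2.2.2.2.2.2.2.1 ∧
    Mem P (baseCET t_R t_X t_Q t_Y).2.2.2.2.2.2.2.2.2.2.2.2.2.2.2.2.2.2.2.2.2.2.2.2.2.2.2.2.2.2.2.1 (baseCER R X Q Y).2.2.2.2.2.2.2.2.2.2.2.2.2.2.2.2.2.2.2.2.2.2.2.2.2.2.2.2.2.2.2.1 ∧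
    Mem P (baseCET t_R t_X t_Q t_Y).2.2.2.2.2.2.2.2.2.2.2.2.2.2.2.2.2.2.2.2.2.2.2.2.2.2.2.2.2.2.2.2.1 (baseCER R X Q Y).2.2.2.2.2.2.2.2.2.2.2.2.2.2.2.2.2.2.2.2.2.2.2.2.2.2.2.2.2.2.2.2.1 ∧
    Mem P (baseCET t_R t_X t_Q t_Y).2.2.2.2.2.2.2.2.2.2.2.2.2.2.2.2.2.2.2.2.2.2.2.2.2.2.2.2.2.2.2.2.2.1 (baseCER R X Q Y).2.2.2.2.2.2.2.2.2.2.2.2.2.2.2.2.2.2.2.2.2.2.2.2.2.2.2.2.2.2.2.2.2.1 ∧
    Mem P (baseCET t_R t_X t_Q t_Y).2.2.2.2.2.2.2.2.2.2.2.2.2.2.2.2.2.2.2.2.2.2.2.2.2.2.2.2.2.2.2.2.2.2.1 (baseCER R X Q Y).2.2.2.2.2.2.2.2.2.2.2.2.2.2.2.2.2.2.2.2.2.2.2.2.2.2.2.2.2.2.2.2.2.2.1 ∧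
    Mem P (baseCET t_R t_X t_Q t_Y).2.2.2.2.2.2.2.2.2.2.2.2.2.2.2.2.2.2.2.2.2.2.2.2.2.2.2.2.2.2.2.2.2.2.2.1 (baseCER R X Q Y).2.2.2.2.2.2.2.2.2.2.2.2.2.2.2.2.2.2.2.2.2.2.2.2.2.2.2.2.2.2.2.2.2.2.2.1 ∧
    Mem P (baseCET t_R t_X t_Q t_Y).2.2.2.2.2.2.2.2.2.2.2.2.2.2.2.2.2.2.2.2.2.2.2.2.2.2.2.2.2.2.2.2.2.2.2.2.1 (baseCER R X Q Y).2.2.2.2.2.2.2.2.2.2.2.2.2.2.2.2.2.2.2.2.2.2.2.2.2.2.2.2.2.2.2.2.2.2.2.2.1 ∧
    Mem P (baseCET t_R t_X t_Q t_Y).2.2.2.2.2.2.2.2.2.2.2.2.2.2.2.2.2.2.2.2.2.2.2.2.2.2.2.2.2.2.2.2.2.2.2.2.2 (baseCER R X Q Y).2.2.2.2.2.2.2.2.2.2.2.2.2.2.2.2.2.2.2.2.2.2.2.2.2.2.2.2.2.2.2.2.2.2.2.2.2 := by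
  have h_ou := mem_uPartE h_R h_X
  have h_ov := mem_vPartE h_Q h_Y
  have h_oa := mem_alphasE h_X h_Y
  have h_om := mem_matFE h_ou.2.2.2.2.2.2.2.1 h_ou.2.2.2.2.2.2.2.2.1 h_ou.2.2.2.2.2.2.2.2.2.1 h_X h_Y h_ov.1
  have h_pa0 := mem_permAE h_R h_Q h_oa.1
  have h_pa1 := mem_permAE h_R h_Q h_oa.2.1
  have h_pa2 := mem_permAE h_R h_Q h_oa.2.2.1
  have h_pa3 := mem_permAE h_R h_Q h_oa.2.2.2.1
  have h_pa4 := mem_permAE h_R h_Q h_oa.2.2.2.2.1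
  have h_pa5 := mem_permAE h_R h_Q h_oa.2.2.2.2.2
  have h_QR := mem_mul h_Q h_R
  have h_GG := mem_mul h_ou.2.2.2.2.2.2.2.2.2.2.1 h_ov.2.2.2.2.2.2.1
  have h_opc := mem_polyCE h_ou.2.2.2.2.1 h_ou.2.2.2.2.2.1 h_ou.2.2.2.2.2.2.2.2.2.2.1 h_ov.2.2.2.1 h_ov.2.2.2.2.2.1
  exact ⟨h_pa0.1, h_pa0.2, h_om.1, h_om.2.1, h_om.2.2.1, h_pa1.1, h_pa1.2, h_om.2.2.2.1, h_om.2.2.2.2.1, h_om.2.2.2.2.2.1, h_pa2.1, h_pa2.2, h_om.2.2.2.2.2.2.1, h_om.2.2.2.2.2.2.2.1, h_om.2.2.2.2.2.2.2.2.1, h_pa3.1, h_pa3.2, h_om.2.2.2.2.2.2.2.2.2.1, h_om.2.2.2.2.2.2.2.2.2.2.1, h_om.2.2.2.2.2.2.2.2.2.2.2.1, h_pa4.1, h_pa4.2, h_om.2.2.2.2.2.2.2.2.2.2.2.2.1, h_om.2.2.2.2.2.2.2.2.2.2.2.2.2.1, h_om.2.2.2.2.2.2.2.2.2.2.2.2.2.2.1, h_pa5.1, h_pa5.2, h_om.2.2.2.2.2.2.2.2.2.2.2.2.2.2.2.1, h_om.2.2.2.2.2.2.2.2.2.2.2.2.2.2.2.2.1, h_om.2.2.2.2.2.2.2.2.2.2.2.2.2.2.2.2.2.1,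 h_om.2.2.2.2.2.2.2.2.2.2.2.2.2.2.2.2.2.2, h_ou.2.2.2.2.2.2.2.2.2.2.2, h_QR, h_ov.2.2.1, h_ou.2.2.2.2.1, h_GG, h_opc.1, h_opc.2⟩

end Vale.Agent.Lib.P154E
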