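import Mathlib
import Vale.Agent.Lib.P154E.EGood
import Vale.Agent.Lib.P154E.ETMirror

/-!
Soundness of the box tests at full channel strength.
-/

namespace Vale.Agent.Lib.P154E

open Vale.Agent.Lib.P154

lemma mem_hi {P : Pt} {a : TM} {x : ℝ} (ha : Mem P a x) : x ≤ (hiT a : ℝ) / DD := by
  have hD := DD_pos
  have h1 := ha.er
  have h2 := ha.gr
  have h3 := abs_grad_le a P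
  unfold aff at h1
  have h4 := (abs_le.mp h1).2
  have h5 := (abs_le.mp h3).2
  have hc : (a.cp : ℝ) + (a.r + a.e) - a.cn ≤ (hiT a : ℝ) := by
    unfold hiT
    simp only [Nat.add_eq, Nat.sub_eq]
    have : ((a.cp + (a.r + a.e) : ℕ) : ℝ) - a.cn ≤ ((a.cp + (a.r + a.e) - a.cn : ℕ) : ℝ) := by
      rcases le_total a.cn (a.cp + (a.r + a.e)) with h | h
      · rw [Nat.cast_sub h]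
      · rw [Nat.sub_eq_zero_of_le h]
        have : ((a.cp + (a.r + a.e) : ℕ) : ℝ) ≤ a.cn := by exact_mod_cast h
        simp only [Nat.cast_zero]
        linarith
    push_cast at this
    linarith
  have e : dv a.cp a.cn + (a.r : ℝ) / DD + (a.e : ℝ) / DD ≤ (hiT a : ℝ) / DD := by
    have : dv a.cp a.cn + (a.r : ℝ) / DD + (a.e : ℝ) / DD = ((a.cp : ℝ) + (a.r + a.e) - a.cn) / DD := by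
      unfold dv; ring
    rw [this]
    exact div_le_div_of_nonneg_right hc hD.le
  linarith

lemma mem_constPos (P : Pt) (q : ℕ) : Mem P (constPos q) ((q : ℝ) / DD) := by
  constructor
  · simp [constPos, gsum, dv]
  · have e : ((q : ℝ) / DD) - aff (constPos q) P = 0 := by
      simp only [constPos, aff, dv]
      push_cast
      ring
    rw [e]
    simp [constPos]

lemma pickF_sound {P : Pt} {m raw : TM} {mv rv t : ℝ} (hm : Mem P m mv)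
    (hr : posT m = true → Mem P raw rv) (hok : okT m = true) (hb : -3 * mv ≤ t)
    (hg : 0 < mv → t = rv) : ∃ y, Mem P (pickF m raw) y ∧ y ≤ t := by
  cases hs : smallT m with
  | true =>
    refine ⟨-(((Nat.mul 3 (hiT m) : ℕ) : ℝ) / DD), ?_, ?_⟩
    · have : pickF m raw = constNeg (Nat.mul 3 (hiT m)) := by
        unfold pickF; rw [hs]
      rw [this]
      exact mem_constNeg P _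
    · have h1 := mem_hi hm
      have e : (((Nat.mul 3 (hiT m) : ℕ) : ℝ) / DD) = 3 * ((hiT m : ℝ) / DD) := by
        simp only [Nat.mul_eq]
        push_cast
        ring
      rw [e]
      linarith
  | false =>
    have hp : posT m = true := by
      unfold okT at hok
      rw [hs] at hok
      simpa using hok
    refine ⟨rv, ?_, (hg (mem_pos hm hp)).ge⟩
    have : pickF m raw = raw := by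
      unfold pickF; rw [hs]
    rw [this]
    exact hr hp

lemma pickG_sound {P : Pt} {m raw : TM} {mv rv t : ℝ} (hm : Mem P m mv)
    (hr : posT m = true → Mem P raw rv) (hok : okT m = true) (hb : t ≤ 6 * mv)
    (hg : 0 < mv → t = rv) : ∃ y, Mem P (pickG m raw) y ∧ t ≤ y := by
  cases hs : smallT m with
  | true =>
    refine ⟨((Nat.mul 6 (hiT m) : ℕ) : ℝ) / DD, ?_, ?_⟩
    · have : pickG m raw = constPos (Nat.mul 6 (hiT m)) := by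
        unfold pickG; rw [hs]
      rw [this]
      exact mem_constPos P _
    · have h1 := mem_hi hm
      have e : (((Nat.mul 6 (hiT m) : ℕ) : ℝ) / DD) = 6 * ((hiT m : ℝ) / DD) := by
        simp only [Nat.mul_eq]
        push_cast
        ring
      rw [e]
      linarith
  | false =>
    have hp : posT m = true := by
      unfold okT at hok
      rw [hs] at hok
      simpa using hok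
    refine ⟨rv, ?_, (hg (mem_pos hm hp)).le⟩
    have : pickG m raw = raw := by
      unfold pickG; rw [hs]
    rw [this]
    exact hr hp

/-- What the checker establishes for `F1`. -/
def PhiF (R X Q Y : ℝ) : Prop :=
  0 < (progFER R X Q Y).1 ∧ 0 < (progFER R X Q Y).2.1 ∧ 0 < (progFER R X Q Y).2.2.1 ∧
  0 < (progFER R X Q Y).2.2.2.1 ∧ 0 < (progFER R X Q Y).2.2.2.2.1 ∧
  0 < (progFER R X Q Y).2.2.2.2.2.1 ∧ 0 < (progFER R X Q Y).2.2.2.2.2.2.1 ∧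
  0 ≤ (progFER R X Q Y).2.2.2.2.2.2.2

/-- What the checker establishes for `G2`. -/
def PhiG (R X Q Y : ℝ) : Prop :=
  0 < (progGER R X Q Y).1 ∧ 0 < (progGER R X Q Y).2.1 ∧ 0 < (progGER R X Q Y).2.2.1 ∧
  0 < (progGER R X Q Y).2.2.2.1 ∧ 0 < (progGER R X Q Y).2.2.2.2.1 ∧
  0 < (progGER R X Q Y).2.2.2.2.2.1 ∧ 0 < (progGER R X Q Y).2.2.2.2.2.2.1 ∧
  0 ≤ (progGER R X Q Y).2.2.2.2.2.2.2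

theorem testF_sound (l1 w1 l2 w2 l3 w3 l4 w4 : ℕ) (h : testF l1 w1 l2 w2 l3 w3 l4 w4 = true) :
    Good PhiF l1 w1 l2 w2 l3 w3 l4 w4 := by
  rintro v1 v2 v3 v4 ⟨a1, a2, b1, b2, c1, c2, d1, d2⟩
  obtain ⟨P, h1, h2, h3, h4⟩ := pt_exists l1 w1 l2 w2 l3 w3 l4 w4 v1 v2 v3 v4 a1 a2 b1 b2 c1 c2 d1 d2
  unfold testF at h
  simp only [Bool.and_eq_true] at h
  obtain ⟨p0, p1, p2, p3, p4, p5, p6, p7⟩ := h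
  obtain ⟨m0, m1, m2, m3, m4, m5, m6, m7⟩ := mem_progFE h1 h2 h3 h4 p0 p1 p2 p3 p4 p5 p6
  exact ⟨mem_pos m0 p0, mem_pos m1 p1, mem_pos m2 p2, mem_pos m3 p3, mem_pos m4 p4, mem_pos m5 p5,
    mem_pos m6 p6, mem_nonneg m7 p7⟩

theorem testG_sound (l1 w1 l2 w2 l3 w3 l4 w4 : ℕ) (h : testG l1 w1 l2 w2 l3 w3 l4 w4 = true) :
    Good PhiG l1 w1 l2 w2 l3 w3 l4 w4 := by
  rintro v1 v2 v3 v4 ⟨a1, a2, b1, b2, c1, c2, d1, d2⟩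
  obtain ⟨P, h1, h2, h3, h4⟩ := pt_exists l1 w1 l2 w2 l3 w3 l4 w4 v1 v2 v3 v4 a1 a2 b1 b2 c1 c2 d1 d2
  unfold testG at h
  simp only [Bool.and_eq_true] at h
  obtain ⟨p0, p1, p2, p3, p4, p5, p6, p7⟩ := h
  obtain ⟨m0, m1, m2, m3, m4, m5, m6, m7⟩ := mem_progGE h1 h2 h3 h4 p0 p1 p2 p3 p4 p5 p6
  exact ⟨mem_pos m0 p0, mem_pos m1 p1, mem_pos m2 p2, mem_pos m3 p3, mem_pos m4 p4, mem_pos m5 p5,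
    mem_pos m6 p6, mem_nonneg m7 p7⟩

/-- What the corner check establishes. -/
def PhiFC (R X Q Y : ℝ) : Prop :=
  ∀ t0 t1 t2 t3 t4 t5 : ℝ,
    (-3 * (baseCER R X Q Y).2.1 ≤ t0) → (0 < (baseCER R X Q Y).2.1 → t0 = (rawFER (baseCER R X Q Y).1 (baseCER R X Q Y).2.1 (baseCER R X Q Y).2.2.2.2.2.2.2.2.2.2.2.2.2.2.2.2.2.2.2.2.2.2.2.2.2.2.2.2.2.2.1 (baseCER R X Q Y).2.2.2.2.2.2.2.2.2.2.2.2.2.2.2.2.2.2.2.2.2.2.2.2.2.2.2.2.2.2.2.1 (baseCER R X Q Y).2.2.1 (baseCER R X Q Y).2.2.2.1 (baseCER R X Q Y).2.2.2.2.1 (baseCER R X Q Y).2.2.2.2.2.2.2.2.2.2.2.2.2.2.2.2.2.2.2.2.2.2.2.2.2.2.2.2.2.2.2.2.1 (baseCER R X Q Y).2.2.2.2.2.2.2.2.2.2.2.2.2.2.2.2.2.2.2.2.2.2.2.2.2.2.2.2.2.2.2.2.2.1 (baseCER R X Q Y).2.2.2.2.2.2.2.2.2.2.2.2.2.2.2.2.2.2.2.2.2.2.2.2.2.2.2.2.2.2.2.2.2.2.1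 (baseCER R X Q Y).2.2.2.2.2.2.2.2.2.2.2.2.2.2.2.2.2.2.2.2.2.2.2.2.2.2.2.2.2.2.2.2.2.2.2.1)) →
    (-3 * (baseCER R X Q Y).2.2.2.2.2.2.1 ≤ t1) → (0 < (baseCER R X Q Y).2.2.2.2.2.2.1 → t1 = (rawFER (baseCER R X Q Y).2.2.2.2.2.1 (baseCER R X Q Y).2.2.2.2.2.2.1 (baseCER R X Q Y).2.2.2.2.2.2.2.2.2.2.2.2.2.2.2.2.2.2.2.2.2.2.2.2.2.2.2.2.2.2.1 (baseCER R X Q Y).2.2.2.2.2.2.2.2.2.2.2.2.2.2.2.2.2.2.2.2.2.2.2.2.2.2.2.2.2.2.2.1 (baseCER R X Q Y).2.2.2.2.2.2.2.1 (baseCER R X Q Y).2.2.2.2.2.2.2.2.1 (baseCER R X Q Y).2.2.2.2.2.2.2.2.2.1 (baseCER R X Q Y).2.2.2.2.2.2.2.2.2.2.2.2.2.2.2.2.2.2.2.2.2.2.2.2.2.2.2.2.2.2.2.2.1 (baseCER R X Q Y).2.2.2.2.2.2.2.2.2.2.2.2.2.2.2.2.2.2.2.2.2.2.2.2.2.2.2.2.2.2.2.2.2.1 (baseCER R X Q Y).2.2.2.2.2.2.2.2.2.2.2.2.2.2.2.2.2.2.2.2.2.2.2.2.2.2.2.2.2.2.2.2.2.2.1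 (baseCER R X Q Y).2.2.2.2.2.2.2.2.2.2.2.2.2.2.2.2.2.2.2.2.2.2.2.2.2.2.2.2.2.2.2.2.2.2.2.1)) →
    (-3 * (baseCER R X Q Y).2.2.2.2.2.2.2.2.2.2.2.1 ≤ t2) → (0 < (baseCER R X Q Y).2.2.2.2.2.2.2.2.2.2.2.1 → t2 = (rawFER (baseCER R X Q Y).2.2.2.2.2.2.2.2.2.2.1 (baseCER R X Q Y).2.2.2.2.2.2.2.2.2.2.2.1 (baseCER R X Q Y).2.2.2.2.2.2.2.2.2.2.2.2.2.2.2.2.2.2.2.2.2.2.2.2.2.2.2.2.2.2.1 (baseCER R X Q Y).2.2.2.2.2.2.2.2.2.2.2.2.2.2.2.2.2.2.2.2.2.2.2.2.2.2.2.2.2.2.2.1 (baseCER R X Q Y).2.2.2.2.2.2.2.2.2.2.2.2.1 (baseCER R X Q Y).2.2.2.2.2.2.2.2.2.2.2.2.2.1 (baseCER R X Q Y).2.2.2.2.2.2.2.2.2.2.2.2.2.2.1 (baseCER R X Q Y).2.2.2.2.2.2.2.2.2.2.2.2.2.2.2.2.2.2.2.2.2.2.2.2.2.2.2.2.2.2.2.2.1 (baseCER R X Q Y).2.2.2.2.2.2.2.2.2.2.2.2.2.2.2.2.2.2.2.2.2.2.2.2.2.2.2.2.2.2.2.2.2.1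 (baseCER R X Q Y).2.2.2.2.2.2.2.2.2.2.2.2.2.2.2.2.2.2.2.2.2.2.2.2.2.2.2.2.2.2.2.2.2.2.1 (baseCER R X Q Y).2.2.2.2.2.2.2.2.2.2.2.2.2.2.2.2.2.2.2.2.2.2.2.2.2.2.2.2.2.2.2.2.2.2.2.1)) →
    (-3 * (baseCER R X Q Y).2.2.2.2.2.2.2.2.2.2.2.2.2.2.2.2.1 ≤ t3) → (0 < (baseCER R X Q Y).2.2.2.2.2.2.2.2.2.2.2.2.2.2.2.2.1 → t3 = (rawFER (baseCER R X Q Y).2.2.2.2.2.2.2.2.2.2.2.2.2.2.2.1 (baseCER R X Q Y).2.2.2.2.2.2.2.2.2.2.2.2.2.2.2.2.1 (baseCER R X Q Y).2.2.2.2.2.2.2.2.2.2.2.2.2.2.2.2.2.2.2.2.2.2.2.2.2.2.2.2.2.2.1 (baseCER R X Q Y).2.2.2.2.2.2.2.2.2.2.2.2.2.2.2.2.2.2.2.2.2.2.2.2.2.2.2.2.2.2.2.1 (baseCER R X Q Y).2.2.2.2.2.2.2.2.2.2.2.2.2.2.2.2.2.1 (baseCER R X Q Y).2.2.2.2.2.2.2.2.2.2.2.2.2.2.2.2.2.2.1 (baseCER R X Q Y).2.2.2.2.2.2.2.2.2.2.2.2.2.2.2.2.2.2.2.1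 (baseCER R X Q Y).2.2.2.2.2.2.2.2.2.2.2.2.2.2.2.2.2.2.2.2.2.2.2.2.2.2.2.2.2.2.2.2.1 (baseCER R X Q Y).2.2.2.2.2.2.2.2.2.2.2.2.2.2.2.2.2.2.2.2.2.2.2.2.2.2.2.2.2.2.2.2.2.1 (baseCER R X Q Y).2.2.2.2.2.2.2.2.2.2.2.2.2.2.2.2.2.2.2.2.2.2.2.2.2.2.2.2.2.2.2.2.2.2.1 (baseCER R X Q Y).2.2.2.2.2.2.2.2.2.2.2.2.2.2.2.2.2.2.2.2.2.2.2.2.2.2.2.2.2.2.2.2.2.2.2.1)) →
    (-3 * (baseCER R X Q Y).2.2.2.2.2.2.2.2.2.2.2.2.2.2.2.2.2.2.2.2.2.1 ≤ t4) → (0 < (baseCER R X Q Y).2.2.2.2.2.2.2.2.2.2.2.2.2.2.2.2.2.2.2.2.2.1 → t4 = (rawFER (baseCER R X Q Y).2.2.2.2.2.2.2.2.2.2.2.2.2.2.2.2.2.2.2.2.1 (baseCER R X Q Y).2.2.2.2.2.2.2.2.2.2.2.2.2.2.2.2.2.2.2.2.2.1 (baseCER R X Q Y).2.2.2.2.2.2.2.2.2.2.2.2.2.2.2.2.2.2.2.2.2.2.2.2.2.2.2.2.2.2.1 (baseCER R X Q Y).2.2.2.2.2.2.2.2.2.2.2.2.2.2.2.2.2.2.2.2.2.2.2.2.2.2.2.2.2.2.2.1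 (baseCER R X Q Y).2.2.2.2.2.2.2.2.2.2.2.2.2.2.2.2.2.2.2.2.2.2.1 (baseCER R X Q Y).2.2.2.2.2.2.2.2.2.2.2.2.2.2.2.2.2.2.2.2.2.2.2.1 (baseCER R X Q Y).2.2.2.2.2.2.2.2.2.2.2.2.2.2.2.2.2.2.2.2.2.2.2.2.1 (baseCER R X Q Y).2.2.2.2.2.2.2.2.2.2.2.2.2.2.2.2.2.2.2.2.2.2.2.2.2.2.2.2.2.2.2.2.1 (baseCER R X Q Y).2.2.2.2.2.2.2.2.2.2.2.2.2.2.2.2.2.2.2.2.2.2.2.2.2.2.2.2.2.2.2.2.2.1 (baseCER R X Q Y).2.2.2.2.2.2.2.2.2.2.2.2.2.2.2.2.2.2.2.2.2.2.2.2.2.2.2.2.2.2.2.2.2.2.1 (baseCER R X Q Y).2.2.2.2.2.2.2.2.2.2.2.2.2.2.2.2.2.2.2.2.2.2.2.2.2.2.2.2.2.2.2.2.2.2.2.1)) →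
    (-3 * (baseCER R X Q Y).2.2.2.2.2.2.2.2.2.2.2.2.2.2.2.2.2.2.2.2.2.2.2.2.2.2.1 ≤ t5) → (0 < (baseCER R X Q Y).2.2.2.2.2.2.2.2.2.2.2.2.2.2.2.2.2.2.2.2.2.2.2.2.2.2.1 → t5 = (rawFER (baseCER R X Q Y).2.2.2.2.2.2.2.2.2.2.2.2.2.2.2.2.2.2.2.2.2.2.2.2.2.1 (baseCER R X Q Y).2.2.2.2.2.2.2.2.2.2.2.2.2.2.2.2.2.2.2.2.2.2.2.2.2.2.1 (baseCER R X Q Y).2.2.2.2.2.2.2.2.2.2.2.2.2.2.2.2.2.2.2.2.2.2.2.2.2.2.2.2.2.2.1 (baseCER R X Q Y).2.2.2.2.2.2.2.2.2.2.2.2.2.2.2.2.2.2.2.2.2.2.2.2.2.2.2.2.2.2.2.1 (baseCER R X Q Y).2.2.2.2.2.2.2.2.2.2.2.2.2.2.2.2.2.2.2.2.2.2.2.2.2.2.2.1 (baseCER R X Q Y).2.2.2.2.2.2.2.2.2.2.2.2.2.2.2.2.2.2.2.2.2.2.2.2.2.2.2.2.1 (baseCER R X Q Y).2.2.2.2.2.2.2.2.2.2.2.2.2.2.2.2.2.2.2.2.2.2.2.2.2.2.2.2.2.1 (baseCER R X Q Y).2.2.2.2.2.2.2.2.2.2.2.2.2.2.2.2.2.2.2.2.2.2.2.2.2.2.2.2.2.2.2.2.1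 (baseCER R X Q Y).2.2.2.2.2.2.2.2.2.2.2.2.2.2.2.2.2.2.2.2.2.2.2.2.2.2.2.2.2.2.2.2.2.1 (baseCER R X Q Y).2.2.2.2.2.2.2.2.2.2.2.2.2.2.2.2.2.2.2.2.2.2.2.2.2.2.2.2.2.2.2.2.2.2.1 (baseCER R X Q Y).2.2.2.2.2.2.2.2.2.2.2.2.2.2.2.2.2.2.2.2.2.2.2.2.2.2.2.2.2.2.2.2.2.2.2.1)) →
    6 * (baseCER R X Q Y).2.2.2.2.2.2.2.2.2.2.2.2.2.2.2.2.2.2.2.2.2.2.2.2.2.2.2.2.2.2.2.2.2.2.2.2.1 ≤ t0 + t1 + t2 + t3 + t4 + t5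

/-- What the corner check establishes. -/
def PhiGC (R X Q Y : ℝ) : Prop :=
  ∀ t0 t1 t2 t3 t4 t5 : ℝ,
    (t0 ≤ 6 * (baseCER R X Q Y).2.1) → (0 < (baseCER R X Q Y).2.1 → t0 = (rawGER (baseCER R X Q Y).1 (baseCER R X Q Y).2.1 (baseCER R X Q Y).2.2.2.2.2.2.2.2.2.2.2.2.2.2.2.2.2.2.2.2.2.2.2.2.2.2.2.2.2.2.1 (baseCER R X Q Y).2.2.2.2.2.2.2.2.2.2.2.2.2.2.2.2.2.2.2.2.2.2.2.2.2.2.2.2.2.2.2.1 (baseCER R X Q Y).2.2.1 (baseCER R X Q Y).2.2.2.1 (baseCER R X Q Y).2.2.2.2.1 (baseCER R X Q Y).2.2.2.2.2.2.2.2.2.2.2.2.2.2.2.2.2.2.2.2.2.2.2.2.2.2.2.2.2.2.2.2.1 (baseCER R X Q Y).2.2.2.2.2.2.2.2.2.2.2.2.2.2.2.2.2.2.2.2.2.2.2.2.2.2.2.2.2.2.2.2.2.1 (baseCER R X Q Y).2.2.2.2.2.2.2.2.2.2.2.2.2.2.2.2.2.2.2.2.2.2.2.2.2.2.2.2.2.2.2.2.2.2.1)) →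
    (t1 ≤ 6 * (baseCER R X Q Y).2.2.2.2.2.2.1) → (0 < (baseCER R X Q Y).2.2.2.2.2.2.1 → t1 = (rawGER (baseCER R X Q Y).2.2.2.2.2.1 (baseCER R X Q Y).2.2.2.2.2.2.1 (baseCER R X Q Y).2.2.2.2.2.2.2.2.2.2.2.2.2.2.2.2.2.2.2.2.2.2.2.2.2.2.2.2.2.2.1 (baseCER R X Q Y).2.2.2.2.2.2.2.2.2.2.2.2.2.2.2.2.2.2.2.2.2.2.2.2.2.2.2.2.2.2.2.1 (baseCER R X Q Y).2.2.2.2.2.2.2.1 (baseCER R X Q Y).2.2.2.2.2.2.2.2.1 (baseCER R X Q Y).2.2.2.2.2.2.2.2.2.1 (baseCER R X Q Y).2.2.2.2.2.2.2.2.2.2.2.2.2.2.2.2.2.2.2.2.2.2.2.2.2.2.2.2.2.2.2.2.1 (baseCER R X Q Y).2.2.2.2.2.2.2.2.2.2.2.2.2.2.2.2.2.2.2.2.2.2.2.2.2.2.2.2.2.2.2.2.2.1 (baseCER R X Q Y).2.2.2.2.2.2.2.2.2.2.2.2.2.2.2.2.2.2.2.2.2.2.2.2.2.2.2.2.2.2.2.2.2.2.1)) →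
    (t2 ≤ 6 * (baseCER R X Q Y).2.2.2.2.2.2.2.2.2.2.2.1) → (0 < (baseCER R X Q Y).2.2.2.2.2.2.2.2.2.2.2.1 → t2 = (rawGER (baseCER R X Q Y).2.2.2.2.2.2.2.2.2.2.1 (baseCER R X Q Y).2.2.2.2.2.2.2.2.2.2.2.1 (baseCER R X Q Y).2.2.2.2.2.2.2.2.2.2.2.2.2.2.2.2.2.2.2.2.2.2.2.2.2.2.2.2.2.2.1 (baseCER R X Q Y).2.2.2.2.2.2.2.2.2.2.2.2.2.2.2.2.2.2.2.2.2.2.2.2.2.2.2.2.2.2.2.1 (baseCER R X Q Y).2.2.2.2.2.2.2.2.2.2.2.2.1 (baseCER R X Q Y).2.2.2.2.2.2.2.2.2.2.2.2.2.1 (baseCER R X Q Y).2.2.2.2.2.2.2.2.2.2.2.2.2.2.1 (baseCER R X Q Y).2.2.2.2.2.2.2.2.2.2.2.2.2.2.2.2.2.2.2.2.2.2.2.2.2.2.2.2.2.2.2.2.1 (baseCER R X Q Y).2.2.2.2.2.2.2.2.2.2.2.2.2.2.2.2.2.2.2.2.2.2.2.2.2.2.2.2.2.2.2.2.2.1 (baseCER R X Q Y).2.2.2.2.2.2.2.2.2.2.2.2.2.2.2.2.2.2.2.2.2.2.2.2.2.2.2.2.2.2.2.2.2.2.1))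 →
    (t3 ≤ 6 * (baseCER R X Q Y).2.2.2.2.2.2.2.2.2.2.2.2.2.2.2.2.1) → (0 < (baseCER R X Q Y).2.2.2.2.2.2.2.2.2.2.2.2.2.2.2.2.1 → t3 = (rawGER (baseCER R X Q Y).2.2.2.2.2.2.2.2.2.2.2.2.2.2.2.1 (baseCER R X Q Y).2.2.2.2.2.2.2.2.2.2.2.2.2.2.2.2.1 (baseCER R X Q Y).2.2.2.2.2.2.2.2.2.2.2.2.2.2.2.2.2.2.2.2.2.2.2.2.2.2.2.2.2.2.1 (baseCER R X Q Y).2.2.2.2.2.2.2.2.2.2.2.2.2.2.2.2.2.2.2.2.2.2.2.2.2.2.2.2.2.2.2.1 (baseCER R X Q Y).2.2.2.2.2.2.2.2.2.2.2.2.2.2.2.2.2.1 (baseCER R X Q Y).2.2.2.2.2.2.2.2.2.2.2.2.2.2.2.2.2.2.1 (baseCER R X Q Y).2.2.2.2.2.2.2.2.2.2.2.2.2.2.2.2.2.2.2.1 (baseCER R X Q Y).2.2.2.2.2.2.2.2.2.2.2.2.2.2.2.2.2.2.2.2.2.2.2.2.2.2.2.2.2.2.2.2.1 (baseCER R X Q Y).2.2.2.2.2.2.2.2.2.2.2.2.2.2.2.2.2.2.2.2.2.2.2.2.2.2.2.2.2.2.2.2.2.1 (baseCER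 R X Q Y).2.2.2.2.2.2.2.2.2.2.2.2.2.2.2.2.2.2.2.2.2.2.2.2.2.2.2.2.2.2.2.2.2.2.1)) →
    (t4 ≤ 6 * (baseCER R X Q Y).2.2.2.2.2.2.2.2.2.2.2.2.2.2.2.2.2.2.2.2.2.1) → (0 < (baseCER R X Q Y).2.2.2.2.2.2.2.2.2.2.2.2.2.2.2.2.2.2.2.2.2.1 → t4 = (rawGER (baseCER R X Q Y).2.2.2.2.2.2.2.2.2.2.2.2.2.2.2.2.2.2.2.2.1 (baseCER R X Q Y).2.2.2.2.2.2.2.2.2.2.2.2.2.2.2.2.2.2.2.2.2.1 (baseCER R X Q Y).2.2.2.2.2.2.2.2.2.2.2.2.2.2.2.2.2.2.2.2.2.2.2.2.2.2.2.2.2.2.1 (baseCER R X Q Y).2.2.2.2.2.2.2.2.2.2.2.2.2.2.2.2.2.2.2.2.2.2.2.2.2.2.2.2.2.2.2.1 (baseCER R X Q Y).2.2.2.2.2.2.2.2.2.2.2.2.2.2.2.2.2.2.2.2.2.2.1 (baseCER R X Q Y).2.2.2.2.2.2.2.2.2.2.2.2.2.2.2.2.2.2.2.2.2.2.2.1 (baseCER R X Q Y).2.2.2.2.2.2.2.2.2.2.2.2.2.2.2.2.2.2.2.2.2.2.2.2.1 (baseCER R X Q Y).2.2.2.2.2.2.2.2.2.2.2.2.2.2.2.2.2.2.2.2.2.2.2.2.2.2.2.2.2.2.2.2.1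 (baseCER R X Q Y).2.2.2.2.2.2.2.2.2.2.2.2.2.2.2.2.2.2.2.2.2.2.2.2.2.2.2.2.2.2.2.2.2.1 (baseCER R X Q Y).2.2.2.2.2.2.2.2.2.2.2.2.2.2.2.2.2.2.2.2.2.2.2.2.2.2.2.2.2.2.2.2.2.2.1)) →
    (t5 ≤ 6 * (baseCER R X Q Y).2.2.2.2.2.2.2.2.2.2.2.2.2.2.2.2.2.2.2.2.2.2.2.2.2.2.1) → (0 < (baseCER R X Q Y).2.2.2.2.2.2.2.2.2.2.2.2.2.2.2.2.2.2.2.2.2.2.2.2.2.2.1 → t5 = (rawGER (baseCER R X Q Y).2.2.2.2.2.2.2.2.2.2.2.2.2.2.2.2.2.2.2.2.2.2.2.2.2.1 (baseCER R X Q Y).2.2.2.2.2.2.2.2.2.2.2.2.2.2.2.2.2.2.2.2.2.2.2.2.2.2.1 (baseCER R X Q Y).2.2.2.2.2.2.2.2.2.2.2.2.2.2.2.2.2.2.2.2.2.2.2.2.2.2.2.2.2.2.1 (baseCER R X Q Y).2.2.2.2.2.2.2.2.2.2.2.2.2.2.2.2.2.2.2.2.2.2.2.2.2.2.2.2.2.2.2.1 (baseCER R X Q Y).2.2.2.2.2.2.2.2.2.2.2.2.2.2.2.2.2.2.2.2.2.2.2.2.2.2.2.1 (baseCER R X Q Y).2.2.2.2.2.2.2.2.2.2.2.2.2.2.2.2.2.2.2.2.2.2.2.2.2.2.2.2.1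 (baseCER R X Q Y).2.2.2.2.2.2.2.2.2.2.2.2.2.2.2.2.2.2.2.2.2.2.2.2.2.2.2.2.2.1 (baseCER R X Q Y).2.2.2.2.2.2.2.2.2.2.2.2.2.2.2.2.2.2.2.2.2.2.2.2.2.2.2.2.2.2.2.2.1 (baseCER R X Q Y).2.2.2.2.2.2.2.2.2.2.2.2.2.2.2.2.2.2.2.2.2.2.2.2.2.2.2.2.2.2.2.2.2.1 (baseCER R X Q Y).2.2.2.2.2.2.2.2.2.2.2.2.2.2.2.2.2.2.2.2.2.2.2.2.2.2.2.2.2.2.2.2.2.2.1)) →
    t0 + t1 + t2 + t3 + t4 + t5 ≤ 6 * (baseCER R X Q Y).2.2.2.2.2.2.2.2.2.2.2.2.2.2.2.2.2.2.2.2.2.2.2.2.2.2.2.2.2.2.2.2.2.2.2.2.2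

theorem testFC_sound (l1 w1 l2 w2 l3 w3 l4 w4 : ℕ) (h : testFC l1 w1 l2 w2 l3 w3 l4 w4 = true) :
    Good PhiFC l1 w1 l2 w2 l3 w3 l4 w4 := by
  rintro v1 v2 v3 v4 ⟨a1, a2, b1, b2, c1, c2, d1, d2⟩
  obtain ⟨P, h1, h2, h3, h4⟩ := pt_exists l1 w1 l2 w2 l3 w3 l4 w4 v1 v2 v3 v4 a1 a2 b1 b2 c1 c2 d1 d2
  unfold testFC at h
  simp only [Bool.and_eq_true] at h
  obtain ⟨k0, k1, k2, k3, k4, k5, hf⟩ := h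
  obtain ⟨x0, x1, x2, x3, x4, x5, x6, x7, x8, x9, x10, x11, x12, x13, x14, x15, x16, x17, x18, x19, x20, x21, x22, x23, x24, x25, x26, x27, x28, x29, x30, x31, x32, x33, x34, x35, x36, x37⟩ := mem_baseCE h1 h2 h3 h4
  intro t0 t1 t2 t3 t4 t5 b0 g0 b1' g1 b2' g2 b3 g3 b4 g4 b5 g5
  obtain ⟨y0, my0, ly0⟩ := pickF_sound x1 (fun hp => mem_rawFE x0 x1 x30 x31 x2 x3 x4 x32 x33 x34 x35 hp) k0 b0 g0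
  obtain ⟨y1, my1, ly1⟩ := pickF_sound x6 (fun hp => mem_rawFE x5 x6 x30 x31 x7 x8 x9 x32 x33 x34 x35 hp) k1 b1' g1
  obtain ⟨y2, my2, ly2⟩ := pickF_sound x11 (fun hp => mem_rawFE x10 x11 x30 x31 x12 x13 x14 x32 x33 x34 x35 hp) k2 b2' g2
  obtain ⟨y3, my3, ly3⟩ := pickF_sound x16 (fun hp => mem_rawFE x15 x16 x30 x31 x17 x18 x19 x32 x33 x34 x35 hp) k3 b3 g3
  obtain ⟨y4, my4, ly4⟩ := pickF_sound x21 (fun hp => mem_rawFE x20 x21 x30 x31 x22 x23 x24 x32 x33 x34 x35 hp) k4 b4 g4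
  obtain ⟨y5, my5, ly5⟩ := pickF_sound x26 (fun hp => mem_rawFE x25 x26 x30 x31 x27 x28 x29 x32 x33 x34 x35 hp) k5 b5 g5
  have ms := mem_add (mem_add (mem_add (mem_add (mem_add my0 my1) my2) my3) my4) my5
  have mf := mem_nonneg (mem_sub ms (mem_smul 6 x36)) hf
  push_cast at mf
  linarith

theorem testGC_sound (l1 w1 l2 w2 l3 w3 l4 w4 : ℕ) (h : testGC l1 w1 l2 w2 l3 w3 l4 w4 = true) :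
    Good PhiGC l1 w1 l2 w2 l3 w3 l4 w4 := by
  rintro v1 v2 v3 v4 ⟨a1, a2, b1, b2, c1, c2, d1, d2⟩
  obtain ⟨P, h1, h2, h3, h4⟩ := pt_exists l1 w1 l2 w2 l3 w3 l4 w4 v1 v2 v3 v4 a1 a2 b1 b2 c1 c2 d1 d2
  unfold testGC at h
  simp only [Bool.and_eq_true] at h
  obtain ⟨k0, k1, k2, k3, k4, k5, hf⟩ := h
  obtain ⟨x0, x1, x2, x3, x4, x5, x6, x7, x8, x9, x10, x11, x12, x13, x14, x15, x16, x17, x18, x19, x20, x21, x22, x23, x24, x25, x26, x27, x28, x29, x30, x31, x32, x33, x34, x35, x36, x37⟩ := mem_baseCE h1 h2 h3 h4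
  intro t0 t1 t2 t3 t4 t5 b0 g0 b1' g1 b2' g2 b3 g3 b4 g4 b5 g5
  obtain ⟨y0, my0, ly0⟩ := pickG_sound x1 (fun hp => mem_rawGE x0 x1 x30 x31 x2 x3 x4 x32 x33 x34 hp) k0 b0 g0
  obtain ⟨y1, my1, ly1⟩ := pickG_sound x6 (fun hp => mem_rawGE x5 x6 x30 x31 x7 x8 x9 x32 x33 x34 hp) k1 b1' g1
  obtain ⟨y2, my2, ly2⟩ := pickG_sound x11 (fun hp => mem_rawGE x10 x11 x30 x31 x12 x13 x14 x32 x33 x34 hp) k2 b2' g2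
  obtain ⟨y3, my3, ly3⟩ := pickG_sound x16 (fun hp => mem_rawGE x15 x16 x30 x31 x17 x18 x19 x32 x33 x34 hp) k3 b3 g3
  obtain ⟨y4, my4, ly4⟩ := pickG_sound x21 (fun hp => mem_rawGE x20 x21 x30 x31 x22 x23 x24 x32 x33 x34 hp) k4 b4 g4
  obtain ⟨y5, my5, ly5⟩ := pickG_sound x26 (fun hp => mem_rawGE x25 x26 x30 x31 x27 x28 x29 x32 x33 x34 hp) k5 b5 g5
  have ms := mem_add (mem_add (mem_add (mem_add (mem_add my0 my1) my2) my3) my4) my5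
  have mf := mem_nonneg (mem_sub (mem_smul 6 x37) ms) hf
  push_cast at mf
  linarith

theorem testFX_sound (l1 w1 l2 w2 l3 w3 l4 w4 : ℕ) (h : testFX l1 w1 l2 w2 l3 w3 l4 w4 = true) :
    Good (fun R X Q Y => PhiF R X Q Y ∨ PhiFC R X Q Y) l1 w1 l2 w2 l3 w3 l4 w4 := by
  intro v1 v2 v3 v4 hb
  unfold testFX at h
  rcases (Bool.or_eq_true _ _).mp h with h | h
  · exact Or.inl (testF_sound _ _ _ _ _ _ _ _ h v1 v2 v3 v4 hb)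
  · exact Or.inr (testFC_sound _ _ _ _ _ _ _ _ h v1 v2 v3 v4 hb)

theorem testGX_sound (l1 w1 l2 w2 l3 w3 l4 w4 : ℕ) (h : testGX l1 w1 l2 w2 l3 w3 l4 w4 = true) :
    Good (fun R X Q Y => PhiG R X Q Y ∨ PhiGC R X Q Y) l1 w1 l2 w2 l3 w3 l4 w4 := by
  intro v1 v2 v3 v4 hb
  unfold testGX at h
  rcases (Bool.or_eq_true _ _).mp h with h | h
  · exact Or.inl (testG_sound _ _ _ _ _ _ _ _ h v1 v2 v3 v4 hb)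
  · exact Or.inr (testGC_sound _ _ _ _ _ _ _ _ h v1 v2 v3 v4 hb)

/-- Scaling of the top box. -/
lemma inBox_topE {R X Q Y : ℝ} (h1 : 0 ≤ R) (h2 : R ≤ 1) (h3 : 0 ≤ X) (h4 : X ≤ 3 / 2)
    (h5 : 0 ≤ Q) (h6 : Q ≤ 1) (h7 : 0 ≤ Y) (h8 : Y ≤ 3 / 2) :
    InBox 0 1099511627776 0 1649267441664 0 1099511627776 0 1649267441664 R X Q Y := by
  unfold InBox DD
  norm_num
  exact ⟨h1, by linarith, h3, by linarith, h5, by linarith, h7, by linarith⟩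

end Vale.Agent.Lib.P154E
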