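import Vale.Agent.Lib.P154E.Defs
import Vale.Agent.Lib.P154.Framework

/-!
Abstract framework for P154 on Galton-Watson trees: from the pointwise inequalities `IneqIE`,
`IneqIIE` to `recon → 0`.
-/

namespace Vale.Agent.Lib.P154E

open Finset BigOperators Filter Topology
open Vale.Agent.Lib.P154

/-! ### Elementary facts on the message simplex -/

lemma le_two {v : Fin 3 → ℝ} (h : inT v) (i : Fin 3) : v i ≤ 2 := by
  have h0 := inT_sum h
  have h1 := h.2 0
  have h2 := h.2 1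
  have h3 := h.2 2
  fin_cases i <;> simp <;> linarith

lemma abs_sS_le {v : Fin 3 → ℝ} (h : inT v) : |sS v| ≤ 6 := by
  rw [abs_of_nonneg (sS_nonneg v)]
  exact sS_le_six h

lemma cube_bounds {x : ℝ} (h1 : -1 ≤ x) (h2 : x ≤ 2) : -1 ≤ x ^ (3 : ℕ) ∧ x ^ (3 : ℕ) ≤ 8 := by
  constructor <;> nlinarith [sq_nonneg x, sq_nonneg (x + 1), sq_nonneg (x - 2),
    mul_nonneg (by linarith : 0 ≤ x + 1) (sq_nonneg x),
    mul_nonneg (by linarith : 0 ≤ 2 - x) (sq_nonneg x),
    mul_nonneg (by linarith : 0 ≤ x + 1) (by linarith : 0 ≤ 2 - x)]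

lemma abs_xE_le {v : Fin 3 → ℝ} (h : inT v) : |xE v| ≤ 24 := by
  have hs0 := sS_nonneg v
  have hs6 := sS_le_six h
  have a0 := cube_bounds (h.2 0) (le_two h 0)
  have a1 := cube_bounds (h.2 1) (le_two h 1)
  have a2 := cube_bounds (h.2 2) (le_two h 2)
  have hc : -3 ≤ cC v ∧ cC v ≤ 24 := by
    rw [cC_eq]; constructor <;> linarith [a0.1, a0.2, a1.1, a1.2, a2.1, a2.2]
  unfold xE
  set s := sS v
  have hq : 0 ≤ s ^ (2 : ℕ) * (1 - (3 / 64) * s) := by
    have : 0 ≤ 1 - (3 / 64) * s := by linarith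
    positivity
  have hq2 : s ^ (2 : ℕ) * (1 - (3 / 64) * s) ≤ 36 := by
    have h1 : 1 - (3 / 64) * s ≤ 1 := by linarith
    have h2 : s ^ (2 : ℕ) ≤ 36 := by nlinarith
    have h3 : 0 ≤ 1 - (3 / 64) * s := by linarith
    nlinarith [sq_nonneg s]
  rw [abs_le]
  constructor <;> nlinarith [hc.1, hc.2]

lemma inT_perm {v : Fin 3 → ℝ} (h : inT v) (g : Equiv.Perm (Fin 3)) :
    inT (fun i => v (g i)) := by
  refine ⟨?_, fun i => h.2 (g i)⟩
  rw [Equiv.sum_comp g v]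
  exact h.1

lemma xE_smul_ge {v : Fin 3 → ℝ} (h : inT v) {r : ℝ} (h0 : 0 ≤ r) (h1 : r ≤ 1) :
    r ^ (3 : ℕ) * xE v ≤ xE (fun i => r * v i) := by
  unfold xE
  rw [sS_smul, cC_smul]
  have hs0 := sS_nonneg v
  have hs6 := sS_le_six h
  set s := sS v with hs
  have key : (r ^ (3 : ℕ) * cC v - (11 / 128) * (r ^ (2 : ℕ) * s) ^ (2 : ℕ) * (1 - (3 / 64) * (r ^ (2 : ℕ) * s)))
      - r ^ (3 : ℕ) * (cC v - (11 / 128) * s ^ (2 : ℕ) * (1 - (3 / 64) * s))
      = (11 / 128) * r ^ (3 : ℕ) * s ^ (2 : ℕ) * (1 - r) * (1 - (3 / 64) * s * (1 + r + r ^ (2 : ℕ))) := by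
    ring
  have hr2 : r ^ (2 : ℕ) ≤ 1 := by nlinarith
  have hq : 0 ≤ 1 - (3 / 64) * s * (1 + r + r ^ (2 : ℕ)) := by
    have : (1 + r + r ^ (2 : ℕ)) ≤ 3 := by linarith
    have h3 : s * (1 + r + r ^ (2 : ℕ)) ≤ 6 * 3 := by
      apply mul_le_mul hs6 this (by positivity) (by norm_num)
    nlinarith
  have hfin : 0 ≤ (11 / 128) * r ^ (3 : ℕ) * s ^ (2 : ℕ) * (1 - r) * (1 - (3 / 64) * s * (1 + r + r ^ (2 : ℕ))) := by
    have : 0 ≤ 1 - r := by linarith
    positivity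
  linarith

lemma cube_sq_le {v : Fin 3 → ℝ} (h : inT v) : 6 * cC v ^ (2 : ℕ) ≤ sS v ^ (3 : ℕ) := by
  rw [sS_eq, cC_eq]
  have h0 := inT_sum h
  have e2 : v 2 = - v 0 - v 1 := by linarith
  rw [e2]
  nlinarith [sq_nonneg ((v 0 - v 1) * (v 1 - (- v 0 - v 1)) * ((- v 0 - v 1) - v 0))]

lemma lE_nonneg {v : Fin 3 → ℝ} (h : inT v) : 0 ≤ lE v := by
  have hs0 := sS_nonneg v
  have hs6 := sS_le_six h
  have hc := cube_sq_le h
  unfold lE
  set s := sS v
  set c := cC v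
  -- it suffices to bound `c` from above
  by_cases hcn : c ≤ 0
  · nlinarith [sq_nonneg s]
  push Not at hcn
  by_cases hs : s = 0
  · have : c ^ (2 : ℕ) ≤ 0 := by
      have h6 : 6 * c ^ (2 : ℕ) ≤ 0 := by rw [hs] at hc; simpa using hc
      linarith
    nlinarith
  have hspos : 0 < s := lt_of_le_of_ne hs0 (Ne.symm hs)
  -- `(9/32 c)^2 ≤ (7/32 s + 3/256 s^2)^2`
  have hA : 0 ≤ (7 / 32) * s + (3 / 256) * s ^ (2 : ℕ) := by positivity
  have hsq : ((9 / 32) * c) ^ (2 : ℕ) ≤ ((7 / 32) * s + (3 / 256) * s ^ (2 : ℕ)) ^ (2 : ℕ) := by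
    have h1 : ((9 / 32) * c) ^ (2 : ℕ) = (81 / 1024) * c ^ (2 : ℕ) := by ring
    have h2 : (81 / 1024) * c ^ (2 : ℕ) ≤ (81 / 6144) * s ^ (3 : ℕ) := by nlinarith
    have h3 : (81 / 6144) * s ^ (3 : ℕ) ≤ ((7 / 32) * s + (3 / 256) * s ^ (2 : ℕ)) ^ (2 : ℕ) := by
      have e : ((7 / 32) * s + (3 / 256) * s ^ (2 : ℕ)) ^ (2 : ℕ) - (81 / 6144) * s ^ (3 : ℕ)
          = s ^ (2 : ℕ) * (49 / 1024 - (33 / 4096) * s + (9 / 65536) * s ^ (2 : ℕ)) := by ring
      have hq : 0 ≤ 49 / 1024 - (33 / 4096) * s + (9 / 65536) * s ^ (2 : ℕ) := by nlinarith [sq_nonneg s]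
      have : 0 ≤ s ^ (2 : ℕ) * (49 / 1024 - (33 / 4096) * s + (9 / 65536) * s ^ (2 : ℕ)) := by positivity
      linarith
    rw [h1]; linarith
  have := (abs_le.1 (abs_le_of_sq_le_sq hsq hA)).2
  linarith

/-! ### Sequential merging of countably many messages -/

/-- Functions bounded on the message simplex. -/
def BT (F : (Fin 3 → ℝ) → ℝ) : Prop := ∃ M, ∀ u, inT u → |F u| ≤ M

lemma BT_const (c : ℝ) : BT (fun _ => c) := ⟨|c|, fun _ _ => le_rfl⟩

lemma BT_sS : BT sS := ⟨6, fun _ hu => abs_sS_le hu⟩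

lemma BT_xE : BT xE := ⟨24, fun _ hu => abs_xE_le hu⟩

lemma BT.add {F G : (Fin 3 → ℝ) → ℝ} (hF : BT F) (hG : BT G) : BT (fun u => F u + G u) := by
  obtain ⟨M, hM⟩ := hF
  obtain ⟨N, hN⟩ := hG
  exact ⟨M + N, fun u hu => (abs_add_le _ _).trans (add_le_add (hM u hu) (hN u hu))⟩

lemma BT.const_mul {F : (Fin 3 → ℝ) → ℝ} (hF : BT F) (c : ℝ) : BT (fun u => c * F u) := by
  obtain ⟨M, hM⟩ := hF
  refine ⟨|c| * M, fun u hu => ?_⟩
  rw [abs_mul]
  exact mul_le_mul_of_nonneg_left (hM u hu) (abs_nonneg c)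

section Abstract

variable {Ω : Type*} (P : Ω → ℝ) (v : Ω → Fin 3 → ℝ) (lam : ℝ)

/-- product weights of `k` independent messages. -/
noncomputable def wt {k : ℕ} (η : Fin k → Ω) (i : Fin 3) : ℝ := ∏ c, (1 + lam * v (η c) i)

/-- normaliser. -/
noncomputable def zz {k : ℕ} (η : Fin k → Ω) : ℝ := (1 / 3) * ∑ i, wt v lam η i

/-- merged message. -/
noncomputable def uu {k : ℕ} (η : Fin k → Ω) (i : Fin 3) : ℝ := wt v lam η i / zz v lam η - 1

/-- weight of `k` independent messages. -/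
noncomputable def wW {k : ℕ} (η : Fin k → Ω) : ℝ := (∏ c, P (η c)) * zz v lam η

/-- weighted expectation of a test function of the merged message. -/
noncomputable def Ak (k : ℕ) (F : (Fin 3 → ℝ) → ℝ) : ℝ :=
  ∑' η : Fin k → Ω, wW P v lam η * F (uu v lam η)

/-- the merging operator. -/
noncomputable def Top (F : (Fin 3 → ℝ) → ℝ) (u : Fin 3 → ℝ) : ℝ :=
  ∑' ω, P ω * (mM u (fun i => lam * v ω i) * F (vV u (fun i => lam * v ω i)))

variable {P v lam}

lemma factor_nonneg (hv : ∀ ω, inT (v ω)) (h0 : 0 ≤ lam) (h1 : lam ≤ 1) (ω : Ω) (i : Fin 3) :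
    0 ≤ 1 + lam * v ω i := by
  have := (hv ω).2 i
  nlinarith

lemma factor_le (hv : ∀ ω, inT (v ω)) (h0 : 0 ≤ lam) (h1 : lam ≤ 1) (ω : Ω) (i : Fin 3) :
    1 + lam * v ω i ≤ 3 := by
  have := le_two (hv ω) i
  have h2 := (hv ω).2 i
  nlinarith

lemma wt_nonneg (hv : ∀ ω, inT (v ω)) (h0 : 0 ≤ lam) (h1 : lam ≤ 1) {k : ℕ} (η : Fin k → Ω)
    (i : Fin 3) : 0 ≤ wt v lam η i :=
  Finset.prod_nonneg fun c _ => factor_nonneg hv h0 h1 (η c) i

lemma wt_le (hv : ∀ ω, inT (v ω)) (h0 : 0 ≤ lam) (h1 : lam ≤ 1) {k : ℕ} (η : Fin k → Ω)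
    (i : Fin 3) : wt v lam η i ≤ 3 ^ k := by
  unfold wt
  calc ∏ c, (1 + lam * v (η c) i) ≤ ∏ _c : Fin k, (3 : ℝ) :=
        Finset.prod_le_prod (fun c _ => factor_nonneg hv h0 h1 (η c) i)
          (fun c _ => factor_le hv h0 h1 (η c) i)
    _ = 3 ^ k := by simp

lemma zz_nonneg (hv : ∀ ω, inT (v ω)) (h0 : 0 ≤ lam) (h1 : lam ≤ 1) {k : ℕ} (η : Fin k → Ω) :
    0 ≤ zz v lam η := by
  unfold zz
  have : 0 ≤ ∑ i, wt v lam η i := Finset.sum_nonneg fun i _ => wt_nonneg hv h0 h1 η i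
  positivity

lemma zz_le (hv : ∀ ω, inT (v ω)) (h0 : 0 ≤ lam) (h1 : lam ≤ 1) {k : ℕ} (η : Fin k → Ω) :
    zz v lam η ≤ 3 ^ k := by
  unfold zz
  have h : ∑ i, wt v lam η i ≤ ∑ _i : Fin 3, (3 : ℝ) ^ k :=
    Finset.sum_le_sum fun i _ => wt_le hv h0 h1 η i
  simp only [Finset.sum_const, Finset.card_univ, Fintype.card_fin, nsmul_eq_mul] at h
  push_cast at h
  linarith

lemma wt_eq_zero_of_zz (hv : ∀ ω, inT (v ω)) (h0 : 0 ≤ lam) (h1 : lam ≤ 1) {k : ℕ}
    {η : Fin k → Ω} (hz : zz v lam η = 0) (i : Fin 3) : wt v lam η i = 0 := by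
  unfold zz at hz
  have hs : ∑ i, wt v lam η i = 0 := by linarith
  exact (Finset.sum_eq_zero_iff_of_nonneg (fun i _ => wt_nonneg hv h0 h1 η i)).1 hs i
    (Finset.mem_univ i)

lemma uu_inT (hv : ∀ ω, inT (v ω)) (h0 : 0 ≤ lam) (h1 : lam ≤ 1) {k : ℕ} {η : Fin k → Ω}
    (hz : 0 < zz v lam η) : inT (uu v lam η) := by
  refine ⟨?_, fun i => ?_⟩
  · unfold uu
    rw [Finset.sum_sub_distrib, ← Finset.sum_div]
    have : ∑ i, wt v lam η i = 3 * zz v lam η := by unfold zz; ring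
    rw [this]
    simp only [Finset.sum_const, Finset.card_univ, Fintype.card_fin, nsmul_eq_mul]
    field_simp
    norm_num
  · unfold uu
    have := div_nonneg (wt_nonneg hv h0 h1 η i) hz.le
    linarith

lemma wt_cons {k : ℕ} (ω : Ω) (η : Fin k → Ω) (i : Fin 3) :
    wt v lam (Fin.cons ω η : Fin (k + 1) → Ω) i = (1 + lam * v ω i) * wt v lam η i := by
  unfold wt
  rw [Fin.prod_univ_succ]
  simp

lemma zz_cons_zero (hv : ∀ ω, inT (v ω)) (h0 : 0 ≤ lam) (h1 : lam ≤ 1) {k : ℕ} (ω : Ω)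
    {η : Fin k → Ω} (hz : zz v lam η = 0) : zz v lam (Fin.cons ω η : Fin (k + 1) → Ω) = 0 := by
  unfold zz
  simp only [wt_cons, wt_eq_zero_of_zz hv h0 h1 hz, mul_zero, Finset.sum_const_zero]

lemma zz_cons (hv : ∀ ω, inT (v ω)) (h0 : 0 ≤ lam) (h1 : lam ≤ 1) {k : ℕ} (ω : Ω)
    {η : Fin k → Ω} (hz : 0 < zz v lam η) :
    zz v lam (Fin.cons ω η : Fin (k + 1) → Ω)
      = zz v lam η * mM (uu v lam η) (fun i => lam * v ω i) := by
  have hu := uu_inT hv h0 h1 hz
  have hsu := hu.1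
  have hsv := (hv ω).1
  unfold mM
  have hw : ∀ i, wt v lam η i = zz v lam η * (1 + uu v lam η i) := by
    intro i
    unfold uu
    field_simp
    ring
  have : zz v lam (Fin.cons ω η : Fin (k + 1) → Ω)
      = (1 / 3) * ∑ i, (1 + lam * v ω i) * (zz v lam η * (1 + uu v lam η i)) := by
    unfold zz
    congr 1
    apply Finset.sum_congr rfl
    intro i _
    rw [wt_cons]
    congr 1
    exact hw i
  rw [this]
  simp only [Fin.sum_univ_three] at hsu hsv ⊢
  have e1 : uu v lam η 0 + uu v lam η 1 + uu v lam η 2 = 0 := hsu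
  have e2 : v ω 0 + v ω 1 + v ω 2 = 0 := hsv
  have e3 : v ω 2 = - v ω 0 - v ω 1 := by linarith
  have e4 : uu v lam η 2 = - uu v lam η 0 - uu v lam η 1 := by linarith
  rw [e3, e4]
  ring

lemma uu_cons (hv : ∀ ω, inT (v ω)) (h0 : 0 ≤ lam) (h1 : lam ≤ 1) {k : ℕ} (ω : Ω)
    {η : Fin k → Ω} (hz : 0 < zz v lam η) :
    uu v lam (Fin.cons ω η : Fin (k + 1) → Ω)
      = vV (uu v lam η) (fun i => lam * v ω i) := by
  funext i
  have hzc := zz_cons hv h0 h1 ω hz
  have hw : 1 + uu v lam η i = wt v lam η i / zz v lam η := by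
    unfold uu; ring
  unfold vV
  rw [hw]
  conv_lhs => unfold uu
  rw [wt_cons, hzc]
  by_cases hm : mM (uu v lam η) (fun i => lam * v ω i) = 0
  · simp [hm]
  · field_simp

lemma mM_nonneg_le {u w : Fin 3 → ℝ} (hu : inT u) (hw : inT w) :
    0 ≤ mM u w ∧ mM u w ≤ 3 := by
  have e : mM u w = (1 / 3) * ((1 + u 0) * (1 + w 0) + (1 + u 1) * (1 + w 1)
      + (1 + u 2) * (1 + w 2)) := by
    unfold mM
    have e1 := inT_sum hu
    have e2 := inT_sum hw
    simp only [Fin.sum_univ_three]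
    have e3 : w 2 = - w 0 - w 1 := by linarith
    have e4 : u 2 = - u 0 - u 1 := by linarith
    rw [e3, e4]
    ring
  have a0 := hu.2 0
  have a1 := hu.2 1
  have a2 := hu.2 2
  have b0 := hw.2 0
  have b1 := hw.2 1
  have b2 := hw.2 2
  have c0 := le_two hw 0
  have c1 := le_two hw 1
  have c2 := le_two hw 2
  have es := inT_sum hu
  constructor
  · rw [e]
    have h0 : 0 ≤ (1 + u 0) * (1 + w 0) := mul_nonneg (by linarith) (by linarith)
    have h1 : 0 ≤ (1 + u 1) * (1 + w 1) := mul_nonneg (by linarith) (by linarith)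
    have h2 : 0 ≤ (1 + u 2) * (1 + w 2) := mul_nonneg (by linarith) (by linarith)
    linarith
  · rw [e]
    have h0 : (1 + u 0) * (1 + w 0) ≤ (1 + u 0) * 3 :=
      mul_le_mul_of_nonneg_left (by linarith) (by linarith)
    have h1 : (1 + u 1) * (1 + w 1) ≤ (1 + u 1) * 3 :=
      mul_le_mul_of_nonneg_left (by linarith) (by linarith)
    have h2 : (1 + u 2) * (1 + w 2) ≤ (1 + u 2) * 3 :=
      mul_le_mul_of_nonneg_left (by linarith) (by linarith)
    linarith

lemma vV_inT {u w : Fin 3 → ℝ} (hu : inT u) (hw : inT w) (hm : 0 < mM u w) : inT (vV u w) := by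
  refine ⟨?_, fun i => ?_⟩
  · unfold vV
    rw [Finset.sum_sub_distrib, ← Finset.sum_div]
    have e1 := inT_sum hu
    have e2 := inT_sum hw
    have : ∑ i, (1 + u i) * (1 + w i) = 3 * mM u w := by
      unfold mM
      simp only [Fin.sum_univ_three]
      have e3 : w 2 = - w 0 - w 1 := by linarith
      have e4 : u 2 = - u 0 - u 1 := by linarith
      rw [e3, e4]
      ring
    rw [this]
    simp only [Finset.sum_const, Finset.card_univ, Fintype.card_fin, nsmul_eq_mul]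
    field_simp
    norm_num
  · unfold vV
    have h1 := hu.2 i
    have h2 := hw.2 i
    have : 0 ≤ (1 + u i) * (1 + w i) / mM u w :=
      div_nonneg (mul_nonneg (by linarith) (by linarith)) hm.le
    linarith

lemma hasSum_prodP {Q : Ω → ℝ} (hQ : ∀ ω, 0 ≤ Q ω) (hs : HasSum Q 1) (k : ℕ) :
    HasSum (fun η : Fin k → Ω => ∏ c, Q (η c)) 1 := by
  induction k with
  | zero =>
    have := hasSum_unique (fun η : Fin 0 → Ω => ∏ c, Q (η c))
    simpa using this
  | succ k ih =>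
    let e : Ω × (Fin k → Ω) ≃ (Fin (k + 1) → Ω) := Fin.consEquiv (fun _ : Fin (k + 1) => Ω)
    have he : ∀ x, e x = (Fin.cons x.1 x.2 : Fin (k + 1) → Ω) := fun _ => rfl
    refine e.hasSum_iff.1 ?_
    have hc : ((fun η : Fin (k + 1) → Ω => ∏ c, Q (η c)) ∘ e)
        = fun x : Ω × (Fin k → Ω) => Q x.1 * ∏ c, Q (x.2 c) := by
      funext x
      simp only [Function.comp, he]
      rw [Fin.prod_univ_succ]
      simp
    rw [hc]
    have hQ' : (0 : Ω → ℝ) ≤ Q := hQ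
    have hg : (0 : (Fin k → Ω) → ℝ) ≤ fun η => ∏ c, Q (η c) :=
      fun η => Finset.prod_nonneg fun c _ => hQ _
    have hprod : Summable (fun x : Ω × (Fin k → Ω) => Q x.1 * ∏ c, Q (x.2 c)) :=
      Summable.mul_of_nonneg (f := Q) (g := fun η : Fin k → Ω => ∏ c, Q (η c))
        hs.summable ih.summable hQ' hg
    have := hs.mul ih hprod
    simpa using this

lemma prodP_nonneg (hP : ∀ ω, 0 ≤ P ω) {k : ℕ} (η : Fin k → Ω) : 0 ≤ ∏ c, P (η c) :=
  Finset.prod_nonneg fun c _ => hP _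

lemma wW_nonneg (hP : ∀ ω, 0 ≤ P ω) (hv : ∀ ω, inT (v ω)) (h0 : 0 ≤ lam) (h1 : lam ≤ 1) {k : ℕ}
    (η : Fin k → Ω) : 0 ≤ wW P v lam η :=
  mul_nonneg (prodP_nonneg hP η) (zz_nonneg hv h0 h1 η)

lemma summable_wW (hP : ∀ ω, 0 ≤ P ω) (hs : HasSum P 1) (hv : ∀ ω, inT (v ω)) (h0 : 0 ≤ lam)
    (h1 : lam ≤ 1) (k : ℕ) : Summable (fun η : Fin k → Ω => wW P v lam η) := by
  refine Summable.of_nonneg_of_le (fun η => wW_nonneg hP hv h0 h1 η) (fun η => ?_)
    ((hasSum_prodP hP hs k).summable.mul_right ((3 : ℝ) ^ k))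
  exact mul_le_mul_of_nonneg_left (zz_le hv h0 h1 η) (prodP_nonneg hP η)

lemma term_bound (hP : ∀ ω, 0 ≤ P ω) (hv : ∀ ω, inT (v ω)) (h0 : 0 ≤ lam) (h1 : lam ≤ 1) {k : ℕ}
    {F : (Fin 3 → ℝ) → ℝ} {M : ℝ} (hM : ∀ u, inT u → |F u| ≤ M) (η : Fin k → Ω) :
    |wW P v lam η * F (uu v lam η)| ≤ wW P v lam η * M := by
  rw [abs_mul, abs_of_nonneg (wW_nonneg hP hv h0 h1 η)]
  rcases (zz_nonneg hv h0 h1 η).eq_or_lt with hz | hz
  · have : wW P v lam η = 0 := by unfold wW; rw [← hz, mul_zero]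
    rw [this]; simp
  · exact mul_le_mul_of_nonneg_left (hM _ (uu_inT hv h0 h1 hz)) (wW_nonneg hP hv h0 h1 η)

lemma summable_term (hP : ∀ ω, 0 ≤ P ω) (hs : HasSum P 1) (hv : ∀ ω, inT (v ω)) (h0 : 0 ≤ lam)
    (h1 : lam ≤ 1) (k : ℕ) {F : (Fin 3 → ℝ) → ℝ} (hF : BT F) :
    Summable (fun η : Fin k → Ω => wW P v lam η * F (uu v lam η)) := by
  obtain ⟨M, hM⟩ := hF
  refine Summable.of_norm_bounded ((summable_wW hP hs hv h0 h1 k).mul_right M) (fun η => ?_)
  rw [Real.norm_eq_abs]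
  exact term_bound hP hv h0 h1 hM η

lemma summable_P_bdd (hs : HasSum P 1) (hP : ∀ ω, 0 ≤ P ω) {f : Ω → ℝ} {M : ℝ}
    (hf : ∀ ω, |f ω| ≤ M) : Summable (fun ω => P ω * f ω) := by
  refine Summable.of_norm_bounded (hs.summable.mul_right M) (fun ω => ?_)
  rw [Real.norm_eq_abs, abs_mul, abs_of_nonneg (hP ω)]
  exact mul_le_mul_of_nonneg_left (hf ω) (hP ω)

lemma inT_lam (hv : ∀ ω, inT (v ω)) (h0 : 0 ≤ lam) (h1 : lam ≤ 1) (ω : Ω) :
    inT (fun i => lam * v ω i) := inT_smul (hv ω) h0 h1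

lemma mM_term_bound {F : (Fin 3 → ℝ) → ℝ} {M : ℝ} (hM : ∀ u, inT u → |F u| ≤ M)
    {u w : Fin 3 → ℝ} (hu : inT u) (hw : inT w) : |mM u w * F (vV u w)| ≤ 3 * max M 0 := by
  obtain ⟨a, b⟩ := mM_nonneg_le hu hw
  rw [abs_mul, abs_of_nonneg a]
  rcases a.eq_or_lt with hz | hz
  · rw [← hz]
    simp only [zero_mul]
    positivity
  · have := hM _ (vV_inT hu hw hz)
    have h2 : |F (vV u w)| ≤ max M 0 := this.trans (le_max_left _ _)
    exact mul_le_mul b h2 (abs_nonneg _) (by norm_num)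

lemma BT_Top (hP : ∀ ω, 0 ≤ P ω) (hs : HasSum P 1) (hv : ∀ ω, inT (v ω)) (h0 : 0 ≤ lam)
    (h1 : lam ≤ 1) {F : (Fin 3 → ℝ) → ℝ} (hF : BT F) : BT (Top P v lam F) := by
  obtain ⟨M, hM⟩ := hF
  refine ⟨3 * max M 0, fun u hu => ?_⟩
  unfold Top
  have hb := fun ω => mM_term_bound hM hu (inT_lam hv h0 h1 ω)
  have hsum := summable_P_bdd hs hP hb
  have hn : ‖∑' ω, P ω * (mM u (fun i => lam * v ω i) * F (vV u (fun i => lam * v ω i)))‖
      ≤ ∑' ω, P ω * (3 * max M 0) := by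
    refine tsum_of_norm_bounded (hs.summable.mul_right _ |>.hasSum) (fun ω => ?_)
    rw [Real.norm_eq_abs, abs_mul, abs_of_nonneg (hP ω)]
    exact mul_le_mul_of_nonneg_left (hb ω) (hP ω)
  rw [Real.norm_eq_abs] at hn
  rwa [tsum_mul_right, hs.tsum_eq, one_mul] at hn

/-- One merging step for the functional `Ak`. -/
lemma Ak_succ (hP : ∀ ω, 0 ≤ P ω) (hs : HasSum P 1) (hv : ∀ ω, inT (v ω)) (h0 : 0 ≤ lam)
    (h1 : lam ≤ 1) (k : ℕ) {F : (Fin 3 → ℝ) → ℝ} (hF : BT F) :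
    Ak P v lam (k + 1) F = Ak P v lam k (Top P v lam F) := by
  unfold Ak
  let e : (Fin k → Ω) × Ω ≃ (Fin (k + 1) → Ω) :=
    (Equiv.prodComm _ _).trans (Fin.consEquiv (fun _ : Fin (k + 1) => Ω))
  have he : ∀ x, e x = (Fin.cons x.2 x.1 : Fin (k + 1) → Ω) := fun _ => rfl
  have hsum := summable_term (P := P) (v := v) (lam := lam) hP hs hv h0 h1 (k + 1) hF
  have hsum' : Summable (fun x : (Fin k → Ω) × Ω => wW P v lam (e x) * F (uu v lam (e x))) :=
    (e.summable_iff (f := fun η : Fin (k + 1) → Ω => wW P v lam η * F (uu v lam η))).2 hsum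
  rw [← e.tsum_eq, hsum'.tsum_prod]
  apply tsum_congr
  intro η
  simp only [he]
  rcases (zz_nonneg hv h0 h1 η).eq_or_lt with hz | hz
  · have h2 : wW P v lam η = 0 := by unfold wW; rw [← hz, mul_zero]
    rw [h2, zero_mul]
    have : ∀ ω, wW P v lam (Fin.cons ω η : Fin (k + 1) → Ω)
        * F (uu v lam (Fin.cons ω η : Fin (k + 1) → Ω)) = 0 := by
      intro ω
      have : zz v lam (Fin.cons ω η : Fin (k + 1) → Ω) = 0 := zz_cons_zero hv h0 h1 ω hz.symm
      unfold wW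
      rw [this]; ring
    simp [this]
  · unfold Top
    rw [← tsum_mul_left]
    apply tsum_congr
    intro ω
    unfold wW
    rw [zz_cons hv h0 h1 ω hz, uu_cons hv h0 h1 ω hz, Fin.prod_univ_succ]
    simp only [Fin.cons_zero, Fin.cons_succ]
    ring

/-- Monotonicity of `Ak` on the message simplex. -/
lemma Ak_mono (hP : ∀ ω, 0 ≤ P ω) (hs : HasSum P 1) (hv : ∀ ω, inT (v ω)) (h0 : 0 ≤ lam)
    (h1 : lam ≤ 1) (k : ℕ) {F G : (Fin 3 → ℝ) → ℝ} (hF : BT F) (hG : BT G)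
    (h : ∀ u, inT u → F u ≤ G u) :
    Ak P v lam k F ≤ Ak P v lam k G := by
  unfold Ak
  apply Summable.tsum_le_tsum _ (summable_term hP hs hv h0 h1 k hF)
    (summable_term hP hs hv h0 h1 k hG)
  intro η
  rcases (zz_nonneg hv h0 h1 η).eq_or_lt with hz | hz
  · have h2 : wW P v lam η = 0 := by unfold wW; rw [← hz, mul_zero]
    rw [h2]; simp
  · exact mul_le_mul_of_nonneg_left (h _ (uu_inT hv h0 h1 hz)) (wW_nonneg hP hv h0 h1 η)

lemma Ak_zero (F : (Fin 3 → ℝ) → ℝ) : Ak P v lam 0 F = F 0 := by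
  unfold Ak
  have hu : ∀ η : Fin 0 → Ω, uu v lam η = 0 := by
    intro η
    funext i
    simp [uu, zz, wt]
  have hz : ∀ η : Fin 0 → Ω, wW P v lam η = 1 := by
    intro η
    simp [wW, zz, wt]
  simp [hu, hz]

lemma Ak_add (hP : ∀ ω, 0 ≤ P ω) (hs : HasSum P 1) (hv : ∀ ω, inT (v ω)) (h0 : 0 ≤ lam)
    (h1 : lam ≤ 1) (k : ℕ) {F G : (Fin 3 → ℝ) → ℝ} (hF : BT F) (hG : BT G) :
    Ak P v lam k (fun u => F u + G u) = Ak P v lam k F + Ak P v lam k G := by
  unfold Ak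
  rw [← (summable_term hP hs hv h0 h1 k hF).tsum_add (summable_term hP hs hv h0 h1 k hG)]
  apply tsum_congr
  intro η
  ring

lemma Ak_const_mul (k : ℕ) (c : ℝ) (F : (Fin 3 → ℝ) → ℝ) :
    Ak P v lam k (fun u => c * F u) = c * Ak P v lam k F := by
  unfold Ak
  rw [← tsum_mul_left]
  apply tsum_congr
  intro η
  ring

lemma hasSum_mM (hs : HasSum P 1) (hm : ∀ i, HasSum (fun ω => P ω * v ω i) 0) (u : Fin 3 → ℝ) :
    HasSum (fun ω => P ω * mM u (fun i => lam * v ω i)) 1 := by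
  have h : (fun ω => P ω * mM u (fun i => lam * v ω i))
      = fun ω => P ω + (1 / 3) * lam * (u 0 * (P ω * v ω 0)
          + (u 1 * (P ω * v ω 1) + u 2 * (P ω * v ω 2))) := by
    funext ω
    unfold mM
    simp only [Fin.sum_univ_three]
    ring
  rw [h]
  have h2 := hs.add ((((hm 0).mul_left (u 0)).add (((hm 1).mul_left (u 1)).add
    ((hm 2).mul_left (u 2)))).mul_left ((1 / 3) * lam))
  have e : (1 : ℝ) + (1 / 3) * lam * (u 0 * 0 + (u 1 * 0 + u 2 * 0)) = 1 := by ring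
  rwa [e] at h2

lemma Ak_one (hP : ∀ ω, 0 ≤ P ω) (hs : HasSum P 1) (hv : ∀ ω, inT (v ω)) (h0 : 0 ≤ lam)
    (h1 : lam ≤ 1) (hm : ∀ i, HasSum (fun ω => P ω * v ω i) 0) (k : ℕ) :
    Ak P v lam k (fun _ => 1) = 1 := by
  induction k with
  | zero => rw [Ak_zero]
  | succ k ih =>
    rw [Ak_succ hP hs hv h0 h1 k (BT_const 1)]
    have : Top P v lam (fun _ => (1 : ℝ)) = fun _ => 1 := by
      funext u
      unfold Top
      simp only [mul_one]
      exact (hasSum_mM hs hm u).tsum_eq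
    rw [this, ih]

/-- Averaging over the symmetry group. -/
lemma tsum_avg (hP : ∀ ω, 0 ≤ P ω) (hs : HasSum P 1) (hv : ∀ ω, inT (v ω))
    (hsym : ∀ (g : Equiv.Perm (Fin 3)) (H : (Fin 3 → ℝ) → ℝ),
      ∑' ω, P ω * H (fun i => v ω (g i)) = ∑' ω, P ω * H (v ω))
    {H : (Fin 3 → ℝ) → ℝ} {M : ℝ} (hH : ∀ w, inT w → |H w| ≤ M) :
    ∑' ω, P ω * H (v ω)
      = ∑' ω, P ω * ((1 / 6) * ∑ g : Equiv.Perm (Fin 3), H (fun i => v ω (g i))) := by
  have hsg : ∀ g : Equiv.Perm (Fin 3), Summable (fun ω => P ω * H (fun i => v ω (g i))) :=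
    fun g => summable_P_bdd hs hP (fun ω => hH _ (inT_perm (hv ω) g))
  have h1 : ∑' ω, P ω * ((1 / 6) * ∑ g : Equiv.Perm (Fin 3), H (fun i => v ω (g i)))
      = (1 / 6) * ∑ g : Equiv.Perm (Fin 3), ∑' ω, P ω * H (fun i => v ω (g i)) := by
    rw [← Summable.tsum_finsetSum (fun g _ => hsg g), ← tsum_mul_left]
    apply tsum_congr
    intro ω
    rw [Finset.mul_sum, Finset.mul_sum, Finset.mul_sum]
    apply Finset.sum_congr rfl
    intro g _
    ring
  rw [h1]
  simp_rw [hsym]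
  rw [Finset.sum_const, Finset.card_univ, Fintype.card_perm, Fintype.card_fin]
  simp only [Nat.factorial, nsmul_eq_mul]
  push_cast
  ring

/-- The averaged form of (I). -/
lemma TX_ge (hI : IneqIE) (h0 : 0 ≤ lam) (h1 : lam ≤ 1) (hP : ∀ ω, 0 ≤ P ω)
    (hs : HasSum P 1) (hv : ∀ ω, inT (v ω))
    (hsym : ∀ (g : Equiv.Perm (Fin 3)) (H : (Fin 3 → ℝ) → ℝ),
      ∑' ω, P ω * H (fun i => v ω (g i)) = ∑' ω, P ω * H (v ω))
    (u : Fin 3 → ℝ) (hu : inT u) :
    (∑' ω, P ω * (1 - (25 / 128) * (lam ^ (2 : ℕ) * sS (v ω))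
        + (11 / 1024) * (lam ^ (2 : ℕ) * sS (v ω)) ^ (2 : ℕ))) * xE u
        + lam ^ (3 : ℕ) * gG u * (1 - (21 / 128) * sS u) * ∑' ω, P ω * xE (v ω)
      ≤ Top P v lam xE u := by
  have hB : 0 ≤ gG u * (1 - (21 / 128) * sS u) := by
    have h1 := gG_nonneg hu
    have h2 := sS_le_six hu
    have h3 : 0 ≤ 1 - (21 / 128) * sS u := by linarith
    positivity
  have hl3 : 0 ≤ lam ^ (3 : ℕ) := by positivity
  have key : ∀ ω, (1 - (25 / 128) * (lam ^ (2 : ℕ) * sS (v ω))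
        + (11 / 1024) * (lam ^ (2 : ℕ) * sS (v ω)) ^ (2 : ℕ)) * xE u
        + lam ^ (3 : ℕ) * gG u * (1 - (21 / 128) * sS u) * xE (v ω)
      ≤ (1 / 6) * ∑ g : Equiv.Perm (Fin 3), (mM u (fun i => lam * v ω (g i))
          * xE (vV u (fun i => lam * v ω (g i)))) := by
    intro ω
    have I := hI u (fun i => lam * v ω i) hu (inT_lam hv h0 h1 ω)
    refine le_trans ?_ I
    rw [sS_smul]
    have hx := xE_smul_ge (hv ω) h0 h1
    have : lam ^ (3 : ℕ) * gG u * (1 - (21 / 128) * sS u) * xE (v ω)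
        ≤ gG u * (1 - (21 / 128) * sS u) * xE (fun i => lam * v ω i) := by
      have := mul_le_mul_of_nonneg_left hx hB
      linarith [this]
    linarith
  have hH : ∀ w : Fin 3 → ℝ, inT w →
      |mM u (fun i => lam * w i) * xE (vV u (fun i => lam * w i))| ≤ 3 * max 24 0 :=
    fun w hw => mM_term_bound (fun _ h => abs_xE_le h) hu (inT_smul hw h0 h1)
  have ha := tsum_avg hP hs hv hsym hH
  unfold Top
  rw [ha]
  have hS : ∀ ω, |sS (v ω)| ≤ 6 := fun ω => abs_sS_le (hv ω)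
  have hl2 : lam ^ (2 : ℕ) ≤ 1 := by nlinarith
  have hl20 : 0 ≤ lam ^ (2 : ℕ) := by positivity
  have hsum1 : Summable (fun ω => P ω * (1 - (25 / 128) * (lam ^ (2 : ℕ) * sS (v ω))
        + (11 / 1024) * (lam ^ (2 : ℕ) * sS (v ω)) ^ (2 : ℕ))) := by
    refine summable_P_bdd hs hP (M := 1 + 6 + 11) (fun ω => ?_)
    have h6 := sS_le_six (hv ω)
    have h00 := sS_nonneg (v ω)
    have a0 : 0 ≤ lam ^ (2 : ℕ) * sS (v ω) := by positivity
    have a1 : lam ^ (2 : ℕ) * sS (v ω) ≤ 6 := by nlinarith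
    rw [abs_le]
    constructor <;> nlinarith
  have hsum2 : Summable (fun ω => P ω * xE (v ω)) :=
    summable_P_bdd hs hP (fun ω => abs_xE_le (hv ω))
  have hsum3 : Summable (fun ω => P ω * ((1 / 6) * ∑ g : Equiv.Perm (Fin 3),
      (mM u (fun i => lam * v ω (g i)) * xE (vV u (fun i => lam * v ω (g i)))))) := by
    refine summable_P_bdd hs hP (M := 3 * max 24 0) (fun ω => ?_)
    have : |∑ g : Equiv.Perm (Fin 3), (mM u (fun i => lam * v ω (g i))
        * xE (vV u (fun i => lam * v ω (g i))))| ≤ ∑ _g : Equiv.Perm (Fin 3), 3 * max 24 0 := by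
      refine (Finset.abs_sum_le_sum_abs _ _).trans (Finset.sum_le_sum fun g _ => ?_)
      exact hH _ (inT_perm (hv ω) g)
    rw [Finset.sum_const, Finset.card_univ, Fintype.card_perm, Fintype.card_fin] at this
    simp only [Nat.factorial, nsmul_eq_mul] at this
    push_cast at this
    rw [abs_mul, abs_of_pos (by norm_num : (0:ℝ) < 1 / 6)]
    linarith
  calc _ = ∑' ω, P ω * ((1 - (25 / 128) * (lam ^ (2 : ℕ) * sS (v ω))
          + (11 / 1024) * (lam ^ (2 : ℕ) * sS (v ω)) ^ (2 : ℕ)) * xE u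
        + lam ^ (3 : ℕ) * gG u * (1 - (21 / 128) * sS u) * xE (v ω)) := by
        have h : ∀ ω, P ω * ((1 - (25 / 128) * (lam ^ (2 : ℕ) * sS (v ω))
          + (11 / 1024) * (lam ^ (2 : ℕ) * sS (v ω)) ^ (2 : ℕ)) * xE u
            + lam ^ (3 : ℕ) * gG u * (1 - (21 / 128) * sS u) * xE (v ω))
            = (P ω * (1 - (25 / 128) * (lam ^ (2 : ℕ) * sS (v ω))
              + (11 / 1024) * (lam ^ (2 : ℕ) * sS (v ω)) ^ (2 : ℕ))) * xE u
              + (lam ^ (3 : ℕ) * gG u * (1 - (21 / 128) * sS u)) * (P ω * xE (v ω)) := by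
          intro ω; ring
        simp_rw [h]
        rw [(hsum1.mul_right _).tsum_add (hsum2.mul_left _), tsum_mul_right, tsum_mul_left]
    _ ≤ _ := by
        refine Summable.tsum_le_tsum (fun ω => mul_le_mul_of_nonneg_left (key ω) (hP ω)) ?_ hsum3
        have h : (fun ω => P ω * ((1 - (25 / 128) * (lam ^ (2 : ℕ) * sS (v ω))
          + (11 / 1024) * (lam ^ (2 : ℕ) * sS (v ω)) ^ (2 : ℕ)) * xE u
            + lam ^ (3 : ℕ) * gG u * (1 - (21 / 128) * sS u) * xE (v ω)))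
            = fun ω => (P ω * (1 - (25 / 128) * (lam ^ (2 : ℕ) * sS (v ω))
              + (11 / 1024) * (lam ^ (2 : ℕ) * sS (v ω)) ^ (2 : ℕ))) * xE u
              + (lam ^ (3 : ℕ) * gG u * (1 - (21 / 128) * sS u)) * (P ω * xE (v ω)) := by
          funext ω; ring
        rw [h]
        exact (hsum1.mul_right _).add (hsum2.mul_left _)

/-- The averaged form of (II). -/
lemma TS_le (hII : IneqIIE) (h0 : 0 ≤ lam) (h1 : lam ≤ 1) (hP : ∀ ω, 0 ≤ P ω)
    (hs : HasSum P 1) (hv : ∀ ω, inT (v ω))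
    (hsym : ∀ (g : Equiv.Perm (Fin 3)) (H : (Fin 3 → ℝ) → ℝ),
      ∑' ω, P ω * H (fun i => v ω (g i)) = ∑' ω, P ω * H (v ω))
    (u : Fin 3 → ℝ) (hu : inT u) :
    Top P v lam sS u
      ≤ sS u + lam ^ (2 : ℕ) * (∑' ω, P ω * sS (v ω))
        - (57 / 256) * (lam ^ (2 : ℕ) * ∑' ω, P ω * sS (v ω)) * xE u
        - lam ^ (3 : ℕ) * lE u * ∑' ω, P ω * xE (v ω)
        - (1 / 1024) * (lam ^ (2 : ℕ) * ∑' ω, P ω * sS (v ω)) * sS u := by
  have hLn := lE_nonneg hu
  have key : ∀ ω, (1 / 6) * ∑ g : Equiv.Perm (Fin 3), (mM u (fun i => lam * v ω (g i))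
          * sS (vV u (fun i => lam * v ω (g i))))
      ≤ sS u + lam ^ (2 : ℕ) * sS (v ω) - (57 / 256) * (lam ^ (2 : ℕ) * sS (v ω)) * xE u
        - lam ^ (3 : ℕ) * lE u * xE (v ω) - (1 / 1024) * (lam ^ (2 : ℕ) * sS (v ω)) * sS u := by
    intro ω
    have I := hII u (fun i => lam * v ω i) hu (inT_lam hv h0 h1 ω)
    refine le_trans I ?_
    rw [sS_smul]
    have hx := xE_smul_ge (hv ω) h0 h1
    have : lE u * (lam ^ (3 : ℕ) * xE (v ω)) ≤ lE u * xE (fun i => lam * v ω i) :=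
      mul_le_mul_of_nonneg_left hx hLn
    nlinarith
  have hH : ∀ w : Fin 3 → ℝ, inT w →
      |mM u (fun i => lam * w i) * sS (vV u (fun i => lam * w i))| ≤ 3 * max 6 0 :=
    fun w hw => mM_term_bound (fun _ h => abs_sS_le h) hu (inT_smul hw h0 h1)
  have ha := tsum_avg hP hs hv hsym hH
  unfold Top
  rw [ha]
  have hsumS : Summable (fun ω => P ω * sS (v ω)) :=
    summable_P_bdd hs hP (fun ω => abs_sS_le (hv ω))
  have hsum2 : Summable (fun ω => P ω * xE (v ω)) :=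
    summable_P_bdd hs hP (fun ω => abs_xE_le (hv ω))
  have hsum3 : Summable (fun ω => P ω * ((1 / 6) * ∑ g : Equiv.Perm (Fin 3),
      (mM u (fun i => lam * v ω (g i)) * sS (vV u (fun i => lam * v ω (g i)))))) := by
    refine summable_P_bdd hs hP (M := 3 * max 6 0) (fun ω => ?_)
    have : |∑ g : Equiv.Perm (Fin 3), (mM u (fun i => lam * v ω (g i))
        * sS (vV u (fun i => lam * v ω (g i))))| ≤ ∑ _g : Equiv.Perm (Fin 3), 3 * max 6 0 := by
      refine (Finset.abs_sum_le_sum_abs _ _).trans (Finset.sum_le_sum fun g _ => ?_)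
      exact hH _ (inT_perm (hv ω) g)
    rw [Finset.sum_const, Finset.card_univ, Fintype.card_perm, Fintype.card_fin] at this
    simp only [Nat.factorial, nsmul_eq_mul] at this
    push_cast at this
    rw [abs_mul, abs_of_pos (by norm_num : (0:ℝ) < 1 / 6)]
    linarith
  have h : (fun ω => P ω * (sS u + lam ^ (2 : ℕ) * sS (v ω) - (57 / 256) * (lam ^ (2 : ℕ) * sS (v ω)) * xE u
        - lam ^ (3 : ℕ) * lE u * xE (v ω) - (1 / 1024) * (lam ^ (2 : ℕ) * sS (v ω)) * sS u))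
      = fun ω => P ω * sS u + (lam ^ (2 : ℕ) * (1 - (57 / 256) * xE u - (1 / 1024) * sS u))
          * (P ω * sS (v ω)) + (-(lam ^ (3 : ℕ) * lE u)) * (P ω * xE (v ω)) := by
    funext ω; ring
  have hsumR : Summable (fun ω => P ω * (sS u + lam ^ (2 : ℕ) * sS (v ω)
        - (57 / 256) * (lam ^ (2 : ℕ) * sS (v ω)) * xE u
        - lam ^ (3 : ℕ) * lE u * xE (v ω) - (1 / 1024) * (lam ^ (2 : ℕ) * sS (v ω)) * sS u)) := by
    rw [h]
    exact ((hs.summable.mul_right _).add (hsumS.mul_left _)).add (hsum2.mul_left _)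
  calc _ ≤ ∑' ω, P ω * (sS u + lam ^ (2 : ℕ) * sS (v ω) - (57 / 256) * (lam ^ (2 : ℕ) * sS (v ω)) * xE u
        - lam ^ (3 : ℕ) * lE u * xE (v ω) - (1 / 1024) * (lam ^ (2 : ℕ) * sS (v ω)) * sS u) :=
        Summable.tsum_le_tsum (fun ω => mul_le_mul_of_nonneg_left (key ω) (hP ω)) hsum3 hsumR
    _ = _ := by
        rw [h]
        rw [((hs.summable.mul_right _).add (hsumS.mul_left _)).tsum_add (hsum2.mul_left _),
          (hs.summable.mul_right _).tsum_add (hsumS.mul_left _), tsum_mul_right, hs.tsum_eq,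
          tsum_mul_left, tsum_mul_left]
        ring

lemma xE_zero : xE (0 : Fin 3 → ℝ) = 0 := by
  simp [xE, sS, cC]

lemma sS_zero' : sS (0 : Fin 3 → ℝ) = 0 := by
  simp [sS]

lemma sum_S_nonneg (hP : ∀ ω, 0 ≤ P ω) : 0 ≤ ∑' ω, P ω * sS (v ω) :=
  tsum_nonneg fun ω => mul_nonneg (hP ω) (sS_nonneg _)

lemma sum_S_le (hP : ∀ ω, 0 ≤ P ω) (hs : HasSum P 1) (hv : ∀ ω, inT (v ω)) :
    ∑' ω, P ω * sS (v ω) ≤ 6 := by
  have h1 : Summable (fun ω => P ω * sS (v ω)) :=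
    summable_P_bdd hs hP (fun ω => abs_sS_le (hv ω))
  calc ∑' ω, P ω * sS (v ω) ≤ ∑' ω, P ω * 6 :=
        Summable.tsum_le_tsum (fun ω => mul_le_mul_of_nonneg_left (sS_le_six (hv ω)) (hP ω)) h1
          (hs.summable.mul_right _)
    _ = 6 := by rw [tsum_mul_right, hs.tsum_eq, one_mul]

lemma cbar_nonneg (hP : ∀ ω, 0 ≤ P ω) :
    0 ≤ ∑' ω, P ω * (1 - (25 / 128) * (lam ^ (2 : ℕ) * sS (v ω))
        + (11 / 1024) * (lam ^ (2 : ℕ) * sS (v ω)) ^ (2 : ℕ)) := by
  refine tsum_nonneg fun ω => mul_nonneg (hP ω) ?_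
  nlinarith [sq_nonneg (lam ^ (2 : ℕ) * sS (v ω) - 25 / 2 * (8 / 11))]

/-- `A_k(X) ≥ 0`. -/
theorem Ak_xE_nonneg (hI : IneqIE) (h0 : 0 ≤ lam) (h1 : lam ≤ 1)
    (hP : ∀ ω, 0 ≤ P ω) (hs : HasSum P 1) (hv : ∀ ω, inT (v ω))
    (hsym : ∀ (g : Equiv.Perm (Fin 3)) (H : (Fin 3 → ℝ) → ℝ),
      ∑' ω, P ω * H (fun i => v ω (g i)) = ∑' ω, P ω * H (v ω))
    (hx : 0 ≤ ∑' ω, P ω * xE (v ω)) (k : ℕ) : 0 ≤ Ak P v lam k xE := by
  induction k with
  | zero => rw [Ak_zero, xE_zero]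
  | succ k ih =>
    rw [Ak_succ hP hs hv h0 h1 k BT_xE]
    set cb := ∑' ω, P ω * (1 - (25 / 128) * (lam ^ (2 : ℕ) * sS (v ω))
        + (11 / 1024) * (lam ^ (2 : ℕ) * sS (v ω)) ^ (2 : ℕ)) with hcb
    have hc : 0 ≤ cb := cbar_nonneg hP
    have hm1 : Ak P v lam k (fun u => cb * xE u) ≤ Ak P v lam k (Top P v lam xE) := by
      apply Ak_mono hP hs hv h0 h1 k (BT_xE.const_mul cb) (BT_Top hP hs hv h0 h1 BT_xE)
      intro u hu
      refine le_trans ?_ (TX_ge hI h0 h1 hP hs hv hsym u hu)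
      have hB : 0 ≤ lam ^ (3 : ℕ) * gG u * (1 - (21 / 128) * sS u) * ∑' ω, P ω * xE (v ω) := by
        have h1 := gG_nonneg hu
        have h2 := sS_le_six hu
        have h3 : 0 ≤ 1 - (21 / 128) * sS u := by linarith
        positivity
      linarith
    rw [Ak_const_mul] at hm1
    exact le_trans (mul_nonneg hc ih) hm1

/-- One step for `A_k(s)`. -/
theorem Ak_sS_step (hI : IneqIE) (hII : IneqIIE) (h0 : 0 ≤ lam) (h1 : lam ≤ 1)
    (hP : ∀ ω, 0 ≤ P ω) (hs : HasSum P 1) (hv : ∀ ω, inT (v ω))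
    (hm : ∀ i, HasSum (fun ω => P ω * v ω i) 0)
    (hsym : ∀ (g : Equiv.Perm (Fin 3)) (H : (Fin 3 → ℝ) → ℝ),
      ∑' ω, P ω * H (fun i => v ω (g i)) = ∑' ω, P ω * H (v ω))
    (hx : 0 ≤ ∑' ω, P ω * xE (v ω)) (k : ℕ) :
    Ak P v lam (k + 1) sS ≤ (1 - (1 / 1024) * (lam ^ (2 : ℕ) * ∑' ω, P ω * sS (v ω)))
          * Ak P v lam k sS + lam ^ (2 : ℕ) * ∑' ω, P ω * sS (v ω) := by
  set y := ∑' ω, P ω * sS (v ω) with hy
  set x := ∑' ω, P ω * xE (v ω) with hxd
  have hy0 : 0 ≤ y := sum_S_nonneg hP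
  have hX := Ak_xE_nonneg hI h0 h1 hP hs hv hsym hx k
  rw [Ak_succ hP hs hv h0 h1 k BT_sS]
  have hBT : BT (fun u => (1 - (1 / 1024) * (lam ^ (2 : ℕ) * y)) * sS u
        + ((lam ^ (2 : ℕ) * y) * (fun _ => (1 : ℝ)) u + (-((57 / 256) * (lam ^ (2 : ℕ) * y))) * xE u)) :=
    (BT_sS.const_mul _).add (((BT_const 1).const_mul _).add (BT_xE.const_mul _))
  have hm1 : Ak P v lam k (Top P v lam sS)
      ≤ Ak P v lam k (fun u => (1 - (1 / 1024) * (lam ^ (2 : ℕ) * y)) * sS u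
          + ((lam ^ (2 : ℕ) * y) * (fun _ => (1 : ℝ)) u + (-((57 / 256) * (lam ^ (2 : ℕ) * y))) * xE u)) := by
    apply Ak_mono hP hs hv h0 h1 k (BT_Top hP hs hv h0 h1 BT_sS) hBT
    intro u hu
    refine le_trans (TS_le hII h0 h1 hP hs hv hsym u hu) ?_
    have hB : 0 ≤ lam ^ (3 : ℕ) * lE u * x := by
      have := lE_nonneg hu
      positivity
    simp only [← hy, ← hxd]
    linarith
  rw [Ak_add hP hs hv h0 h1 k (BT_sS.const_mul _)
      (((BT_const 1).const_mul _).add (BT_xE.const_mul _)),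
    Ak_add hP hs hv h0 h1 k ((BT_const 1).const_mul _) (BT_xE.const_mul _),
    Ak_const_mul, Ak_const_mul, Ak_const_mul, Ak_one hP hs hv h0 h1 hm] at hm1
  have : 0 ≤ (57 / 256) * (lam ^ (2 : ℕ) * y) * Ak P v lam k xE := by positivity
  nlinarith

/-- Bounds on `A_k(s)`. -/
theorem Ak_sS_le (hI : IneqIE) (hII : IneqIIE) (h0 : 0 ≤ lam) (h1 : lam ≤ 1)
    (hP : ∀ ω, 0 ≤ P ω) (hs : HasSum P 1) (hv : ∀ ω, inT (v ω))
    (hm : ∀ i, HasSum (fun ω => P ω * v ω i) 0)
    (hsym : ∀ (g : Equiv.Perm (Fin 3)) (H : (Fin 3 → ℝ) → ℝ),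
      ∑' ω, P ω * H (fun i => v ω (g i)) = ∑' ω, P ω * H (v ω))
    (hx : 0 ≤ ∑' ω, P ω * xE (v ω)) (k : ℕ) :
    Ak P v lam k sS ≤ (k : ℝ) * (lam ^ (2 : ℕ) * ∑' ω, P ω * sS (v ω))
      ∧ Ak P v lam (k + 2) sS ≤ ((k : ℝ) + 2) * (lam ^ (2 : ℕ) * ∑' ω, P ω * sS (v ω))
      - (1 / 1024) * (lam ^ (2 : ℕ) * ∑' ω, P ω * sS (v ω)) ^ (2 : ℕ) := by
  have hb := Ak_sS_step hI hII h0 h1 hP hs hv hm hsym hx
  set y := ∑' ω, P ω * sS (v ω) with hy
  have hy0 : 0 ≤ y := sum_S_nonneg hP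
  have hy6 : y ≤ 6 := sum_S_le hP hs hv
  set a := lam ^ (2 : ℕ) * y with ha
  have ha0 : 0 ≤ a := mul_nonneg (sq_nonneg _) hy0
  have hl2 : lam ^ (2 : ℕ) ≤ 1 := by nlinarith
  have ha3 : a ≤ 6 := by nlinarith
  have h1' : 0 ≤ 1 - (1 / 1024) * a := by linarith
  have hA0 : Ak P v lam 0 sS = 0 := by rw [Ak_zero, sS_zero']
  have hA1 : Ak P v lam 1 sS ≤ a := by
    have := hb 0
    rw [hA0] at this
    simpa using this
  constructor
  · induction k with
    | zero => simp [hA0]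
    | succ k ih =>
      have := hb k
      have h2 : (1 - (1 / 1024) * a) * Ak P v lam k sS ≤ (1 - (1 / 1024) * a) * ((k : ℝ) * a) :=
        mul_le_mul_of_nonneg_left ih h1'
      have h3 : 0 ≤ (k : ℝ) * a := by positivity
      push_cast
      nlinarith
  · induction k with
    | zero =>
      have := hb 1
      have h2 : (1 - (1 / 1024) * a) * Ak P v lam 1 sS ≤ (1 - (1 / 1024) * a) * a :=
        mul_le_mul_of_nonneg_left hA1 h1'
      norm_num at this ⊢
      nlinarith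
    | succ k ih =>
      have := hb (k + 2)
      have h2 : (1 - (1 / 1024) * a) * Ak P v lam (k + 2) sS
          ≤ (1 - (1 / 1024) * a) * (((k : ℝ) + 2) * a - (1 / 1024) * a ^ (2 : ℕ)) :=
        mul_le_mul_of_nonneg_left ih h1'
      have h3 : 0 ≤ ((k : ℝ) + 2) * a - (1 / 1024) * a ^ (2 : ℕ) := by
        have : (0 : ℝ) ≤ k := Nat.cast_nonneg k
        nlinarith [mul_nonneg this ha0]
      have h4 : (1 - (1 / 1024) * a) * (((k : ℝ) + 2) * a - (1 / 1024) * a ^ (2 : ℕ))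
          ≤ ((k : ℝ) + 2) * a - (1 / 1024) * a ^ (2 : ℕ) := by
        nlinarith [mul_nonneg ha0 h3]
      have e : k + 1 + 2 = k + 2 + 1 := by ring
      rw [e]
      push_cast
      linarith

end Abstract

/-! ### The Galton-Watson tree -/

section Concrete

variable (pi : ℕ → ℝ) (lam : ℝ)

/-- Marginal probability of an observation. -/
noncomputable def marg (n : ℕ) (η : Obs n) : ℝ := (1 / 3) * ∑ j, lik pi lam n j η

/-- The message of an observation (`0` on observations of probability zero). -/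
noncomputable def msg (n : ℕ) (η : Obs n) (i : Fin 3) : ℝ :=
  if marg pi lam n η = 0 then 0 else lik pi lam n i η / marg pi lam n η - 1

/-- Building an observation from its number of children and the observations below them. -/
def mk {n : ℕ} (k : ℕ) (f : Fin k → Obs n) : Obs (n + 1) :=
  (⟨k, f⟩ : Σ k : ℕ, (Fin k → Obs n))

lemma lik_zero (i : Fin 3) (η : Obs 0) :
    lik pi lam 0 i η = if i = obsSpin η then 1 else 0 := rfl

lemma lik_mk {n : ℕ} (i : Fin 3) (k : ℕ) (f : Fin k → Obs n) :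
    lik pi lam (n + 1) i (mk k f)
      = pi k * ∏ c : Fin k, ∑ j : Fin 3, potts lam i j * lik pi lam n j (f c) := rfl

lemma obs_succ_cases {n : ℕ} (η : Obs (n + 1)) : ∃ k f, η = mk k f := by
  revert η
  show ∀ η : (Σ k : ℕ, (Fin k → Obs n)), ∃ k f, η = mk k f
  rintro ⟨k, f⟩
  exact ⟨k, f, rfl⟩

variable {pi lam}

section Hyp

variable (h0pi : ∀ k, 0 ≤ pi k) (h1pi : HasSum pi 1) (h0 : 0 ≤ lam) (h1 : lam ≤ 1)

include h0 h1 in
lemma potts_nonneg (i j : Fin 3) : 0 ≤ potts lam i j := by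
  unfold potts
  split_ifs <;> linarith

lemma potts_row (i : Fin 3) : ∑ j, potts lam i j = 1 := by
  simp only [potts, Fin.sum_univ_three]
  fin_cases i <;> simp <;> ring

include h0pi h0 h1 in
lemma lik_nonneg (n : ℕ) (i : Fin 3) (η : Obs n) : 0 ≤ lik pi lam n i η := by
  induction n generalizing i with
  | zero =>
    rw [lik_zero]
    split_ifs <;> norm_num
  | succ n ih =>
    obtain ⟨k, f, rfl⟩ := obs_succ_cases η
    rw [lik_mk]
    exact mul_nonneg (h0pi k) (Finset.prod_nonneg fun c _ =>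
      Finset.sum_nonneg fun j _ => mul_nonneg (potts_nonneg h0 h1 i j) (ih j (f c)))

include h0pi h1pi h0 h1 in
lemma hasSum_lik (n : ℕ) (i : Fin 3) : HasSum (fun η : Obs n => lik pi lam n i η) 1 := by
  induction n generalizing i with
  | zero =>
    show HasSum (fun η : Fin 3 => if i = η then (1 : ℝ) else 0) 1
    have := hasSum_fintype (fun η : Fin 3 => if i = η then (1 : ℝ) else 0)
    simpa using this
  | succ n ih =>
    let Q : Obs n → ℝ := fun ω => ∑ j : Fin 3, potts lam i j * lik pi lam n j ω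
    have hQ : ∀ ω, 0 ≤ Q ω := fun ω => Finset.sum_nonneg fun j _ =>
      mul_nonneg (potts_nonneg h0 h1 i j) (lik_nonneg h0pi h0 h1 n j ω)
    have hQs : HasSum Q 1 := by
      have := hasSum_sum (s := Finset.univ) (fun (j : Fin 3) _ => (ih j).mul_left (potts lam i j))
      simp only [mul_one, potts_row] at this
      exact this
    have hk : ∀ k : ℕ, HasSum (fun f : Fin k → Obs n => pi k * ∏ c, Q (f c)) (pi k) := by
      intro k
      have := (hasSum_prodP hQ hQs k).mul_left (pi k)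
      simpa using this
    show HasSum (fun η : (Σ k : ℕ, (Fin k → Obs n)) => pi η.1 * ∏ c, Q (η.2 c)) 1
    refine HasSum.sigma_of_hasSum h1pi hk ?_
    rw [summable_sigma_of_nonneg (fun η => mul_nonneg (h0pi _) (Finset.prod_nonneg fun c _ => hQ _))]
    refine ⟨fun k => (hk k).summable, ?_⟩
    have : (fun k : ℕ => ∑' f : Fin k → Obs n, pi k * ∏ c, Q (f c)) = pi := by
      funext k
      exact (hk k).tsum_eq
    simp only [this]
    exact h1pi.summable

include h0pi h0 h1 in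
lemma marg_nonneg (n : ℕ) (η : Obs n) : 0 ≤ marg pi lam n η := by
  unfold marg
  have : 0 ≤ ∑ j, lik pi lam n j η := Finset.sum_nonneg fun j _ => lik_nonneg h0pi h0 h1 n j η
  positivity

include h0pi h1pi h0 h1 in
lemma hasSum_marg (n : ℕ) : HasSum (fun η : Obs n => marg pi lam n η) 1 := by
  have := (hasSum_sum (s := Finset.univ)
    (fun (j : Fin 3) _ => hasSum_lik h0pi h1pi h0 h1 n j)).mul_left (1 / 3 : ℝ)
  simpa [marg] using this

include h0pi h0 h1 in
lemma lik_eq_zero {n : ℕ} {η : Obs n} (hz : marg pi lam n η = 0) (i : Fin 3) :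
    lik pi lam n i η = 0 := by
  unfold marg at hz
  have hs : ∑ j, lik pi lam n j η = 0 := by linarith
  exact (Finset.sum_eq_zero_iff_of_nonneg (fun j _ => lik_nonneg h0pi h0 h1 n j η)).1 hs i
    (Finset.mem_univ i)

include h0pi h0 h1 in
lemma msg_inT {n : ℕ} (η : Obs n) : inT (msg pi lam n η) := by
  by_cases hz : marg pi lam n η = 0
  · have : msg pi lam n η = 0 := by
      funext i
      simp [msg, hz]
    rw [this]
    refine ⟨by simp, fun i => by simp⟩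
  · have hzp : 0 < marg pi lam n η := lt_of_le_of_ne (marg_nonneg h0pi h0 h1 n η) (Ne.symm hz)
    refine ⟨?_, fun i => ?_⟩
    · unfold msg
      simp only [if_neg hz]
      rw [Finset.sum_sub_distrib, ← Finset.sum_div]
      have : ∑ i, lik pi lam n i η = 3 * marg pi lam n η := by unfold marg; ring
      rw [this]
      simp only [Finset.sum_const, Finset.card_univ, Fintype.card_fin, nsmul_eq_mul]
      field_simp
      norm_num
    · unfold msg
      simp only [if_neg hz]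
      have := div_nonneg (lik_nonneg h0pi h0 h1 n i η) hzp.le
      linarith

include h0pi h0 h1 in
/-- Key identity: the channel acts on the message by multiplication with `lam`. -/
lemma potts_lik {n : ℕ} (i : Fin 3) (ω : Obs n) :
    ∑ j, potts lam i j * lik pi lam n j ω = marg pi lam n ω * (1 + lam * msg pi lam n ω i) := by
  rw [Vale.Agent.Lib.P154.potts_sum]
  have e : (1 / 3) * ∑ j, lik pi lam n j ω = marg pi lam n ω := rfl
  rw [e]
  by_cases hz : marg pi lam n ω = 0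
  · rw [hz, lik_eq_zero h0pi h0 h1 hz i]
    ring
  · unfold msg
    simp only [if_neg hz]
    field_simp
    ring

include h0pi h1pi h0 h1 in
lemma msg_mean (n : ℕ) (i : Fin 3) :
    HasSum (fun η : Obs n => marg pi lam n η * msg pi lam n η i) 0 := by
  have h : (fun η : Obs n => marg pi lam n η * msg pi lam n η i)
      = fun η => lik pi lam n i η - marg pi lam n η := by
    funext η
    by_cases hz : marg pi lam n η = 0
    · rw [hz, lik_eq_zero h0pi h0 h1 hz i]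
      ring
    · unfold msg
      simp only [if_neg hz]
      field_simp
  rw [h]
  have := (hasSum_lik h0pi h1pi h0 h1 n i).sub (hasSum_marg h0pi h1pi h0 h1 n)
  simpa using this

/-- Symmetric group action on observations. -/
def act (g : Equiv.Perm (Fin 3)) : (n : ℕ) → Obs n → Obs n
  | 0, η => (g (obsSpin η) : Fin 3)
  | n + 1, η => mk (obsNum η) (fun c => act g n (obsChild η c))

lemma act_mk (g : Equiv.Perm (Fin 3)) {n : ℕ} (k : ℕ) (f : Fin k → Obs n) :
    act g (n + 1) (mk k f) = mk k (fun c => act g n (f c)) := rfl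

lemma act_inv (g : Equiv.Perm (Fin 3)) (n : ℕ) (η : Obs n) :
    act g⁻¹ n (act g n η) = η := by
  induction n with
  | zero =>
    exact g.symm_apply_apply η
  | succ n ih =>
    obtain ⟨k, f, rfl⟩ := obs_succ_cases η
    rw [act_mk, act_mk]
    congr 1
    funext c
    exact ih (f c)

lemma act_bij (g : Equiv.Perm (Fin 3)) (n : ℕ) :
    Function.Bijective (act g n : Obs n → Obs n) := by
  constructor
  · intro a b h
    have := congrArg (act g⁻¹ n) h
    rwa [act_inv, act_inv] at this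
  · intro b
    refine ⟨act g⁻¹ n b, ?_⟩
    have := act_inv g⁻¹ n b
    rwa [inv_inv] at this

lemma potts_act (g : Equiv.Perm (Fin 3)) (i j : Fin 3) : potts lam (g i) (g j) = potts lam i j := by
  simp [potts, g.injective.eq_iff]

lemma lik_act (g : Equiv.Perm (Fin 3)) (n : ℕ) (i : Fin 3) (η : Obs n) :
    lik pi lam n (g i) (act g n η) = lik pi lam n i η := by
  induction n generalizing i with
  | zero =>
    rw [lik_zero, lik_zero]
    show (if g i = g (obsSpin η) then (1 : ℝ) else 0) = _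
    simp [g.injective.eq_iff]
  | succ n ih =>
    obtain ⟨k, f, rfl⟩ := obs_succ_cases η
    rw [act_mk, lik_mk, lik_mk]
    congr 1
    apply Finset.prod_congr rfl
    intro c _
    rw [← Equiv.sum_comp g]
    apply Finset.sum_congr rfl
    intro j _
    rw [potts_act]
    congr 1
    exact ih j (f c)

lemma marg_act (g : Equiv.Perm (Fin 3)) (n : ℕ) (η : Obs n) :
    marg pi lam n (act g n η) = marg pi lam n η := by
  unfold marg
  rw [← Equiv.sum_comp g]
  simp_rw [lik_act]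

lemma msg_act (g : Equiv.Perm (Fin 3)) (n : ℕ) (η : Obs n) (i : Fin 3) :
    msg pi lam n (act g⁻¹ n η) i = msg pi lam n η (g i) := by
  unfold msg
  rw [marg_act]
  by_cases hz : marg pi lam n η = 0
  · simp [hz]
  · simp only [if_neg hz]
    congr 2
    have := lik_act (pi := pi) (lam := lam) g⁻¹ n (g i) η
    simpa using this

lemma msg_sym (g : Equiv.Perm (Fin 3)) (n : ℕ) (H : (Fin 3 → ℝ) → ℝ) :
    ∑' ω : Obs n, marg pi lam n ω * H (fun i => msg pi lam n ω (g i))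
      = ∑' ω : Obs n, marg pi lam n ω * H (msg pi lam n ω) := by
  rw [← (Equiv.ofBijective _ (act_bij g⁻¹ n)).tsum_eq
    (fun ω => marg pi lam n ω * H (msg pi lam n ω))]
  apply tsum_congr
  intro ω
  simp only [Equiv.ofBijective_apply]
  rw [marg_act]
  congr 2
  funext i
  exact (msg_act g n ω i).symm

include h0pi h0 h1 in
lemma lik_mk_wt {n : ℕ} (i : Fin 3) (k : ℕ) (f : Fin k → Obs n) :
    lik pi lam (n + 1) i (mk k f)
      = pi k * ((∏ c, marg pi lam n (f c)) * wt (msg pi lam n) lam f i) := by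
  rw [lik_mk]
  unfold wt
  rw [← Finset.prod_mul_distrib]
  congr 1
  apply Finset.prod_congr rfl
  intro c _
  exact potts_lik h0pi h0 h1 i (f c)

include h0pi h0 h1 in
lemma marg_mk {n : ℕ} (k : ℕ) (f : Fin k → Obs n) :
    marg pi lam (n + 1) (mk k f)
      = pi k * wW (marg pi lam n) (msg pi lam n) lam f := by
  unfold marg wW zz
  simp_rw [lik_mk_wt h0pi h0 h1]
  rw [← Finset.mul_sum, ← Finset.mul_sum]
  unfold marg
  ring

include h0pi h0 h1 in
lemma expect_term {n : ℕ} (F : (Fin 3 → ℝ) → ℝ) (k : ℕ) (f : Fin k → Obs n) :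
    marg pi lam (n + 1) (mk k f) * F (msg pi lam (n + 1) (mk k f))
      = pi k * (wW (marg pi lam n) (msg pi lam n) lam f * F (uu (msg pi lam n) lam f)) := by
  rw [marg_mk h0pi h0 h1]
  by_cases hz : pi k * wW (marg pi lam n) (msg pi lam n) lam f = 0
  · rw [hz, zero_mul, ← mul_assoc, hz, zero_mul]
  · have hmu : msg pi lam (n + 1) (mk k f) = uu (msg pi lam n) lam f := by
      funext i
      have hm : marg pi lam (n + 1) (mk k f) ≠ 0 := by
        rw [marg_mk h0pi h0 h1]; exact hz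
      show (if marg pi lam (n + 1) (mk k f) = 0 then 0
          else lik pi lam (n + 1) i (mk k f) / marg pi lam (n + 1) (mk k f) - 1)
        = wt (msg pi lam n) lam f i / zz (msg pi lam n) lam f - 1
      rw [if_neg hm, marg_mk h0pi h0 h1, lik_mk_wt h0pi h0 h1]
      unfold wW at hz ⊢
      have h1' : pi k ≠ 0 := fun h => hz (by rw [h, zero_mul])
      have h2' : ∏ c, marg pi lam n (f c) ≠ 0 := fun h => hz (by rw [h, zero_mul, mul_zero])
      have h3' : zz (msg pi lam n) lam f ≠ 0 := fun h => hz (by rw [h, mul_zero, mul_zero])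
      field_simp
    rw [hmu]
    ring

include h0pi h1pi h0 h1 in
lemma summable_obs {n : ℕ} {F : (Fin 3 → ℝ) → ℝ} (hF : BT F) :
    Summable (fun η : Obs n => marg pi lam n η * F (msg pi lam n η)) := by
  obtain ⟨M, hM⟩ := hF
  exact summable_P_bdd (hasSum_marg h0pi h1pi h0 h1 n) (marg_nonneg h0pi h0 h1 n)
    (fun ω => hM _ (msg_inT h0pi h0 h1 ω))

include h0pi h1pi h0 h1 in
/-- Expectation under depth `n + 1` is the mixture of merges of independent messages. -/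
lemma hasSum_level (n : ℕ) {F : (Fin 3 → ℝ) → ℝ} (hF : BT F) :
    HasSum (fun k => pi k * Ak (marg pi lam n) (msg pi lam n) lam k F)
      (∑' η : Obs (n + 1), marg pi lam (n + 1) η * F (msg pi lam (n + 1) η)) := by
  have hsum : Summable (fun η : (Σ k : ℕ, (Fin k → Obs n)) =>
      marg pi lam (n + 1) (mk η.1 η.2) * F (msg pi lam (n + 1) (mk η.1 η.2))) :=
    summable_obs h0pi h1pi h0 h1 (n := n + 1) hF
  have e : ∑' η : Obs (n + 1), marg pi lam (n + 1) η * F (msg pi lam (n + 1) η)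
      = ∑' η : (Σ k : ℕ, (Fin k → Obs n)),
        marg pi lam (n + 1) (mk η.1 η.2) * F (msg pi lam (n + 1) (mk η.1 η.2)) := rfl
  rw [e]
  have hinner : ∀ k, HasSum (fun f : Fin k → Obs n =>
      marg pi lam (n + 1) (mk k f) * F (msg pi lam (n + 1) (mk k f)))
      (pi k * Ak (marg pi lam n) (msg pi lam n) lam k F) := by
    intro k
    simp_rw [expect_term h0pi h0 h1]
    unfold Ak
    exact ((summable_term (marg_nonneg h0pi h0 h1 n) (hasSum_marg h0pi h1pi h0 h1 n)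
      (msg_inT h0pi h0 h1) h0 h1 k hF).hasSum).mul_left _
  exact (hsum.hasSum.sigma hinner)

/-- `y_n`. -/
noncomputable def yy (pi : ℕ → ℝ) (lam : ℝ) (n : ℕ) : ℝ :=
  ∑' η : Obs n, marg pi lam n η * sS (msg pi lam n η)

/-- `x_n`. -/
noncomputable def xx (pi : ℕ → ℝ) (lam : ℝ) (n : ℕ) : ℝ :=
  ∑' η : Obs n, marg pi lam n η * xE (msg pi lam n η)

include h0pi h0 h1 in
lemma yy_nonneg (n : ℕ) : 0 ≤ yy pi lam n :=
  tsum_nonneg fun η => mul_nonneg (marg_nonneg h0pi h0 h1 n η) (sS_nonneg _)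

lemma msg_zero_eq (η : Obs 0) (i : Fin 3) :
    msg pi lam 0 η i = if i = obsSpin η then 2 else -1 := by
  have hm : marg pi lam 0 η = 1 / 3 := by
    unfold marg
    simp only [lik_zero]
    have : ∑ j : Fin 3, (if j = obsSpin η then (1 : ℝ) else 0) = 1 := by simp
    rw [this]
    norm_num
  unfold msg
  rw [if_neg (by rw [hm]; norm_num), hm, lik_zero]
  split_ifs <;> norm_num

lemma xE_msg_zero (η : Obs 0) : 0 ≤ xE (msg pi lam 0 η) := by
  have hs : sS (msg pi lam 0 η) = 6 := by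
    unfold sS
    simp only [msg_zero_eq, Fin.sum_univ_three]
    generalize obsSpin η = t
    fin_cases t <;> simp <;> norm_num
  have hc : cC (msg pi lam 0 η) = 6 := by
    unfold cC
    simp only [msg_zero_eq, Fin.sum_univ_three]
    generalize obsSpin η = t
    fin_cases t <;> simp <;> norm_num
  unfold xE
  rw [hs, hc]
  norm_num

include h0pi h1pi h0 h1 in
lemma xx_nonneg (hI : IneqIE) (n : ℕ) : 0 ≤ xx pi lam n := by
  induction n with
  | zero =>
    exact tsum_nonneg fun η => mul_nonneg (marg_nonneg h0pi h0 h1 0 η) (xE_msg_zero η)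
  | succ n ih =>
    unfold xx
    rw [← (hasSum_level h0pi h1pi h0 h1 n BT_xE).tsum_eq]
    exact tsum_nonneg fun k => mul_nonneg (h0pi k)
      (Ak_xE_nonneg hI h0 h1 (marg_nonneg h0pi h0 h1 n) (hasSum_marg h0pi h1pi h0 h1 n)
        (msg_inT h0pi h0 h1) (fun g H => msg_sym g n H) ih k)

include h0pi h1pi h0 h1 in
/-- The recursion for `y_n`. -/
lemma yy_succ' (hI : IneqIE) (hII : IneqIIE) {d : ℝ} (hd : HasSum (fun k : ℕ => (k : ℝ) * pi k) d)
    {k0 : ℕ} (hk0 : 2 ≤ k0) (n : ℕ) :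
    yy pi lam (n + 1) ≤ d * (lam ^ (2 : ℕ) * yy pi lam n)
      - pi k0 * ((1 / 1024) * (lam ^ (2 : ℕ) * yy pi lam n) ^ (2 : ℕ)) := by
  have hb := Ak_sS_le (P := marg pi lam n) (v := msg pi lam n) hI hII h0 h1
    (marg_nonneg h0pi h0 h1 n) (hasSum_marg h0pi h1pi h0 h1 n) (msg_inT h0pi h0 h1)
    (msg_mean h0pi h1pi h0 h1 n) (fun g H => msg_sym g n H)
    (xx_nonneg h0pi h1pi h0 h1 hI n)
  set a := lam ^ (2 : ℕ) * yy pi lam n with ha
  have hL := hasSum_level h0pi h1pi h0 h1 n BT_sS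
  have hR := (hd.mul_right a).sub (hasSum_ite_eq k0 (pi k0 * ((1 / 1024) * a ^ (2 : ℕ))))
  refine hasSum_le (fun k => ?_) hL hR
  by_cases hk : k = k0
  · subst hk
    obtain ⟨m, rfl⟩ : ∃ m, k = m + 2 := ⟨k - 2, by omega⟩
    have := (hb m).2
    rw [if_pos rfl]
    have h2 := mul_le_mul_of_nonneg_left this (h0pi (m + 2))
    unfold yy at ha
    rw [← ha] at h2
    push_cast
    nlinarith
  · rw [if_neg hk]
    have := (hb k).1
    have h2 := mul_le_mul_of_nonneg_left this (h0pi k)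
    unfold yy at ha
    rw [← ha] at h2
    nlinarith

include h0pi h1pi h0 h1 in
lemma yy_tendsto (hI : IneqIE) (hII : IneqIIE) {d : ℝ} (hd : HasSum (fun k : ℕ => (k : ℝ) * pi k) d)
    {k0 : ℕ} (hk0 : 2 ≤ k0) (hk : 0 < pi k0) (h : d * lam ^ (2 : ℕ) ≤ 1) :
    Tendsto (yy pi lam) atTop (𝓝 0) := by
  have hy := yy_nonneg (pi := pi) h0pi h0 h1
  have hs := yy_succ' h0pi h1pi h0 h1 hI hII hd hk0
  have hd0 : 0 ≤ d := HasSum.nonneg (fun k => mul_nonneg (Nat.cast_nonneg k) (h0pi k)) hd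
  have hs2 : ∀ n, yy pi lam (n + 1) ≤ yy pi lam n
      - pi k0 * ((1 / 1024) * (lam ^ (2 : ℕ) * yy pi lam n) ^ (2 : ℕ)) := by
    intro n
    have := hs n
    have h2 : d * (lam ^ (2 : ℕ) * yy pi lam n) ≤ yy pi lam n := by
      have := mul_le_mul_of_nonneg_right h (hy n)
      nlinarith
    linarith
  have hanti : Antitone (yy pi lam) := by
    apply antitone_nat_of_succ_le
    intro n
    have := hs2 n
    have h3 : 0 ≤ pi k0 * ((1 / 1024) * (lam ^ (2 : ℕ) * yy pi lam n) ^ (2 : ℕ)) := by positivity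
    linarith
  rcases eq_or_lt_of_le h0 with rfl | hpos
  · have hz : ∀ n, yy pi 0 (n + 1) = 0 := by
      intro n
      apply le_antisymm _ (hy _)
      have := hs n
      simpa using this
    rw [← tendsto_add_atTop_iff_nat 1]
    simp only [hz]
    exact tendsto_const_nhds
  · have hbdd : BddBelow (Set.range (yy pi lam)) := ⟨0, by rintro _ ⟨n, rfl⟩; exact hy n⟩
    have hlim := tendsto_atTop_ciInf hanti hbdd
    set L := ⨅ n, yy pi lam n with hL
    have hL0 : 0 ≤ L := le_ciInf hy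
    have hlim1 : Tendsto (fun n => yy pi lam (n + 1)) atTop (𝓝 L) :=
      (tendsto_add_atTop_iff_nat 1).2 hlim
    have hlim2 : Tendsto (fun n => yy pi lam n
        - pi k0 * ((1 / 1024) * (lam ^ (2 : ℕ) * yy pi lam n) ^ (2 : ℕ))) atTop
        (𝓝 (L - pi k0 * ((1 / 1024) * (lam ^ (2 : ℕ) * L) ^ (2 : ℕ)))) :=
      hlim.sub ((((hlim.const_mul _).pow 2).const_mul _).const_mul _)
    have hle := le_of_tendsto_of_tendsto' hlim1 hlim2 hs2
    have hq : pi k0 * ((1 / 1024) * (lam ^ (2 : ℕ) * L) ^ (2 : ℕ)) ≤ 0 := by linarith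
    have hq2 : (lam ^ (2 : ℕ) * L) ^ (2 : ℕ) ≤ 0 := by
      by_contra hc
      push Not at hc
      have : 0 < pi k0 * ((1 / 1024) * (lam ^ (2 : ℕ) * L) ^ (2 : ℕ)) := by positivity
      linarith
    have hq' : lam ^ (2 : ℕ) * L = 0 := by
      have := sq_nonneg (lam ^ (2 : ℕ) * L)
      exact pow_eq_zero_iff (by norm_num) |>.1 (le_antisymm hq2 this)
    have hLz : L = 0 := by
      have hlp : lam ^ (2 : ℕ) ≠ 0 := by positivity
      exact (mul_eq_zero.1 hq').resolve_left hlp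
    rw [hLz] at hlim
    exact hlim

include h0pi h0 h1 in
lemma recon_eq (n : ℕ) :
    recon pi lam n = (1 / 6) * ∑' η : Obs n, marg pi lam n η * ∑ i, |msg pi lam n η i| := by
  unfold recon
  rw [← tsum_mul_left]
  apply tsum_congr
  intro η
  have h : ∀ i, |(1 / 3) * lik pi lam n i η - (1 / 3) * ((1 / 3) * ∑ j : Fin 3, lik pi lam n j η)|
      = (1 / 3) * marg pi lam n η * |msg pi lam n η i| := by
    intro i
    have e' : (1 / 3) * ∑ j : Fin 3, lik pi lam n j η = marg pi lam n η := rfl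
    rw [e']
    by_cases hz : marg pi lam n η = 0
    · rw [hz, lik_eq_zero h0pi h0 h1 hz i]
      simp
    · have hzp : 0 < marg pi lam n η :=
        lt_of_le_of_ne (marg_nonneg h0pi h0 h1 n η) (Ne.symm hz)
      have e : (1 / 3) * lik pi lam n i η - (1 / 3) * marg pi lam n η
          = (1 / 3) * marg pi lam n η * msg pi lam n η i := by
        unfold msg
        simp only [if_neg hz]
        field_simp
      rw [e, abs_mul, abs_of_pos (by positivity : 0 < (1 / 3) * marg pi lam n η)]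
  simp_rw [h]
  rw [← Finset.mul_sum]
  ring

include h0pi h1pi h0 h1 in
lemma recon_sq_le (n : ℕ) : recon pi lam n ^ (2 : ℕ) ≤ yy pi lam n / 12 := by
  rw [recon_eq h0pi h0 h1]
  have hP := marg_nonneg (pi := pi) (lam := lam) h0pi h0 h1 n
  have hs := hasSum_marg (pi := pi) (lam := lam) h0pi h1pi h0 h1 n
  set a : Obs n → ℝ := fun η => ∑ i, |msg pi lam n η i| with ha
  have hab : ∀ η, |a η| ≤ 6 := by
    intro η
    have hv := msg_inT (pi := pi) (lam := lam) h0pi h0 h1 η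
    rw [abs_of_nonneg (Finset.sum_nonneg fun i _ => abs_nonneg _)]
    simp only [ha, Fin.sum_univ_three]
    have b : ∀ i, |msg pi lam n η i| ≤ 2 := fun i =>
      abs_le.2 ⟨by linarith [hv.2 i], le_two hv i⟩
    linarith [b 0, b 1, b 2]
  have ha2 : ∀ η, |a η ^ (2 : ℕ)| ≤ 36 := by
    intro η
    rw [abs_pow]
    have := hab η
    have h0 := abs_nonneg (a η)
    nlinarith
  have hs1 : Summable (fun η => marg pi lam n η * a η) := summable_P_bdd hs hP hab
  have hs2 : Summable (fun η => marg pi lam n η * a η ^ (2 : ℕ)) := summable_P_bdd hs hP ha2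
  set m := ∑' η, marg pi lam n η * a η with hm
  have he : ∑' η, marg pi lam n η * (a η - m) ^ (2 : ℕ)
      = ∑' η, marg pi lam n η * a η ^ (2 : ℕ) - m ^ (2 : ℕ) := by
    have h : (fun η => marg pi lam n η * (a η - m) ^ (2 : ℕ))
        = fun η => marg pi lam n η * a η ^ (2 : ℕ) + (-(2 * m)) * (marg pi lam n η * a η)
          + m ^ (2 : ℕ) * marg pi lam n η := by
      funext η; ring
    rw [h, (hs2.add (hs1.mul_left _)).tsum_add (hs.summable.mul_left _),
      hs2.tsum_add (hs1.mul_left _), tsum_mul_left, tsum_mul_left, hs.tsum_eq, ← hm]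
    ring
  have hv : 0 ≤ ∑' η, marg pi lam n η * (a η - m) ^ (2 : ℕ) :=
    tsum_nonneg fun η => mul_nonneg (hP η) (sq_nonneg _)
  have hle : ∑' η, marg pi lam n η * a η ^ (2 : ℕ) ≤ 3 * yy pi lam n := by
    unfold yy
    rw [← tsum_mul_left]
    refine Summable.tsum_le_tsum (fun η => ?_) hs2 ?_
    · have := mul_le_mul_of_nonneg_left (sum_abs_sq_le (msg pi lam n η)) (hP η)
      simp only [ha]
      linarith
    · exact (summable_P_bdd hs hP (fun η => abs_sS_le (msg_inT h0pi h0 h1 η))).mul_left _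
  nlinarith

end Hyp

/-- **The framework**: the pointwise inequalities imply nonreconstruction on Galton-Watson trees
with a positive probability of at least two children. -/
theorem frameworkE (hI : IneqIE) (hII : IneqIIE) (pi : ℕ → ℝ) (h0pi : ∀ k, 0 ≤ pi k)
    (h1pi : HasSum pi 1) (d : ℝ) (hd : HasSum (fun k : ℕ => (k : ℝ) * pi k) d) (k0 : ℕ)
    (hk0 : 2 ≤ k0) (hk : 0 < pi k0) (lam : ℝ) (h0 : 0 ≤ lam) (h1 : lam ≤ 1)
    (h : d * lam ^ (2 : ℕ) ≤ 1) : Tendsto (recon pi lam) atTop (𝓝 0) := by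
  have hy := yy_tendsto h0pi h1pi h0 h1 hI hII hd hk0 hk h
  have hr0 : ∀ n, 0 ≤ recon pi lam n := by
    intro n
    unfold recon
    exact tsum_nonneg fun η => mul_nonneg (by norm_num)
      (Finset.sum_nonneg fun i _ => abs_nonneg _)
  have hsq : Tendsto (fun n => Real.sqrt (yy pi lam n / 12)) atTop (𝓝 0) := by
    have := (hy.div_const 12).sqrt
    simpa using this
  refine squeeze_zero hr0 (fun n => ?_) hsq
  exact Real.le_sqrt_of_sq_le (recon_sq_le h0pi h1pi h0 h1 n)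

lemma pois_nonneg {d : ℝ} (hd : 0 ≤ d) (k : ℕ) : 0 ≤ pois d k := by
  unfold pois; positivity

lemma hasSum_pois (d : ℝ) : HasSum (pois d) 1 := by
  have := (NormedSpace.expSeries_div_hasSum_exp (d : ℝ)).mul_left (Real.exp (-d))
  rw [← Real.exp_eq_exp_ℝ, ← Real.exp_add] at this
  simp only [neg_add_cancel, Real.exp_zero] at this
  have e : pois d = fun k => Real.exp (-d) * (d ^ k / (k.factorial : ℝ)) := by
    funext k
    unfold pois
    ring
  rw [e]
  exact this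

lemma hasSum_mean_pois (d : ℝ) : HasSum (fun k : ℕ => (k : ℝ) * pois d k) d := by
  rw [← hasSum_nat_add_iff' 1]
  simp only [Finset.sum_range_one, Nat.cast_zero, zero_mul, sub_zero]
  have := (hasSum_pois d).mul_left d
  rw [mul_one] at this
  have e : (fun k : ℕ => (((k + 1 : ℕ) : ℝ)) * pois d (k + 1)) = fun k => d * pois d k := by
    funext k
    unfold pois
    rw [Nat.factorial_succ]
    push_cast
    have h1 : ((k : ℝ) + 1) ≠ 0 := by positivity
    have h2 : (k.factorial : ℝ) ≠ 0 := by positivity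
    field_simp
    ring
  rw [e]
  exact this

/-- The Poisson case. -/
theorem frameworkE_pois (hI : IneqIE) (hII : IneqIIE) (d : ℝ) (hd : 0 < d) (lam : ℝ)
    (h0 : 0 ≤ lam) (h1 : lam ≤ 1) (h : d * lam ^ (2 : ℕ) ≤ 1) :
    Tendsto (recon (pois d) lam) atTop (𝓝 0) := by
  refine frameworkE hI hII (pois d) (pois_nonneg hd.le) (hasSum_pois d) d (hasSum_mean_pois d) 2
    le_rfl ?_ lam h0 h1 h
  unfold pois
  positivity

end Concrete

end Vale.Agent.Lib.P154E
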